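import Vale.Agent.Lib.helper7.KyFan

namespace Vale.Agent.P371

open Finset Filter Topology Vale.Agent.Lib.H7KyFan

theorem borsuk_ulam {M : ℕ} (g : (Fin (M + 1) → ℝ) → (Fin M → ℝ)) (hg : Continuous g)
    (hodd : ∀ x, g (-x) = -g x) : ∃ x, ∑ i, |x i| = 1 ∧ g x = 0 := by
  classical
  have h1 : ∑ i, |(Pi.single 0 1 : Fin (M + 1) → ℝ) i| = 1 := by simp [Fin.sum_univ_succ]
  cases M with
  | zero => exact ⟨_, h1, Subsingleton.elim _ _⟩
  | succ M =>
  by_contra hc
  push Not at hc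
  set S : Set (Fin (M + 2) → ℝ) := {x | ∑ i, |x i| = 1} with hS
  have hK : IsCompact S := by
    refine (isCompact_closedBall 0 1).of_isClosed_subset (isClosed_eq (by fun_prop)
      continuous_const) fun x hx => ?_
    rw [mem_closedBall_zero_iff, pi_norm_le_iff_of_nonneg zero_le_one]
    exact fun i => (single_le_sum (f := fun i => |x i|) (fun _ _ => abs_nonneg _)
      (mem_univ i)).trans (le_of_eq hx)
  obtain ⟨x0, hx0, hmin⟩ := hK.exists_isMinOn ⟨_, h1⟩ hg.norm.continuousOn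
  have hμ : 0 < ‖g x0‖ := norm_pos_iff.2 (hc x0 hx0)
  obtain ⟨η, hη, hu⟩ := Metric.uniformContinuousOn_iff_le.1
    (hK.uniformContinuousOn_of_continuous hg.continuousOn) _ hμ
  set c : (Fin (M + 2) → ℝ) → Fin (M + 1) :=
    fun x => Classical.epsilon fun i => ‖g x0‖ ≤ |g x i| with hcd
  have hcQ : ∀ x ∈ S, ‖g x0‖ ≤ |g x (c x)| := fun x hx => by
    refine Classical.epsilon_spec (p := fun i => ‖g x0‖ ≤ |g x i|) ?_
    by_contra h
    push Not at h
    exact absurd ((pi_norm_lt_iff hμ).2 h) (not_lt.2 (hmin hx))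
  set σ : (Fin (M + 2) → ℝ) → ZMod 2 := fun x => if 0 < g x (c x) then 0 else 1 with hσ
  obtain ⟨z, hz, -, hKF⟩ := exists_chain (M + 1) hη
  have h2 := hKF.alt_eq c σ (List.finRange (M + 1)) (List.nodup_finRange _)
    (fun _ _ => List.mem_finRange _) (fun x hx => by
      have e : c (-x) = c x := by simp only [hcd, hodd, Pi.neg_apply, abs_neg]
      refine ⟨e, ?_⟩
      have h0 : g x (c x) ≠ 0 := abs_pos.1 (hμ.trans_le (hcQ x hx))
      simp only [hσ, e, hodd, Pi.neg_apply, neg_pos]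
      rcases lt_or_gt_of_ne h0 with h | h
      · rw [if_pos h, if_neg h.not_gt]; decide
      · rw [if_neg h.not_gt, if_pos h]; decide)
    (fun x y hx hy hd hxy => by
      have a1 := hcQ x hx
      have a2 := hcQ y hy
      have a3 := (dist_le_pi_dist (g x) (g y) (c y)).trans (hu x hx y hy hd)
      rw [Real.dist_eq, abs_le] at a3
      simp only [hσ]
      rw [hxy] at a1 ⊢
      rw [le_abs] at a1 a2
      by_cases b1 : 0 < g x (c y) <;> by_cases b2 : 0 < g y (c y) <;> simp only [b1, b2, if_true,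
        if_false] <;> exfalso <;> rcases a1 with a1 | a1 <;> rcases a2 with a2 | a2 <;> linarith) 0
  rw [ev_congr (ψ := fun _ => 0) fun s hs => alt_long c σ _ 0 s (by simp [(hz s hs).1]),
    ev_zero] at h2
  exact zero_ne_one h2

theorem brouwer_fin {M : ℕ} (T : (Fin M → ℝ) → (Fin M → ℝ)) (hT : Continuous T) {ρ : ℝ}
    (hb : ∀ x, ‖T x‖ ≤ ρ) : ∃ x, T x = x := by
  have ht : Continuous fun p : Fin (M + 1) → ℝ => Fin.tail p :=
    continuous_pi fun i => continuous_apply _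
  have hc : Continuous fun p : Fin (M + 1) → ℝ => p 0 • T ((p 0)⁻¹ • Fin.tail p) := by
    refine continuous_iff_continuousAt.2 fun p => ?_
    by_cases h : p 0 = 0
    · refine tendsto_iff_norm_sub_tendsto_zero.2 (squeeze_zero (g := fun q => |q 0| * ρ)
        (fun _ => norm_nonneg _) (fun q => ?_) ?_)
      · beta_reduce
        rw [h, zero_smul, sub_zero, norm_smul]
        exact mul_le_mul_of_nonneg_left (hb _) (abs_nonneg _)
      · have : Continuous fun q : Fin (M + 1) → ℝ => |q 0| * ρ := by fun_prop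
        simpa [h] using this.tendsto p
    · exact (continuous_apply 0).continuousAt.smul (hT.continuousAt.comp
        (((continuous_apply 0).continuousAt.inv₀ h).smul ht.continuousAt))
  obtain ⟨p, hp, h0⟩ := borsuk_ulam (fun p => Fin.tail p - p 0 • T ((p 0)⁻¹ • Fin.tail p))
    (ht.sub hc) fun p => by
      have : Fin.tail (-p) = -Fin.tail p := rfl
      simp only [this, Pi.neg_apply, inv_neg, neg_smul, smul_neg, neg_neg]
      abel
  have h1 : p 0 ≠ 0 := by
    intro h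
    rw [h, zero_smul, sub_zero] at h0
    have : ∀ i : Fin M, p i.succ = 0 := fun i => congrFun h0 i
    simp [Fin.sum_univ_succ, h, this] at hp
  refine ⟨(p 0)⁻¹ • Fin.tail p, ?_⟩
  rw [eq_inv_smul_iff₀ h1]
  exact (sub_eq_zero.1 h0).symm

theorem brouwer {E : Type*} [NormedAddCommGroup E] [NormedSpace ℝ E] [FiniteDimensional ℝ E]
    (T : E → E) (hT : Continuous T) {ρ : ℝ} (hb : ∀ x, ‖T x‖ ≤ ρ) : ∃ x, T x = x := by
  let e : E ≃L[ℝ] (Fin (Module.finrank ℝ E) → ℝ) :=
    ContinuousLinearEquiv.ofFinrankEq (by simp)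
  obtain ⟨x, hx⟩ := brouwer_fin (fun x => e (T (e.symm x))) (by fun_prop)
    (ρ := ‖e.toContinuousLinearMap‖ * ρ) fun x => (e.toContinuousLinearMap.le_opNorm _).trans
      (mul_le_mul_of_nonneg_left (hb _) (norm_nonneg _))
  exact ⟨e.symm x, by rw [eq_comm, e.symm_apply_eq, hx]⟩

theorem leray {E : Type*} [NormedAddCommGroup E] [NormedSpace ℝ E] [FiniteDimensional ℝ E]
    (Φ : E → E) (hΦ : Continuous Φ) {ρ : ℝ} (hρ : 0 < ρ) :
    ∃ x, ∃ lam : ℝ, 0 ≤ lam ∧ Φ x = lam • x ∧ ‖x‖ ≤ ρ ∧ (lam = 0 ∨ ‖x‖ = ρ) := by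
  have hp : ∀ x, 0 < max ρ ‖x + Φ x‖ := fun x => lt_max_of_lt_left hρ
  have hb : ∀ x, ‖(ρ / max ρ ‖x + Φ x‖) • (x + Φ x)‖ ≤ ρ := fun x => by
    rw [norm_smul, Real.norm_of_nonneg (div_pos hρ (hp x)).le, div_mul_eq_mul_div,
      div_le_iff₀ (hp x)]
    exact mul_le_mul_of_nonneg_left (le_max_right _ _) hρ.le
  obtain ⟨x, hx⟩ := brouwer (fun x => (ρ / max ρ ‖x + Φ x‖) • (x + Φ x))
    (Continuous.smul (continuous_const.div (by fun_prop) fun x => (hp x).ne') (by fun_prop)) hb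
  refine ⟨x, max ρ ‖x + Φ x‖ / ρ - 1, ?_, ?_, hx ▸ hb x, ?_⟩
  · rw [sub_nonneg, le_div_iff₀ hρ, one_mul]; exact le_max_left _ _
  · have := congrArg ((max ρ ‖x + Φ x‖ / ρ) • ·) hx
    simp only [smul_smul] at this
    rw [show max ρ ‖x + Φ x‖ / ρ * (ρ / max ρ ‖x + Φ x‖) = 1 by
      have := (hp x).ne'; field_simp, one_smul] at this
    rw [sub_smul, ← this, one_smul, add_sub_cancel_left]
  · rcases le_total ‖x + Φ x‖ ρ with h | h
    · left; rw [max_eq_left h, div_self hρ.ne', sub_self]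
    · right
      have := congrArg norm hx
      rw [norm_smul, max_eq_right h, Real.norm_of_nonneg (div_nonneg hρ.le (norm_nonneg _)),
        div_mul_cancel₀ _ (hρ.trans_le h).ne'] at this
      exact this.symm

end Vale.Agent.P371
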