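import Vale.Agent.P371.S1

namespace Vale.Agent.P371

open Matrix Finset Filter Topology MeasureTheory
open scoped Matrix.Norms.Frobenius

variable {n : Type*} [Fintype n] [DecidableEq n]

noncomputable def kap (k : n → ℝ) (t : ℝ) : Matrix n n ℝ := diagonal fun i => √(k i ^ 2 + t)

noncomputable def ell (k : n → ℝ) (Y : Matrix n n ℝ) (t : ℝ) : Matrix n n ℝ :=
  mf Real.log (kap k t + Y) + mf Real.log (kap k t - Y) - Real.log t • (1 : Matrix n n ℝ)

def EE (k : n → ℝ) (Y : Matrix n n ℝ) : Matrix n n ℝ := diagonal k * diagonal k - Y * Y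

def Adm (k : n → ℝ) (Y : Matrix n n ℝ) : Prop :=
  (∀ i, 0 ≤ k i) ∧ PSD (diagonal k + Y) ∧ PSD (diagonal k - Y)

variable {k : n → ℝ} {Y : Matrix n n ℝ} {t : ℝ}

lemma Adm.neg (h : Adm k Y) : Adm k (-Y) :=
  ⟨h.1, by rw [← sub_eq_add_neg]; exact h.2.2, by rw [sub_neg_eq_add]; exact h.2.1⟩

lemma Adm.symm (h : Adm k Y) : Yᵀ = Y := by simpa [transpose_add] using h.2.1.1

omit [Fintype n] in
lemma kap_symm (k : n → ℝ) (t : ℝ) : (kap k t)ᵀ = kap k t := diagonal_transpose _

lemma Adm.symm_a (h : Adm k Y) (t : ℝ) : (kap k t + Y)ᵀ = kap k t + Y := by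
  rw [transpose_add, kap_symm, h.symm]

lemma Adm.symm_b (h : Adm k Y) (t : ℝ) : (kap k t - Y)ᵀ = kap k t - Y := by
  rw [transpose_sub, kap_symm, h.symm]

lemma Adm.pos_a (h : Adm k Y) (ht : 0 < t) (i : n) : 0 < ev (kap k t + Y) i := by
  obtain ⟨j, -, hj⟩ := exists_min_image univ (fun j => √(k j ^ 2 + t) - k j) ⟨i, mem_univ i⟩
  have h1 : 0 < √(k j ^ 2 + t) - k j := sub_pos.2 (Real.lt_sqrt_of_sq_lt (by linarith))
  refine h1.trans_le (le_ev ?_ i)
  have := (psd_diagonal (d := fun l => √(k l ^ 2 + t) - k l - (√(k j ^ 2 + t) - k j))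
    fun l => sub_nonneg.2 (hj l (mem_univ l))).add h.2.1
  rwa [← diagonal_sub, ← diagonal_sub, ← smul_one_eq_diagonal, show ∀ a b c d : Matrix n n ℝ,
    a - b - c + (b + d) = a + d - c from fun _ _ _ _ => by abel] at this

lemma Adm.pos_b (h : Adm k Y) (ht : 0 < t) (i : n) : 0 < ev (kap k t - Y) i := by
  rw [sub_eq_add_neg]; exact h.neg.pos_a ht i

lemma kap_sq (k : n → ℝ) (ht : 0 ≤ t) :
    kap k t * kap k t = diagonal k * diagonal k + t • (1 : Matrix n n ℝ) := by
  rw [kap, diagonal_mul_diagonal, diagonal_mul_diagonal, smul_one_eq_diagonal, diagonal_add]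
  congr 1; ext i
  rw [Real.mul_self_sqrt (by positivity), sq]

lemma EE_add (k : n → ℝ) (Y : Matrix n n ℝ) (ht : 0 ≤ t) :
    EE k Y + t • (1 : Matrix n n ℝ) = kap k t * kap k t - Y * Y := by
  rw [kap_sq k ht, EE]; abel

lemma hasDerivAt_kap (k : n → ℝ) (ht : 0 < t) :
    HasDerivAt (kap k) (diagonal fun i => 1 / (2 * √(k i ^ 2 + t))) t := by
  refine hasDerivAt_mat.2 fun a b => ?_
  simp only [kap, diagonal_apply]
  split_ifs
  · exact ((hasDerivAt_id t).const_add (k a ^ 2)).sqrt (by positivity)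
  · exact hasDerivAt_const _ _

omit [Fintype n] in
lemma continuous_kap (k : n → ℝ) : Continuous (kap k) := by
  unfold kap
  fun_prop

noncomputable def Psi (k : n → ℝ) (Y : Matrix n n ℝ) (t : ℝ) : ℝ :=
  ((EE k Y + t • (1 : Matrix n n ℝ)) * ell k Y t).trace

lemma Adm.psi_deriv (h : Adm k Y) (ht : 0 < t) :
    ∃ D, HasDerivAt (Psi k Y) D t ∧ D ≤ (ell k Y t).trace - (EE k Y).trace / t := by
  have hk := hasDerivAt_kap k ht
  have hc : ∀ i, 0 < √(k i ^ 2 + t) := fun i => Real.sqrt_pos.2 (by positivity)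
  have d1 := hasDerivAt_mf (Eventually.of_forall h.symm_a)
    (HasDerivAt.madd hk (hasDerivAt_mconst Y t)) (g := Real.log)
    fun j => Real.differentiableAt_log (h.pos_a ht j).ne'
  have d2 := hasDerivAt_mf (Eventually.of_forall h.symm_b)
    (HasDerivAt.msub hk (hasDerivAt_mconst Y t)) (g := Real.log)
    fun j => Real.differentiableAt_log (h.pos_b ht j).ne'
  have d3 := HasDerivAt.msmul (Real.hasDerivAt_log ht.ne') (1 : Matrix n n ℝ)
  have d4 := HasDerivAt.madd (hasDerivAt_mconst (EE k Y) t)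
    (HasDerivAt.msmul (hasDerivAt_id t) (1 : Matrix n n ℝ))
  refine ⟨_, hasDerivAt_trace (HasDerivAt.mmul d4 (HasDerivAt.msub (HasDerivAt.madd d1 d2) d3)), ?_⟩
  have k1 := s1_key hc (h.symm_a t) (h.pos_a ht)
  have k2 := s1_key hc (h.symm_b t) (h.pos_b ht)
  rw [show (diagonal fun i => √(k i ^ 2 + t)) = kap k t from rfl] at k1 k2
  rw [show (kap k t + Y) * kap k t + kap k t * (kap k t + Y) - (kap k t + Y) * (kap k t + Y) =
    EE k Y + t • 1 by rw [EE_add k Y ht.le]; noncomm_ring] at k1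
  rw [show (kap k t - Y) * kap k t + kap k t * (kap k t - Y) - (kap k t - Y) * (kap k t - Y) =
    EE k Y + t • 1 by rw [EE_add k Y ht.le]; noncomm_ring] at k2
  have k3 : (kap k t * diagonal fun i => 1 / (2 * √(k i ^ 2 + t))).trace = Fintype.card n / 2 := by
    rw [kap, diagonal_mul_diagonal, trace_diagonal,
      sum_congr rfl (g := fun _ => (1 / 2 : ℝ)) fun i _ => by have := (hc i).ne'; field_simp]
    simp [div_eq_mul_inv]
  simp only [Matrix.add_mul (kap k t), Matrix.sub_mul (kap k t), trace_add, trace_sub] at k1 k2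
  simp only [add_zero, sub_zero, zero_add, one_smul, Matrix.one_mul, Matrix.mul_sub,
    Matrix.mul_add, trace_add, trace_sub, Matrix.mul_smul, Matrix.mul_one, trace_smul, trace_one,
    smul_eq_mul, ell]
  have : t⁻¹ * ((EE k Y).trace + t * Fintype.card n) = (EE k Y).trace / t + Fintype.card n := by
    field_simp
  linarith

lemma trace_ab (k : n → ℝ) (Y : Matrix n n ℝ) (ht : 0 ≤ t) :
    ((kap k t + Y) * (kap k t - Y)).trace = (EE k Y).trace + t * Fintype.card n := by
  have := congrArg trace (EE_add k Y ht)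
  simp only [trace_add, trace_smul, trace_one, smul_eq_mul, trace_sub, Matrix.add_mul,
    Matrix.mul_sub, trace_mul_comm Y (kap k t)] at this ⊢
  linarith

lemma Adm.psi_eq (h : Adm k Y) (ht : 0 < t) : Psi k Y t - (EE k Y).trace =
    ∑ i, ∑ j, ov (kap k t + Y) (kap k t - Y) i j *
      (ev (kap k t + Y) i * ev (kap k t - Y) j *
        Real.log (ev (kap k t + Y) i * ev (kap k t - Y) j / t) -
        ev (kap k t + Y) i * ev (kap k t - Y) j + t) := by
  have e0 := trace_ab k Y ht.le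
  set a := kap k t + Y with ha
  set b := kap k t - Y with hb
  have sa : aᵀ = a := h.symm_a t
  have sb : bᵀ = b := h.symm_b t
  have e1 : EE k Y + t • (1 : Matrix n n ℝ) = (1 / 2 : ℝ) • (a * b + b * a) := by
    rw [EE_add k Y ht.le, show a * b + b * a = (2 : ℝ) • (kap k t * kap k t - Y * Y) by
      rw [ha, hb, two_smul]; noncomm_ring, smul_smul]
    norm_num
  have t1 := trace_mf_mul (fun x => x * Real.log x) (fun x => x) a b
  have t2 := trace_mf_mul (fun x => x) (fun x => x * Real.log x) a b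
  have t3 := trace_mf_mul (fun x => x) (fun x => x) a b
  have t4 := trace_mf_ov (fun _ => 1) a b
  have c1 : mf Real.log a * a = a * mf Real.log a := by
    conv_lhs => enter [2]; rw [← mf_id sa]
    conv_rhs => enter [1]; rw [← mf_id sa]
    rw [mf_mul, mf_mul]; simp only [mul_comm]
  have c2 : mf Real.log b * b = b * mf Real.log b := by
    conv_lhs => enter [2]; rw [← mf_id sb]
    conv_rhs => enter [1]; rw [← mf_id sb]
    rw [mf_mul, mf_mul]; simp only [mul_comm]
  rw [← mf_mul] at t1 t2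
  rw [mf_id sa, mf_id sb] at t1 t2 t3
  rw [mf_one, trace_one] at t4
  have u1 : (a * b * mf Real.log a).trace = (a * mf Real.log a * b).trace := by
    rw [trace_mul_cycle, c1]
  have u2 : (b * a * mf Real.log a).trace = (a * mf Real.log a * b).trace := by
    rw [Matrix.mul_assoc, trace_mul_comm]
  have u3 : (a * b * mf Real.log b).trace = (a * (b * mf Real.log b)).trace := by
    rw [Matrix.mul_assoc]
  have u4 : (b * a * mf Real.log b).trace = (a * (b * mf Real.log b)).trace := by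
    rw [trace_mul_cycle, c2, trace_mul_comm]
  have : Psi k Y t - (EE k Y).trace = (a * mf Real.log a * b).trace +
      (a * (b * mf Real.log b)).trace - Real.log t * (a * b).trace - (a * b).trace +
      t * Fintype.card n := by
    simp only [Psi, e1, ell, ← ha, ← hb, Matrix.smul_mul, Matrix.add_mul, Matrix.mul_add,
      Matrix.mul_sub, trace_smul, trace_add, trace_sub, u1, u2, u3, u4, Matrix.mul_smul,
      Matrix.mul_one, trace_mul_comm b a, smul_eq_mul]
    linarith
  rw [this, t1, t2, t3, t4]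
  simp only [mul_sum, ← sum_add_distrib, ← sum_sub_distrib]
  refine sum_congr rfl fun i _ => sum_congr rfl fun j _ => ?_
  have p1 := h.pos_a ht i
  have p2 := h.pos_b ht j
  rw [Real.log_div (by positivity) ht.ne', Real.log_mul p1.ne' p2.ne']
  ring

lemma Adm.psi_ge (h : Adm k Y) (ht : 0 < t) : 0 ≤ Psi k Y t - (EE k Y).trace := by
  rw [h.psi_eq ht]
  refine sum_nonneg fun i _ => sum_nonneg fun j _ => mul_nonneg (ov_nonneg _ _ _ _) ?_
  have hu := mul_pos (h.pos_a ht i) (h.pos_b ht j)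
  generalize ev (kap k t + Y) i * ev (kap k t - Y) j = u at hu
  have := Real.one_sub_inv_le_log_of_pos (div_pos hu ht)
  have e : u * (1 - (u / t)⁻¹) = u - t := by field_simp
  nlinarith [mul_le_mul_of_nonneg_left this hu.le]

lemma Adm.psi_le (h : Adm k Y) (ht : 0 < t) (ht1 : t ≤ 1) {σ : ℝ} (hσ : 0 < σ) :
    Psi k Y t - (EE k Y).trace ≤ Fintype.card n *
      (t + ((2 * ∑ i, √(k i ^ 2 + 1)) ^ 2) ^ (1 + σ) / σ * t ^ (-σ)) := by
  rw [h.psi_eq ht]
  set M := 2 * ∑ i, √(k i ^ 2 + 1) with hM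
  have pa := psd_of_ev (h.symm_a t) fun i => (h.pos_a ht i).le
  have pb := psd_of_ev (h.symm_b t) fun i => (h.pos_b ht i).le
  have e1 : (kap k t + Y).trace + (kap k t - Y).trace ≤ M := by
    rw [trace_add, trace_sub, kap, trace_diagonal, hM]
    have : ∑ i, √(k i ^ 2 + t) ≤ ∑ i, √(k i ^ 2 + 1) :=
      sum_le_sum fun i _ => Real.sqrt_le_sqrt (by linarith)
    linarith
  have e2 : ∀ X : Matrix n n ℝ, PSD X → ∀ i, ev X i ≤ X.trace := fun X hX i => by
    conv_rhs => rw [← mf_id hX.1, trace_mf]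
    exact single_le_sum (fun j _ => hX.ev_nonneg j) (mem_univ i)
  have e3 : (Fintype.card n : ℝ) * (t + (M ^ 2) ^ (1 + σ) / σ * t ^ (-σ)) =
      ∑ i, ∑ j, ov (kap k t + Y) (kap k t - Y) i j * (t + (M ^ 2) ^ (1 + σ) / σ * t ^ (-σ)) := by
    simp only [← sum_mul, ov_row, one_mul, sum_const, card_univ, nsmul_eq_mul]
  rw [e3]
  refine sum_le_sum fun i _ => sum_le_sum fun j _ =>
    mul_le_mul_of_nonneg_left ?_ (ov_nonneg _ _ _ _)
  have hu := mul_pos (h.pos_a ht i) (h.pos_b ht j)
  have hu2 : ev (kap k t + Y) i * ev (kap k t - Y) j ≤ M ^ 2 := by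
    rw [sq]
    exact mul_le_mul (by linarith [e2 _ pa i, pb.trace_nonneg])
      (by linarith [e2 _ pb j, pa.trace_nonneg]) (h.pos_b ht j).le (by positivity)
  generalize ev (kap k t + Y) i * ev (kap k t - Y) j = u at hu hu2
  have l1 := Real.log_le_rpow_div (div_pos hu ht).le hσ
  have l2 : u * ((u / t) ^ σ / σ) = u ^ (1 + σ) / σ * t ^ (-σ) := by
    rw [Real.div_rpow hu.le ht.le, Real.rpow_add hu, Real.rpow_one, Real.rpow_neg ht.le]
    field_simp
  have l3 : u ^ (1 + σ) / σ * t ^ (-σ) ≤ (M ^ 2) ^ (1 + σ) / σ * t ^ (-σ) := by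
    gcongr
  nlinarith [mul_le_mul_of_nonneg_left l1 hu.le]

lemma Adm.s2 (h : Adm k Y) (ht : 0 < t) {V : Matrix n n ℝ} (hV : PSD V) {c : ℝ} (hc : 0 ≤ c) :
    t * (ell k Y t).trace - (EE k Y).trace + c * (ell k Y t * V).trace ≤
      ∑ l, ((t + c * ev V l) * Real.log (1 + c * ev V l / t) - c * ev V l) := by
  have hp : ∀ l, 0 < t + c * ev V l := fun l => by
    have := mul_nonneg hc (hV.ev_nonneg l); linarith
  have e1 : mf (fun w => t + c * w) V = t • (1 : Matrix n n ℝ) + c • V := by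
    rw [← mf_add, mf_const, ← mf_smul, mf_id hV.1]
  have g := gibbs_gt (h.symm_a t) (h.symm_b t) (mf_symm (fun w => t + c * w) V) (h.pos_a ht)
    (h.pos_b ht) fun i => ht.trans_le (le_ev (by
      rw [e1, add_sub_cancel_left]; exact hV.smul hc) i)
  rw [trace_ab k Y ht.le, Matrix.mul_sub, trace_sub, mf_mf, mf_mul, trace_mf, trace_mf, e1,
    show mf Real.log (kap k t + Y) + mf Real.log (kap k t - Y) = ell k Y t + Real.log t • 1 by
      rw [ell, sub_add_cancel]] at g
  have e2 : V.trace = ∑ l, ev V l := by conv_lhs => rw [← mf_id hV.1, trace_mf]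
  have e3 : ∑ l, ((t + c * ev V l) * Real.log (1 + c * ev V l / t) - c * ev V l) =
      ∑ l, (t + c * ev V l) * Real.log (t + c * ev V l) -
        Real.log t * (t * Fintype.card n + c * ∑ l, ev V l) - c * ∑ l, ev V l := by
    rw [mul_comm t, ← Finset.card_univ, ← nsmul_eq_mul, ← sum_const]
    simp only [mul_sum, ← sum_add_distrib, ← sum_sub_distrib]
    refine sum_congr rfl fun l _ => ?_
    rw [show 1 + c * ev V l / t = (t + c * ev V l) / t by field_simp,
      Real.log_div (hp l).ne' ht.ne']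
    ring
  simp only [Matrix.add_mul, Matrix.mul_add, Matrix.smul_mul, Matrix.mul_smul, Matrix.one_mul,
    Matrix.mul_one, trace_add, trace_smul, trace_one, smul_eq_mul, e2, sum_add_distrib, sum_const,
    Finset.card_univ, nsmul_eq_mul, ← mul_sum, trace_mul_comm V] at g
  rw [e3]
  linarith

end Vale.Agent.P371
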