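import Mathlib

namespace Vale.Agent.P371

open Filter Topology MeasureTheory Set

noncomputable def lg (ν e t : ℝ) : ℝ := t ^ (ν - 1) * Real.log (1 + e / t)

noncomputable def J0 (ν : ℝ) : ℝ := ∫ t in Ioi (0 : ℝ), lg ν 1 t

variable {ν e : ℝ}

lemma lg_nonneg (he : 0 ≤ e) {t : ℝ} (ht : 0 < t) : 0 ≤ lg ν e t :=
  mul_nonneg (by positivity) (Real.log_nonneg (by have := div_nonneg he ht.le; linarith))

lemma lg_contOn (ν : ℝ) (he : 0 ≤ e) : ContinuousOn (lg ν e) (Ioi 0) := by
  refine ContinuousOn.mul (continuousOn_id.rpow_const fun t ht => Or.inl (ne_of_gt ht))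
    (ContinuousOn.log (continuousOn_const.add (continuousOn_const.div continuousOn_id
      fun t ht => ne_of_gt ht)) fun t ht => ?_)
  have := div_nonneg he (le_of_lt ht)
  positivity

lemma lg_integrable (h0 : 0 < ν) (h1 : ν < 1) (he : 0 ≤ e) : IntegrableOn (lg ν e) (Ioi 0) := by
  rw [← Ioc_union_Ioi_eq_Ioi zero_le_one]
  refine IntegrableOn.union ?_ ?_
  · have i1 : IntegrableOn (fun t : ℝ => (1 + e) ^ (ν / 2) / (ν / 2) * t ^ (ν / 2 - 1)) (Ioc 0 1) :=
      ((intervalIntegral.intervalIntegrable_rpow' (by linarith)).1).const_mul _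
    refine i1.mono' (((lg_contOn ν he).mono Ioc_subset_Ioi_self).aestronglyMeasurable
      measurableSet_Ioc) ((ae_restrict_iff' measurableSet_Ioc).2 (Eventually.of_forall ?_))
    intro t ht
    have ht0 := ht.1
    rw [Real.norm_of_nonneg (lg_nonneg he ht.1), lg]
    have l1 := Real.log_le_rpow_div (x := (1 + e) / t) (by positivity) (half_pos h0)
    have l2 : Real.log (1 + e / t) ≤ Real.log ((1 + e) / t) := by
      refine Real.log_le_log (by positivity) ?_
      rw [add_div]
      have : 1 ≤ 1 / t := by rw [le_div_iff₀ ht0]; linarith [ht.2]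
      linarith
    refine (mul_le_mul_of_nonneg_left (l2.trans l1) (by positivity)).trans (le_of_eq ?_)
    rw [Real.div_rpow (by positivity) ht0.le, show ν - 1 = ν / 2 - 1 + ν / 2 by ring,
      Real.rpow_add ht0]
    field_simp
  · have i1 : IntegrableOn (fun t : ℝ => e * t ^ (ν - 2)) (Ioi 1) :=
      (integrableOn_Ioi_rpow_of_lt (by linarith) zero_lt_one).const_mul _
    refine i1.mono' (((lg_contOn ν he).mono (Ioi_subset_Ioi zero_le_one)).aestronglyMeasurable
      measurableSet_Ioi) ((ae_restrict_iff' measurableSet_Ioi).2 (Eventually.of_forall ?_))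
    intro t ht
    have ht0 : 0 < t := zero_lt_one.trans ht
    rw [Real.norm_of_nonneg (lg_nonneg he ht0), lg]
    have l1 := Real.log_le_sub_one_of_pos (x := 1 + e / t) (by positivity)
    refine (mul_le_mul_of_nonneg_left l1 (by positivity)).trans (le_of_eq ?_)
    rw [show ν - 1 = ν - 2 + 1 by ring, Real.rpow_add ht0, Real.rpow_one]
    field_simp
    ring

lemma lg_integral (h0 : 0 < ν) (he : 0 ≤ e) : ∫ t in Ioi (0 : ℝ), lg ν e t = e ^ ν * J0 ν := by
  rcases he.eq_or_lt with rfl | he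
  · simp [lg, Real.zero_rpow h0.ne']
  have := integral_comp_mul_left_Ioi (lg ν 1) 0 (inv_pos.2 he)
  rw [mul_zero, inv_inv, smul_eq_mul] at this
  rw [show e ^ ν = e ^ (ν - 1) * e by rw [Real.rpow_sub_one he.ne']; field_simp, mul_assoc, J0,
    ← this, ← integral_const_mul]
  refine setIntegral_congr_fun measurableSet_Ioi fun t ht => ?_
  have ht0 : 0 < t := ht
  simp only [lg]
  rw [← mul_assoc, ← Real.mul_rpow he.le (by positivity), mul_inv_cancel_left₀ he.ne']
  congr 3
  field_simp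

lemma J0_pos (h0 : 0 < ν) (h1 : ν < 1) : 0 < J0 ν := by
  rw [J0, setIntegral_pos_iff_support_of_nonneg_ae ((ae_restrict_iff' measurableSet_Ioi).2
    (Eventually.of_forall fun t ht => lg_nonneg zero_le_one ht)) (lg_integrable h0 h1 zero_le_one)]
  have : Function.support (lg ν 1) ∩ Ioi 0 = Ioi 0 := by
    refine inter_eq_right.2 fun t ht => ne_of_gt ?_
    have ht0 : 0 < t := ht
    exact mul_pos (by positivity) (Real.log_pos (by have := one_div_pos.2 ht0; linarith))
  rw [this]
  simp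

lemma lg_interval_le (h0 : 0 < ν) (h1 : ν < 1) (he : 0 ≤ e) {δ T : ℝ} (hδ : 0 < δ) (hT : δ ≤ T) :
    ∫ t in δ..T, lg ν e t ≤ e ^ ν * J0 ν := by
  rw [← lg_integral h0 he, intervalIntegral.integral_of_le hT]
  exact setIntegral_mono_set (lg_integrable h0 h1 he) ((ae_restrict_iff' measurableSet_Ioi).2
    (Eventually.of_forall fun t ht => lg_nonneg he ht))
    (Eventually.of_forall fun t ht => hδ.trans ht.1)

noncomputable def Bnu (ν : ℝ) : ℝ := ∫ y in (-1 : ℝ)..1, (1 - y ^ 2) ^ ν

lemma int_scale {k : ℝ} (h0 : 0 < ν) (hk : 0 ≤ k) :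
    ∫ y in (-k)..k, (k ^ 2 - y ^ 2) ^ ν = k ^ (2 * ν + 1) * Bnu ν := by
  rcases hk.eq_or_lt with rfl | hk
  · simp [Real.zero_rpow (show 2 * ν + 1 ≠ 0 by positivity)]
  have := intervalIntegral.integral_comp_mul_left (a := -1) (b := 1)
    (fun y => (k ^ 2 - y ^ 2) ^ ν) hk.ne'
  rw [mul_neg, mul_one, smul_eq_mul, eq_inv_mul_iff_mul_eq₀ hk.ne'] at this
  rw [← this, Real.rpow_add hk, Real.rpow_one, mul_comm _ k, mul_assoc, Bnu,
    ← intervalIntegral.integral_const_mul (k ^ (2 * ν))]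
  congr 1
  refine intervalIntegral.integral_congr fun y hy => ?_
  rw [uIcc_of_le (by norm_num)] at hy
  rw [Real.rpow_mul hk.le, Real.rpow_two, ← Real.mul_rpow (by positivity)
    (by nlinarith [hy.1, hy.2])]
  congr 1; ring

noncomputable def DD (k t : ℝ) : ℝ := ∫ y in (-k)..k, Real.log (1 + (k ^ 2 - y ^ 2) / t)

lemma DD_limit {k : ℝ} (h0 : 0 < ν) (h1 : ν < 1) (hk : 0 ≤ k) :
    Tendsto (fun j : ℕ => ∫ t in (1 / ((j : ℝ) + 1))..((j : ℝ) + 1), t ^ (ν - 1) * DD k t) atTop
      (𝓝 (k ^ (2 * ν + 1) * Bnu ν * J0 ν)) := by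
  have hkk : -k ≤ k := by linarith
  have he : ∀ y ∈ Ioc (-k) k, 0 ≤ k ^ 2 - y ^ 2 := fun y hy => by nlinarith [hy.1, hy.2]
  have hm : Measurable fun p : ℝ × ℝ => lg ν (k ^ 2 - p.1 ^ 2) p.2 := by
    unfold lg; fun_prop
  have hc : Continuous fun y : ℝ => (k ^ 2 - y ^ 2) ^ ν :=
    Continuous.rpow_const (by fun_prop) fun _ => Or.inr h0.le
  have hi : Integrable (fun p : ℝ × ℝ => lg ν (k ^ 2 - p.1 ^ 2) p.2)
      ((volume.restrict (Ioc (-k) k)).prod (volume.restrict (Ioi 0))) := by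
    refine (integrable_prod_iff hm.aestronglyMeasurable).2 ⟨?_, ?_⟩
    · exact (ae_restrict_iff' measurableSet_Ioc).2
        (Eventually.of_forall fun y hy => lg_integrable h0 h1 (he y hy))
    · refine (((hc.mul_const (J0 ν)).integrableOn_Icc).mono_set Ioc_subset_Icc_self).congr_fun
        (fun y hy => ?_) measurableSet_Ioc
      simp only
      rw [← lg_integral h0 (he y hy)]
      exact setIntegral_congr_fun measurableSet_Ioi fun t ht =>
        (Real.norm_of_nonneg (lg_nonneg (he y hy) ht)).symm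
  have hs := integral_integral_swap (f := fun y t => lg ν (k ^ 2 - y ^ 2) t) hi
  have hD : ∀ t, ∫ y in Ioc (-k) k, lg ν (k ^ 2 - y ^ 2) t = t ^ (ν - 1) * DD k t := fun t => by
    simp only [lg]
    rw [integral_const_mul, DD, intervalIntegral.integral_of_le hkk]
  have hi2 := hi.integral_prod_right
  simp only [hD] at hs hi2
  rw [setIntegral_congr_fun measurableSet_Ioc (fun y hy => lg_integral h0 (he y hy)),
    integral_mul_const, ← intervalIntegral.integral_of_le hkk, int_scale h0 hk] at hs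
  rw [hs]
  have ha : Tendsto (fun j : ℕ => 1 / ((j : ℝ) + 1)) atTop (𝓝 0) :=
    tendsto_one_div_add_atTop_nhds_zero_nat
  have hb : Tendsto (fun j : ℕ => (j : ℝ) + 1) atTop atTop :=
    tendsto_atTop_add_const_right _ _ tendsto_natCast_atTop_atTop
  have hcov : AECover (volume.restrict (Ioi (0 : ℝ))) atTop
      fun j : ℕ => Ioc (1 / ((j : ℝ) + 1)) ((j : ℝ) + 1) :=
    (aecover_Ioi_of_Ioi ha).inter (aecover_Iic hb)
  refine (hcov.integral_tendsto_of_countably_generated hi2).congr fun j => ?_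
  have hj : (0 : ℝ) < (j : ℝ) + 1 := by positivity
  have hsub : Ioc (1 / ((j : ℝ) + 1)) ((j : ℝ) + 1) ⊆ Ioi 0 := fun t ht =>
    (one_div_pos.2 hj).trans ht.1
  rw [Measure.restrict_restrict measurableSet_Ioc, inter_eq_left.2 hsub,
    intervalIntegral.integral_of_le]
  rw [div_le_iff₀ hj]; nlinarith [Nat.cast_nonneg (α := ℝ) j]

lemma DD_eq {k t : ℝ} (hk : 0 ≤ k) (ht : 0 < t) :
    DD k t = 2 * ((√(k ^ 2 + t) + k) * Real.log (√(k ^ 2 + t) + k) -
      (√(k ^ 2 + t) - k) * Real.log (√(k ^ 2 + t) - k) - k * (2 + Real.log t)) := by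
  set c := √(k ^ 2 + t) with hc
  have hck : k < c := Real.lt_sqrt_of_sq_lt (by linarith)
  have hc2 : c ^ 2 = k ^ 2 + t := Real.sq_sqrt (by positivity)
  have hkk : -k ≤ k := by linarith
  rw [DD, intervalIntegral.integral_eq_sub_of_hasDerivAt (f := fun y => (c + y) * Real.log (c + y) -
    (c - y) * Real.log (c - y) - y * (2 + Real.log t))]
  · simp only [sub_neg_eq_add, ← sub_eq_add_neg]; ring
  · intro y hy
    rw [uIcc_of_le hkk] at hy
    have p1 : 0 < c + y := by linarith [hy.1]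
    have p2 : 0 < c - y := by linarith [hy.2]
    have d1 := (hasDerivAt_id y).const_add c
    have d2 := (hasDerivAt_id y).const_sub c
    refine (((d1.mul (d1.log p1.ne')).sub (d2.mul (d2.log p2.ne'))).sub
      ((hasDerivAt_id y).mul_const _)).congr_deriv ?_
    rw [show 1 + (k ^ 2 - y ^ 2) / t = (c + y) * (c - y) / t by field_simp; linarith,
      Real.log_div (by positivity) ht.ne', Real.log_mul p1.ne' p2.ne']
    simp only [id]
    field_simp
    ring
  · refine ContinuousOn.intervalIntegrable_of_Icc hkk (ContinuousOn.log (by fun_prop) fun y hy => ?_)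
    have : 0 ≤ (k ^ 2 - y ^ 2) / t := div_nonneg (by nlinarith [hy.1, hy.2]) ht.le
    positivity

end Vale.Agent.P371
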