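import Vale.Agent.P371.Calib
import Vale.Agent.P371.Scalar

namespace Vale.Agent.P371

open Matrix Finset Filter Topology MeasureTheory
open scoped Matrix.Norms.Frobenius

variable {n : Type*} [Fintype n] [DecidableEq n] {k : n → ℝ} {Y : Matrix n n ℝ} {t : ℝ}

lemma ell_contOn {α : Type*} [TopologicalSpace α] {s : Set α} {Y : α → Matrix n n ℝ} {τ : α → ℝ}
    (hY : ContinuousOn Y s) (hτ : ContinuousOn τ s) (hA : ∀ z ∈ s, Adm k (Y z))
    (hp : ∀ z ∈ s, 0 < τ z) : ContinuousOn (fun z => ell k (Y z) (τ z)) s := by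
  have hk : ContinuousOn (fun z => kap k (τ z)) s := (continuous_kap k).comp_continuousOn hτ
  refine ((mf_continuousOn (fun z hz => (hA z hz).symm_a _) (hk.add hY) fun z hz j =>
    Real.continuousAt_log ((hA z hz).pos_a (hp z hz) j).ne').add
    (mf_continuousOn (fun z hz => (hA z hz).symm_b _) (hk.sub hY) fun z hz j =>
    Real.continuousAt_log ((hA z hz).pos_b (hp z hz) j).ne')).sub ?_
  exact (hτ.log fun z hz => (hp z hz).ne').smul continuousOn_const

noncomputable def chi (e t : ℝ) : ℝ := (t + e) * Real.log (1 + e / t) - e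

lemma chi_nonneg {e : ℝ} (he : 0 ≤ e) (ht : 0 < t) : 0 ≤ chi e t := by
  have := Real.one_sub_inv_le_log_of_pos (x := 1 + e / t) (by positivity)
  have e1 : (t + e) * (1 - (1 + e / t)⁻¹) = e := by field_simp; ring
  unfold chi
  nlinarith [mul_le_mul_of_nonneg_left this (show 0 ≤ t + e by positivity)]

lemma chi_le {e : ℝ} (he : 0 ≤ e) (ht : 0 < t) : chi e t ≤ e ^ 2 / t := by
  have := Real.log_le_sub_one_of_pos (x := 1 + e / t) (by positivity)
  have e1 : (t + e) * (1 + e / t - 1) = e + e ^ 2 / t := by field_simp; ring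
  unfold chi
  nlinarith [mul_le_mul_of_nonneg_left this (show 0 ≤ t + e by positivity)]

lemma chi_deriv {e : ℝ} (he : 0 ≤ e) (ht : 0 < t) :
    HasDerivAt (chi e) (Real.log (1 + e / t) - e / t) t := by
  have d1 := (((hasDerivAt_const t e).div (hasDerivAt_id t) ht.ne').const_add 1).log
    (show 1 + e / t ≠ 0 by positivity)
  refine ((((hasDerivAt_id t).add_const e).mul d1).sub_const e).congr_deriv ?_
  simp only [id, Pi.div_apply]
  field_simp
  ring

lemma Adm.point (h : Adm k Y) {V : Matrix n n ℝ} (hV : PSD V) {ν δ T : ℝ} (h0 : 0 < ν)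
    (h1 : ν < 1) (hδ : 0 < δ) (hδ1 : δ ≤ 1) (hT : δ ≤ T) :
    ∫ t in δ..T, ν * (t ^ (ν - 1) * (ell k Y t * (V - EE k Y)).trace) ≤
      (ν / (1 + ν)) ^ (1 + ν) * J0 ν * (mf (fun x => x ^ (1 + ν)) V).trace +
      δ ^ ν * (Fintype.card n * (δ + ((2 * ∑ i, √(k i ^ 2 + 1)) ^ 2) ^ (1 + ν / 2) / (ν / 2) *
        δ ^ (-(ν / 2)))) + T ^ (ν - 1) * ‖V‖ ^ 2 := by
  set c := ν / (1 + ν) with hc
  have hc0 : 0 < c := by positivity
  have hc1 : c ≤ 1 := by rw [hc, div_le_one (by positivity)]; linarith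
  have hcν : (1 + ν) * c = ν := by rw [hc]; field_simp
  have he : ∀ l, 0 ≤ c * ev V l := fun l => mul_nonneg hc0.le (hV.ev_nonneg l)
  have hsub : Set.Icc δ T ⊆ Set.Ioi 0 := fun t ht => hδ.trans_le ht.1
  choose! D hD using fun t (ht : 0 < t) => h.psi_deriv ht
  set B : ℝ → ℝ := fun t => t ^ ν * (Psi k Y t - (EE k Y).trace - ∑ l, chi (c * ev V l) t) with hB
  have dB : ∀ t, 0 < t → HasDerivAt B (ν * t ^ (ν - 1) * (Psi k Y t - (EE k Y).trace -
      ∑ l, chi (c * ev V l) t) + t ^ ν * (D t - ∑ l, (Real.log (1 + c * ev V l / t) -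
        c * ev V l / t))) t := fun t ht =>
    (Real.hasDerivAt_rpow_const (Or.inl ht.ne')).mul (((hD t ht).1.sub_const _).sub
      (HasDerivAt.fun_sum fun l _ => chi_deriv (he l) ht))
  have c1 : ContinuousOn (fun t => ν * (t ^ (ν - 1) * (ell k Y t * (V - EE k Y)).trace))
      (Set.Icc δ T) :=
    continuousOn_const.mul ((continuousOn_id.rpow_const fun t ht => Or.inl (hsub ht).ne').mul
      (continuous_trace.comp_continuousOn ((ell_contOn continuousOn_const continuousOn_id
        (fun _ _ => h) hsub).mul continuousOn_const)))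
  have c2 : ∀ l, ContinuousOn (fun t => c * ev V l * lg ν (c * ev V l) t) (Set.Icc δ T) :=
    fun l => continuousOn_const.mul ((lg_contOn ν (he l)).mono hsub)
  have key := intervalIntegral.sub_le_integral_of_hasDeriv_right_of_le hT
    (fun t ht => (dB t (hsub ht)).continuousAt.continuousWithinAt)
    (fun t ht => (dB t (hδ.trans ht.1)).hasDerivWithinAt)
    ((continuousOn_finsetSum univ fun l _ => c2 l).sub c1).integrableOn_Icc fun t ht => by
      have ht0 : 0 < t := hδ.trans ht.1
      have s1 := (hD t ht0).2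
      have s2 := h.s2 ht0 hV hc0.le
      have e1 : t ^ ν = t ^ (ν - 1) * t := by rw [Real.rpow_sub_one ht0.ne']; field_simp
      have e2 : Psi k Y t = (ell k Y t * EE k Y).trace + t * (ell k Y t).trace := by
        rw [Psi, Matrix.add_mul, trace_add, trace_mul_comm, Matrix.smul_mul, Matrix.one_mul,
          trace_smul, smul_eq_mul]
      have e3 : t * ∑ l, (Real.log (1 + c * ev V l / t) - c * ev V l / t) =
          ∑ l, chi (c * ev V l) t - ∑ l, c * ev V l * Real.log (1 + c * ev V l / t) := by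
        rw [mul_sum, ← sum_sub_distrib]
        refine sum_congr rfl fun l _ => ?_
        unfold chi; field_simp; ring
      have e4 : ∑ l, c * ev V l * lg ν (c * ev V l) t =
          t ^ (ν - 1) * ∑ l, c * ev V l * Real.log (1 + c * ev V l / t) := by
        rw [mul_sum]; exact sum_congr rfl fun l _ => by unfold lg; ring
      have e5 : t * D t ≤ t * (ell k Y t).trace - (EE k Y).trace := by
        have := mul_le_mul_of_nonneg_left s1 ht0.le
        rwa [mul_sub, mul_div_cancel₀ _ ht0.ne'] at this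
      change _ ≤ ∑ l, chi (c * ev V l) t at s2
      simp only [Pi.sub_apply]
      rw [e1, e2, e4, Matrix.mul_sub, trace_sub, mul_assoc (t ^ (ν - 1)) t, mul_sub t, e3]
      have hp : 0 < t ^ (ν - 1) := by positivity
      have s3 := mul_le_mul_of_nonneg_left s2 (show 0 ≤ 1 + ν by positivity)
      rw [mul_add, ← mul_assoc _ c, hcν] at s3
      nlinarith [mul_le_mul_of_nonneg_left s3 hp.le, mul_le_mul_of_nonneg_left e5 hp.le]
  have i2 : ∀ l, IntervalIntegrable (fun t => c * ev V l * lg ν (c * ev V l) t) volume δ T :=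
    fun l => (c2 l).intervalIntegrable_of_Icc hT
  simp only [Pi.sub_apply] at key
  rw [intervalIntegral.integral_sub (ii_sum i2) (c1.intervalIntegrable_of_Icc hT),
    intervalIntegral.integral_finsetSum fun l _ => i2 l] at key
  have b1 : ∑ l, ∫ t in δ..T, c * ev V l * lg ν (c * ev V l) t ≤
      c ^ (1 + ν) * J0 ν * (mf (fun x => x ^ (1 + ν)) V).trace := by
    rw [trace_mf, mul_sum]
    refine sum_le_sum fun l _ => ?_
    rw [intervalIntegral.integral_const_mul]
    refine (mul_le_mul_of_nonneg_left (lg_interval_le h0 h1 (he l) hδ hT) (he l)).trans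
      (le_of_eq ?_)
    rw [mul_right_comm (c ^ (1 + ν)), ← Real.mul_rpow hc0.le (hV.ev_nonneg l),
      Real.rpow_add' (he l) (by positivity), Real.rpow_one]
    ring
  have b2 : B δ ≤ δ ^ ν * (Fintype.card n * (δ + ((2 * ∑ i, √(k i ^ 2 + 1)) ^ 2) ^ (1 + ν / 2) /
      (ν / 2) * δ ^ (-(ν / 2)))) := by
    refine mul_le_mul_of_nonneg_left ?_ (by positivity)
    have := h.psi_le hδ hδ1 (half_pos h0)
    have : 0 ≤ ∑ l, chi (c * ev V l) δ := sum_nonneg fun l _ => chi_nonneg (he l) hδ
    linarith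
  have b3 : -B T ≤ T ^ (ν - 1) * ‖V‖ ^ 2 := by
    have hT0 : 0 < T := hδ.trans_le hT
    have e1 : T ^ (ν - 1) * ‖V‖ ^ 2 = T ^ ν * ∑ l, ev V l ^ 2 / T := by
      conv_lhs => rw [← mf_id hV.1, norm_mf_sq]
      rw [Real.rpow_sub_one hT0.ne', ← sum_div]; ring
    rw [e1, hB, ← mul_neg]
    refine mul_le_mul_of_nonneg_left ?_ (by positivity)
    have := h.psi_ge hT0
    have : ∑ l, chi (c * ev V l) T ≤ ∑ l, ev V l ^ 2 / T := by
      refine sum_le_sum fun l _ => (chi_le (he l) hT0).trans ?_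
      gcongr
      · exact he l
      · nlinarith [hV.ev_nonneg l]
    linarith
  linarith

noncomputable def hh (k : n → ℝ) (Y : Matrix n n ℝ) (t : ℝ) : ℝ :=
  (mf (fun x => x * Real.log x) (kap k t + Y)).trace -
    (mf (fun x => x * Real.log x) (kap k t - Y)).trace - Y.trace * (2 + Real.log t)

lemma hh_ends (hk : ∀ i, 0 ≤ k i) (ht : 0 < t) :
    hh k (diagonal k) t - hh k (-diagonal k) t = ∑ i, DD (k i) t := by
  simp only [hh, sub_neg_eq_add, ← sub_eq_add_neg, kap, diagonal_add, diagonal_sub, mf_diagonal,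
    trace_diagonal, trace_neg, DD_eq (hk _) ht, sum_mul, neg_mul, ← mul_sum, sum_sub_distrib]
  ring

lemma hh_deriv {Y : ℝ → Matrix n n ℝ} {Y' : Matrix n n ℝ} {x : ℝ} (hA : ∀ᶠ z in 𝓝 x, Adm k (Y z))
    (hd : HasDerivAt Y Y' x) (ht : 0 < t) :
    HasDerivAt (fun z => hh k (Y z) t) (ell k (Y x) t * Y').trace x := by
  have h := hA.self_of_nhds
  have d1 := hasDerivAt_trace_mf (hA.mono fun z hz => hz.symm_a t)
    (HasDerivAt.madd (hasDerivAt_mconst (kap k t) x) hd) (g := fun x => x * Real.log x)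
    (g' := fun x => Real.log x + 1) fun j => Real.hasDerivAt_mul_log (h.pos_a ht j).ne'
  have d2 := hasDerivAt_trace_mf (hA.mono fun z hz => hz.symm_b t)
    (HasDerivAt.msub (hasDerivAt_mconst (kap k t) x) hd) (g := fun x => x * Real.log x)
    (g' := fun x => Real.log x + 1) fun j => Real.hasDerivAt_mul_log (h.pos_b ht j).ne'
  refine ((d1.sub d2).sub ((hasDerivAt_trace hd).mul_const _)).congr_deriv ?_
  simp only [← mf_add, mf_one, ell, zero_add, zero_sub, Matrix.mul_neg, Matrix.add_mul,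
    Matrix.sub_mul, Matrix.one_mul, trace_add, trace_sub, trace_neg, Matrix.smul_mul, trace_smul,
    smul_eq_mul]
  ring

theorem path_diag {Y V : ℝ → Matrix n n ℝ} {a b ν : ℝ} (hab : a ≤ b) (h0 : 0 < ν) (h1 : ν < 1)
    (hY : ContinuousOn Y (Set.Icc a b)) (hV : ContinuousOn V (Set.Icc a b))
    (hA : ∀ x ∈ Set.Icc a b, Adm k (Y x)) (hP : ∀ x ∈ Set.Icc a b, PSD (V x))
    (hd : ∀ x ∈ Set.Ioo a b, HasDerivAt Y (V x - EE k (Y x)) x)
    (ha : Y a = -diagonal k) (hb : Y b = diagonal k) :
    ν * Bnu ν * ∑ i, k i ^ (2 * ν + 1) ≤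
      (ν / (1 + ν)) ^ (1 + ν) * ∫ x in a..b, (mf (fun x => x ^ (1 + ν)) (V x)).trace := by
  have hk := (hA a ⟨le_rfl, hab⟩).1
  have cE : ContinuousOn (fun x => V x - EE k (Y x)) (Set.Icc a b) :=
    hV.sub (continuousOn_const.sub (hY.mul hY))
  have ftc : ∀ t, 0 < t → ∫ x in a..b, (ell k (Y x) t * (V x - EE k (Y x))).trace =
      ∑ i, DD (k i) t := by
    intro t ht
    rw [← hh_ends hk ht, ← ha, ← hb]
    refine intervalIntegral.integral_eq_sub_of_hasDerivAt_of_le (f := fun z => hh k (Y z) t) hab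
      ?_ (fun x hx => hh_deriv (eventually_of_mem (Icc_mem_nhds hx.1 hx.2) hA) (hd x hx) ht) ?_
    · refine ((continuous_trace.comp_continuousOn (mf_continuousOn (fun z hz => (hA z hz).symm_a _)
        (continuousOn_const.add hY) fun z hz j => Real.continuous_mul_log.continuousAt)).sub
        (continuous_trace.comp_continuousOn (mf_continuousOn (fun z hz => (hA z hz).symm_b _)
        (continuousOn_const.sub hY) fun z hz j => Real.continuous_mul_log.continuousAt))).sub
        ((continuous_trace.comp_continuousOn hY).mul continuousOn_const)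
    · exact (continuous_trace.comp_continuousOn ((ell_contOn hY continuousOn_const hA
        fun _ _ => ht).mul cE)).intervalIntegrable_of_Icc hab
  have cW : ContinuousOn (fun x => (mf (fun x => x ^ (1 + ν)) (V x)).trace) (Set.Icc a b) :=
    continuous_trace.comp_continuousOn (mf_continuousOn (fun z hz => (hP z hz).1) hV
      fun z hz j => Real.continuousAt_rpow_const _ _ (Or.inr (by positivity)))
  set C := ((2 * ∑ i, √(k i ^ 2 + 1)) ^ 2) ^ (1 + ν / 2) / (ν / 2) with hC
  set I := ∫ x in a..b, (mf (fun x => x ^ (1 + ν)) (V x)).trace with hI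
  have step : ∀ δ T : ℝ, 0 < δ → δ ≤ 1 → δ ≤ T →
      ν * ∑ i, ∫ t in δ..T, t ^ (ν - 1) * DD (k i) t ≤ (ν / (1 + ν)) ^ (1 + ν) * J0 ν * I +
        (b - a) * (δ ^ ν * (Fintype.card n * (δ + C * δ ^ (-(ν / 2))))) +
        T ^ (ν - 1) * ∫ x in a..b, ‖V x‖ ^ 2 := by
    intro δ T hδ hδ1 hT
    have hsub : Set.Icc δ T ⊆ Set.Ioi 0 := fun t ht => hδ.trans_le ht.1
    have cF : ContinuousOn (fun p : ℝ × ℝ => ν * (p.2 ^ (ν - 1) *
        (ell k (Y p.1) p.2 * (V p.1 - EE k (Y p.1))).trace)) (Set.Icc a b ×ˢ Set.Icc δ T) :=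
      continuousOn_const.mul ((continuousOn_snd.rpow_const fun p hp => Or.inl (hsub hp.2).ne').mul
        (continuous_trace.comp_continuousOn ((ell_contOn (hY.comp continuousOn_fst fun p hp => hp.1)
          continuousOn_snd (fun p hp => hA _ hp.1) fun p hp => hsub hp.2).mul
          (cE.comp continuousOn_fst fun p hp => hp.1))))
    have iF := (cF.integrableOn_compact (μ := volume) (isCompact_Icc.prod isCompact_Icc)).mono_set
      (s := Set.uIoc a b ×ˢ Set.uIoc δ T) (by
        rw [Set.uIoc_of_le hab, Set.uIoc_of_le hT]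
        exact Set.prod_mono Set.Ioc_subset_Icc_self Set.Ioc_subset_Icc_self)
    have sw := intervalIntegral_intervalIntegral_swap (F := fun x t => ν * (t ^ (ν - 1) *
        (ell k (Y x) t * (V x - EE k (Y x))).trace)) iF
    have iG : IntervalIntegrable (fun x => ∫ t in δ..T, ν * (t ^ (ν - 1) *
        (ell k (Y x) t * (V x - EE k (Y x))).trace)) volume a b := by
      rw [IntegrableOn, Measure.volume_eq_prod, ← Measure.prod_restrict] at iF
      rw [intervalIntegrable_iff]
      simp only [intervalIntegral.integral_of_le hT]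
      have := iF.integral_prod_left
      rwa [Set.uIoc_of_le hT] at this
    have cD : ∀ i, IntervalIntegrable (fun t => t ^ (ν - 1) * DD (k i) t) volume δ T := by
      intro i
      refine ContinuousOn.intervalIntegrable_of_Icc hT ((continuousOn_id.rpow_const
        fun t ht => Or.inl (hsub ht).ne').mul (ContinuousOn.congr ?_
          fun t ht => DD_eq (hk i) (hsub ht)))
      refine continuousOn_const.mul (ContinuousOn.sub (Continuous.continuousOn ?_)
        (continuousOn_const.mul (continuousOn_const.add (continuousOn_id.log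
          fun t ht => (hsub ht).ne'))))
      exact (Real.continuous_mul_log.comp (by fun_prop)).sub
        (Real.continuous_mul_log.comp (by fun_prop))
    have l1 : ν * ∑ i, ∫ t in δ..T, t ^ (ν - 1) * DD (k i) t = ∫ t in δ..T, ∫ x in a..b,
        ν * (t ^ (ν - 1) * (ell k (Y x) t * (V x - EE k (Y x))).trace) := by
      rw [← intervalIntegral.integral_finsetSum fun i _ => cD i,
        ← intervalIntegral.integral_const_mul]
      refine intervalIntegral.integral_congr fun t ht => ?_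
      rw [Set.uIcc_of_le hT] at ht
      rw [intervalIntegral.integral_const_mul, intervalIntegral.integral_const_mul,
        ftc t (hsub ht), mul_sum, mul_sum, mul_sum]
    have iW := cW.intervalIntegrable_of_Icc (μ := volume) hab
    have iN : IntervalIntegrable (fun x => ‖V x‖ ^ 2) volume a b :=
      (hV.norm.pow 2).intervalIntegrable_of_Icc hab
    rw [l1, ← sw, hI, ← intervalIntegral.integral_const_mul, ← intervalIntegral.integral_const_mul,
      ← smul_eq_mul (b - a), ← intervalIntegral.integral_const, ← intervalIntegral.integral_add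
      (iW.const_mul _) intervalIntegrable_const, ← intervalIntegral.integral_add
      ((iW.const_mul _).add intervalIntegrable_const) (iN.const_mul _)]
    exact intervalIntegral.integral_mono_on hab iG (((iW.const_mul _).add
      intervalIntegrable_const).add (iN.const_mul _))
      fun x hx => (hA x hx).point (hP x hx) h0 h1 hδ hδ1 hT
  have ha' : Tendsto (fun j : ℕ => 1 / ((j : ℝ) + 1)) atTop (𝓝 0) :=
    tendsto_one_div_add_atTop_nhds_zero_nat
  have hb' : Tendsto (fun j : ℕ => (j : ℝ) + 1) atTop atTop :=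
    tendsto_atTop_add_const_right _ _ tendsto_natCast_atTop_atTop
  have L1 := (tendsto_finsetSum univ fun i _ => DD_limit h0 h1 (hk i)).const_mul ν
  have z1 : ∀ r : ℝ, 0 < r → Tendsto (fun j : ℕ => (1 / ((j : ℝ) + 1)) ^ r) atTop (𝓝 0) :=
    fun r hr => by simpa [Real.zero_rpow hr.ne'] using ha'.rpow_const (Or.inr hr.le)
  have L2 : Tendsto (fun j : ℕ => (1 / ((j : ℝ) + 1)) ^ ν * (Fintype.card n * (1 / ((j : ℝ) + 1) +
      C * (1 / ((j : ℝ) + 1)) ^ (-(ν / 2))))) atTop (𝓝 0) := by
    have := (((z1 ν h0).mul ha').add ((z1 _ (half_pos h0)).const_mul C)).const_mul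
      (Fintype.card n : ℝ)
    simp only [mul_zero, add_zero] at this
    refine this.congr fun j => ?_
    have e : (1 / ((j : ℝ) + 1)) ^ (ν / 2) =
        (1 / ((j : ℝ) + 1)) ^ ν * (1 / ((j : ℝ) + 1)) ^ (-(ν / 2)) := by
      rw [← Real.rpow_add (by positivity)]; congr 1; ring
    rw [e]; ring
  have L3 : Tendsto (fun j : ℕ => ((j : ℝ) + 1) ^ (ν - 1)) atTop (𝓝 0) := by
    have := (tendsto_rpow_neg_atTop (sub_pos.2 h1)).comp hb'
    rwa [neg_sub] at this
  have fin := le_of_tendsto_of_tendsto' L1 ((tendsto_const_nhds.add (L2.const_mul (b - a))).add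
    (L3.mul_const _)) fun j => step _ _ (by positivity)
      (by rw [div_le_one (by positivity)]; linarith [Nat.cast_nonneg (α := ℝ) j])
      (by rw [div_le_iff₀ (by positivity)]; nlinarith [Nat.cast_nonneg (α := ℝ) j])
  simp only [mul_zero, add_zero, zero_mul, ← sum_mul] at fin
  refine le_of_mul_le_mul_right ?_ (J0_pos h0 h1)
  linarith

theorem path_gen {K : Matrix n n ℝ} {Y V : ℝ → Matrix n n ℝ} {a b ν : ℝ} (hab : a ≤ b)
    (h0 : 0 < ν) (h1 : ν < 1) (hK : PSD K)
    (hY : ContinuousOn Y (Set.Icc a b)) (hV : ContinuousOn V (Set.Icc a b))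
    (hA : ∀ x ∈ Set.Icc a b, PSD (K + Y x) ∧ PSD (K - Y x)) (hP : ∀ x ∈ Set.Icc a b, PSD (V x))
    (hd : ∀ x ∈ Set.Ioo a b, HasDerivAt Y (V x - (K * K - Y x * Y x)) x)
    (ha : Y a = -K) (hb : Y b = K) :
    ν * Bnu ν * (mf (fun x => x ^ (2 * ν + 1)) K).trace ≤
      (ν / (1 + ν)) ^ (1 + ν) * ∫ x in a..b, (mf (fun x => x ^ (1 + ν)) (V x)).trace := by
  set U := eU K with hU
  have hU1 : U * Uᵀ = 1 := eU_mul K
  have hU2 : Uᵀ * Uᵀᵀ = 1 := mul_eU K
  have hKd : Uᵀ * K * Uᵀᵀ = diagonal (ev K) := conj_eU_id hK.1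
  have hm : ∀ A B : Matrix n n ℝ, Uᵀ * A * Uᵀᵀ * (Uᵀ * B * Uᵀᵀ) = Uᵀ * (A * B) * Uᵀᵀ := by
    intro A B
    simp only [Matrix.mul_assoc, transpose_transpose]
    rw [← Matrix.mul_assoc U, hU1, Matrix.one_mul]
  have := path_diag (k := ev K) (Y := fun x => Uᵀ * Y x * Uᵀᵀ) (V := fun x => Uᵀ * V x * Uᵀᵀ)
    hab h0 h1 ((continuousOn_const.mul hY).mul continuousOn_const)
    ((continuousOn_const.mul hV).mul continuousOn_const)
    (fun x hx => ⟨hK.ev_nonneg, by
      simpa only [Matrix.mul_add, Matrix.add_mul, hKd] using (hA x hx).1.conj Uᵀ, by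
      simpa only [Matrix.mul_sub, Matrix.sub_mul, hKd] using (hA x hx).2.conj Uᵀ⟩)
    (fun x hx => (hP x hx).conj _) (fun x hx => by
      have := HasDerivAt.mmul (HasDerivAt.mmul (hasDerivAt_mconst Uᵀ x) (hd x hx))
        (hasDerivAt_mconst Uᵀᵀ x)
      simpa only [EE, ← hKd, hm, Matrix.mul_sub, Matrix.sub_mul, Matrix.zero_mul, Matrix.mul_zero,
        zero_add, add_zero] using this)
    (by simp only [ha, Matrix.mul_neg, Matrix.neg_mul, hKd]) (by simp only [hb, hKd])
  rw [trace_mf]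
  refine this.trans (le_of_eq ?_)
  congr 1
  refine intervalIntegral.integral_congr fun x hx => ?_
  rw [Set.uIcc_of_le hab] at hx
  rw [mf_conj hU2 (hP x hx).1, trace_mul_cycle, transpose_transpose, hU1, Matrix.one_mul]

end Vale.Agent.P371
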