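import Vale.Agent.P371.Fix
import Vale.Agent.P371.Path

namespace Vale.Agent.P371

open Matrix Finset Filter Topology MeasureTheory
open scoped Matrix.Norms.Frobenius

variable {n d : Type*} [Fintype n] [DecidableEq n] [Fintype d] [DecidableEq d]

lemma pow_tr_le {P : Matrix n n ℝ} (h : PSD P) {c s : ℝ} (hs : 0 < s) (hc : P.trace ≤ c) :
    (mf (fun x => x ^ (1 + s)) P).trace ≤ c ^ s * P.trace := by
  have e : P.trace = ∑ i, ev P i := by conv_lhs => rw [← mf_id h.1, trace_mf]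
  rw [trace_mf, e, mul_sum]
  refine sum_le_sum fun i _ => ?_
  rw [Real.rpow_add' (h.ev_nonneg i) (by positivity), Real.rpow_one, mul_comm]
  refine mul_le_mul_of_nonneg_right (Real.rpow_le_rpow (h.ev_nonneg i) ?_ hs.le) (h.ev_nonneg i)
  exact (single_le_sum (fun j _ => h.ev_nonneg j) (mem_univ i)).trans (e ▸ hc)

lemma pow_tr_ge {P : Matrix n n ℝ} (h : PSD P) {L ν : ℝ} (hL : 0 ≤ L) (hν : 0 < ν) :
    L * P.trace - Fintype.card n * L ^ (1 + ν) ≤ (mf (fun x => x ^ (1 + 1 / ν)) P).trace := by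
  have e : P.trace = ∑ i, ev P i := by conv_lhs => rw [← mf_id h.1, trace_mf]
  rw [trace_mf, e, mul_sum, ← card_univ, ← nsmul_eq_mul, ← sum_const, ← sum_sub_distrib]
  refine sum_le_sum fun i _ => ?_
  have h0 := h.ev_nonneg i
  generalize ev P i = x at h0
  rw [Real.rpow_add' h0 (by positivity), Real.rpow_add' hL (by positivity), Real.rpow_one,
    Real.rpow_one]
  rcases le_total x (L ^ ν) with h1 | h1
  · nlinarith [mul_le_mul_of_nonneg_left h1 hL, mul_nonneg h0 (Real.rpow_nonneg h0 (1 / ν))]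
  · have := Real.rpow_le_rpow (Real.rpow_nonneg hL ν) h1 (z := 1 / ν) (by positivity)
    rw [← Real.rpow_mul hL, mul_one_div_cancel hν.ne', Real.rpow_one] at this
    nlinarith [mul_le_mul_of_nonneg_left this h0, mul_nonneg hL (Real.rpow_nonneg hL ν)]

lemma ii_le_int {f : ℝ → ℝ} (hf : Integrable f) (h0 : ∀ x, 0 ≤ f x) {a b : ℝ} (hab : a ≤ b) :
    ∫ x in a..b, f x ≤ ∫ x, f x := by
  rw [intervalIntegral.integral_of_le hab]
  exact setIntegral_le_integral hf (Eventually.of_forall h0)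

omit [DecidableEq n] in
lemma int_tr {F : ℝ → Matrix n n ℝ} (hF : ∀ i j, Integrable fun x => F x i j) (B : Matrix n n ℝ) :
    Integrable fun x => (B * F x).trace := by
  simp only [trace, diag_apply, Matrix.mul_apply]
  exact integrable_finsetSum _ fun i _ => integrable_finsetSum _ fun j _ => (hF j i).const_mul _

omit [DecidableEq n] in
lemma int_tr_eq {F : ℝ → Matrix n n ℝ} (hF : ∀ i j, Integrable fun x => F x i j)
    {C : Matrix n n ℝ} (hC : ∀ i j, ∫ x, F x i j = C i j) (B : Matrix n n ℝ) :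
    ∫ x, (B * F x).trace = (B * C).trace := by
  simp only [trace, diag_apply, Matrix.mul_apply]
  refine (integral_finsetSum _ fun i _ => integrable_finsetSum _ fun j _ =>
    (hF j i).const_mul (B i j)).trans (sum_congr rfl fun i _ => ?_)
  refine (integral_finsetSum _ fun j _ => (hF j i).const_mul (B i j)).trans ?_
  simp only [integral_const_mul, hC]

lemma exists_R {g : ℝ → ℝ} (hg : Integrable g) {η : ℝ} (hη : 0 < η) (R0 : ℝ) :
    ∃ R, R0 ≤ R ∧ g R + g (-R) ≤ η := by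
  by_contra hc
  push Not at hc
  have h1 : IntegrableOn (fun _ => η) (Set.Ici R0) :=
    Integrable.mono' ((hg.add hg.comp_neg).integrableOn) aestronglyMeasurable_const
      ((ae_restrict_iff' measurableSet_Ici).2 (Eventually.of_forall fun x hx => by
        rw [Real.norm_of_nonneg hη.le]; exact (hc x hx).le))
  simp [integrableOn_const_iff, hη.ne'] at h1

lemma exists_tail {g : ℝ → ℝ} (hg : Integrable g) {η : ℝ} (hη : 0 < η) :
    ∃ R0, 0 ≤ R0 ∧ ∀ R, R0 ≤ R → ∫ x, g x ≤ η + ∫ x in (-R)..R, g x := by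
  have := intervalIntegral_tendsto_integral hg tendsto_neg_atTop_atBot (b := fun x => x) tendsto_id
  obtain ⟨R0, h⟩ := eventually_atTop.1 (this.eventually (lt_mem_nhds (sub_lt_self _ hη)))
  exact ⟨max R0 0, le_max_right _ _, fun R hR => by
    linarith [h R ((le_max_left _ _).trans hR)]⟩

lemma tail_le {f g : ℝ → ℝ} {C η a b : ℝ} (hf : Integrable f) (hg : Integrable g) (hC : 0 ≤ C)
    (h : ∀ x, f x ≤ C * g x) (hab : a ≤ b) (ht : ∫ x, g x ≤ η + ∫ x in a..b, g x) :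
    ∫ x, f x ≤ (∫ x in a..b, f x) + η * C := by
  have k4 := ii_le_int ((hg.const_mul C).sub hf) (fun x => sub_nonneg.2 (h x)) hab
  simp only [Pi.sub_apply] at k4
  rw [intervalIntegral.integral_sub (hg.intervalIntegrable.const_mul _) hf.intervalIntegrable,
    integral_sub (hg.const_mul _) hf, intervalIntegral.integral_const_mul,
    integral_const_mul] at k4
  nlinarith [mul_le_mul_of_nonneg_left ht hC]

structure Dat (U U' : ℝ → Matrix n d ℝ) : Prop where
  prim : ∀ i α a b, a ≤ b → Prim (fun x => U x i α) (fun x => U' x i α) a b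
  iG : ∀ i j, Integrable fun x => (U x * (U x)ᵀ) i j
  hG : ∀ i j, ∫ x, (U x * (U x)ᵀ) i j = (1 : Matrix n n ℝ) i j
  iT : ∀ i j, Integrable fun x => (U' x * (U' x)ᵀ) i j

lemma prim_cont {f f' : ℝ → ℝ} (h : ∀ a b, a ≤ b → Prim f f' a b) : Continuous f :=
  continuous_iff_continuousAt.2 fun x => ((h (x - 1) (x + 1) (by linarith)).cont
    (by linarith)).continuousAt (Icc_mem_nhds (by linarith) (by linarith))

lemma prim_bd {f f' g : ℝ → ℝ} (h : ∀ a b, a ≤ b → Prim f f' a b) (hg : Integrable g)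
    (hb : ∀ x, |f' x| ≤ g x) (x : ℝ) : f x ≤ f 0 + ∫ x, g x := by
  have key : ∀ a b, a ≤ b → |f b - f a| ≤ ∫ x, g x := fun a b hab => by
    rw [(h a b hab).2 b ⟨hab, le_rfl⟩, add_sub_cancel_left]
    exact ((intervalIntegral.abs_integral_le_integral_abs hab).trans
      (intervalIntegral.integral_mono hab (h a b hab).1.abs hg.intervalIntegrable hb)).trans
      (ii_le_int hg (fun x => (abs_nonneg _).trans (hb x)) hab)
  rcases le_total 0 x with hx | hx
  · linarith [(abs_le.1 (key 0 x hx)).2]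
  · linarith [(abs_le.1 (key x 0 hx)).1]

variable {U U' : ℝ → Matrix n d ℝ}

omit [Fintype n] [DecidableEq d] in
lemma Dat.cont (h : Dat U U') : Continuous fun x => U x * (U x)ᵀ := by
  have : Continuous U := continuous_pi fun i => continuous_pi fun α => prim_cont (h.prim i α)
  exact this.matrix_mul this.matrix_transpose

omit [DecidableEq d] in
lemma Dat.ig (h : Dat U U') : Integrable fun x => (U x * (U x)ᵀ).trace := by
  simpa using int_tr h.iG 1

omit [DecidableEq d] in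
lemma Dat.it (h : Dat U U') : Integrable fun x => (U' x * (U' x)ᵀ).trace := by
  simpa using int_tr h.iT 1

omit [DecidableEq d] in
lemma Dat.bd (h : Dat U U') : ∃ B, ∀ x, (U x * (U x)ᵀ).trace ≤ B := by
  refine ⟨_, prim_bd (f := fun x => (U x * (U x)ᵀ).trace) (fun a b hab => ?_) (h.ig.add h.it)
    (f' := fun x => ∑ i, ∑ α, (U' x i α * U x i α + U x i α * U' x i α)) fun x => ?_⟩
  · exact Prim.sum fun i => Prim.sum fun α => (h.prim i α a b hab).mul (h.prim i α a b hab) hab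
  · simp only [trace, diag_apply, Matrix.mul_apply, transpose_apply, Pi.add_apply,
      ← sum_add_distrib]
    refine (abs_sum_le_sum_abs _ _).trans (sum_le_sum fun i _ => (abs_sum_le_sum_abs _ _).trans
      (sum_le_sum fun α _ => abs_le.2 ⟨?_, ?_⟩))
    · nlinarith [sq_nonneg (U x i α + U' x i α)]
    · nlinarith [sq_nonneg (U x i α - U' x i α)]

lemma Prim.cmul {f f' : ℝ → ℝ} {a b : ℝ} (h : Prim f f' a b) (c : ℝ) :
    Prim (fun x => c * f x) (fun x => c * f' x) a b :=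
  ⟨h.1.const_mul c, fun x hx => by
    rw [intervalIntegral.integral_const_mul, ← mul_add, ← h.2 x hx]⟩

lemma Dat.form (h : Dat U U') {S K : Matrix n n ℝ} {Y : ℝ → Matrix n n ℝ} {M R s : ℝ}
    (hS : Sᵀ = S) (hR : 0 ≤ R) (hs : 0 < s)
    (hY : Ric M K (fun x => mf (fun w => w ^ s) (S * (U x * (U x)ᵀ) * S)) (-R) R Y)
    (hb : PSD (K - Y R)) :
    ∫ x in (-R)..R, (mf (fun w => w ^ (1 + s)) (S * (U x * (U x)ᵀ) * S)).trace ≤
      (∫ x, (S * S * (U' x * (U' x)ᵀ)).trace) + (S * (K * K) * S).trace +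
      M * (‖S‖ ^ 2 * ((U R * (U R)ᵀ).trace + (U (-R) * (U (-R))ᵀ).trace)) := by
  have hab : -R ≤ R := by linarith
  have e0 : ∀ Z : Matrix n d ℝ, S * Z * (S * Z)ᵀ = S * (Z * Zᵀ) * S := fun Z => by
    rw [transpose_mul, hS]; simp only [Matrix.mul_assoc]
  have pP : ∀ Z : Matrix n d ℝ, PSD (S * (Z * Zᵀ) * S) := fun Z => e0 Z ▸ psd_mul_T _
  have i1 := int_tr h.iT (S * S)
  have e1 : ∀ Z : Matrix n n ℝ, (S * Z * S).trace = (S * S * Z).trace := fun Z =>
    trace_mul_cycle _ _ _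
  have cP : Continuous fun x => S * (U x * (U x)ᵀ) * S :=
    (continuous_const.mul h.cont).mul continuous_const
  have := form_ineq (U := fun x => S * U x) (U' := fun x => S * U' x) hab
    (fun i α => Prim.sum fun j => (h.prim j α _ _ hab).cmul (S i j))
    (by simp only [e0, e1]; exact i1.intervalIntegrable) hY.sol.cont
    (mf_continuous (fun x => (pP _).1) cP (Real.continuous_rpow_const hs.le)).continuousOn
    hY.symm fun x hx => hY.deriv_one hb hx
  simp only [e0] at this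
  have e2 : ∀ x, (mf (fun w => w ^ s) (S * (U x * (U x)ᵀ) * S) * (S * (U x * (U x)ᵀ) * S)).trace =
      (mf (fun w => w ^ (1 + s)) (S * (U x * (U x)ᵀ) * S)).trace := fun x => by
    have p := pP (U x)
    generalize S * (U x * (U x)ᵀ) * S = P at p
    nth_rewrite 2 [← mf_id p.1]
    rw [mf_mul, mf_congr fun i => ?_]
    rw [Real.rpow_add' (p.ev_nonneg i) (by positivity), Real.rpow_one, mul_comm]
  have e3 : ∀ x, (K * K * (S * (U x * (U x)ᵀ) * S)).trace =
      (S * (K * K) * S * (U x * (U x)ᵀ)).trace := fun x => by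
    rw [← Matrix.mul_assoc, trace_mul_comm]; simp only [Matrix.mul_assoc]
  have pK : PSD (S * (K * K) * S) := by
    have := psd_mul_T (S * K)
    rwa [transpose_mul, hS, hY.hK.1, Matrix.mul_assoc, ← Matrix.mul_assoc K,
      ← Matrix.mul_assoc S] at this
  have pS : PSD (S * S) := by simpa [hS] using psd_mul_T S
  have b1 := ii_le_int i1 (fun x => pS.trace_mul_nonneg (psd_mul_T _)) hab
  have b2 := ii_le_int (int_tr h.iG (S * (K * K) * S))
    (fun x => pK.trace_mul_nonneg (psd_mul_T _)) hab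
  rw [int_tr_eq h.iG h.hG, Matrix.mul_one] at b2
  have b3 : ∀ x ∈ Set.Icc (-R) R, |(Y x * (S * (U x * (U x)ᵀ) * S)).trace| ≤
      M * (‖S‖ ^ 2 * (U x * (U x)ᵀ).trace) := fun x hx =>
    (trace_mul_le (pP _)).trans (mul_le_mul ((norm_le_of_between hY.hK.1 (hY.symm x hx)
      (hY.lower x hx) (hY.upper hb x hx)).trans hY.hM) (trace_conj_le (psd_mul_T _))
      (pP _).trace_nonneg hY.M0)
  simp only [e2, e3] at this
  have e4 : ∀ x, (S * (U' x * (U' x)ᵀ) * S).trace = (S * S * (U' x * (U' x)ᵀ)).trace :=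
    fun x => e1 _
  simp only [e4] at this
  have b4 := (abs_le.1 (b3 R ⟨hab, le_rfl⟩)).2
  have b5 := (abs_le.1 (b3 (-R) ⟨le_rfl, hab⟩)).1
  rw [mul_add, mul_add]
  linarith

omit [DecidableEq n] [DecidableEq d] in
lemma psd_sand' {S : Matrix n n ℝ} (hS : Sᵀ = S) (Z : Matrix n d ℝ) : PSD (S * (Z * Zᵀ) * S) := by
  classical
  have := (psd_mul_T Z).conj S
  rwa [hS] at this

omit [DecidableEq d] in
lemma Dat.cP (h : Dat U U') {S : Matrix n n ℝ} (hS : Sᵀ = S) {q : ℝ} (hq : 0 ≤ q) :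
    Continuous fun x => mf (fun w => w ^ q) (S * (U x * (U x)ᵀ) * S) :=
  mf_continuous (fun _ => (psd_sand' hS _).1)
    ((continuous_const.mul h.cont).mul continuous_const) (Real.continuous_rpow_const hq)

lemma Dat.excl (h : Dat U U') {ν M : ℝ} (h0 : 0 < ν) (hM : 0 ≤ M) :
    ∃ ρ R1, 0 < ρ ∧ ∀ R, R1 ≤ R → 0 ≤ R → (U R * (U R)ᵀ).trace + (U (-R) * (U (-R))ᵀ).trace ≤ 1 →
      ∀ S K Y, Sᵀ = S → Ric M K (fun x => mf (fun w => w ^ (1 / ν)) (S * (U x * (U x)ᵀ) * S))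
        (-R) R Y → PSD (K - Y R) → ‖S‖ ≠ ρ := by
  obtain ⟨R1, r0, hR1⟩ := exists_tail h.ig (η := 1 / 2) (by norm_num)
  have τ0 : 0 ≤ ∫ x, (U' x * (U' x)ᵀ).trace := integral_nonneg fun x => (psd_mul_T _).trace_nonneg
  set τ := ∫ x, (U' x * (U' x)ᵀ).trace with hτ
  set L := 2 * (τ + M ^ 2 + M + 1) with hL
  have L0 : 0 ≤ L := by positivity
  set c := 2 * R1 * (Fintype.card n * L ^ (1 + ν)) with hc
  have c0 : 0 ≤ c := by positivity
  refine ⟨c + 1, R1, by positivity, fun R hR hR0 hg S K Y hS hY hb hn => ?_⟩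
  have f1 := h.form hS hR0 (by positivity) hY hb
  have pS : PSD (S * S) := by simpa [hS] using psd_mul_T S
  have nS : ‖S‖ ^ 2 = (S * S).trace := by rw [norm_sq_trace, hS]
  have e1 : ∀ Z : Matrix n n ℝ, (S * Z * S).trace = (S * S * Z).trace := fun Z =>
    trace_mul_cycle _ _ _
  have b1 : ∫ x, (S * S * (U' x * (U' x)ᵀ)).trace ≤ ‖S‖ ^ 2 * τ := by
    rw [hτ, ← integral_const_mul]
    exact integral_mono (int_tr h.iT _) (h.it.const_mul _) fun x =>
      (e1 _).symm.trans_le (trace_conj_le (psd_mul_T _))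
  have b2 : (S * (K * K) * S).trace ≤ ‖S‖ ^ 2 * M ^ 2 := by
    have pK : PSD (K * K) := by simpa [hY.hK.1] using psd_mul_T K
    refine (trace_conj_le pK).trans (mul_le_mul_of_nonneg_left ?_ (sq_nonneg _))
    have := norm_sq_trace K
    rw [hY.hK.1] at this
    rw [← this]
    exact pow_le_pow_left₀ (norm_nonneg _) hY.hM 2
  have ct := continuous_trace.comp (h.cP hS (q := 1 + 1 / ν) (by positivity))
  have b3 : ∫ x in (-R1)..R1, (mf (fun w => w ^ (1 + 1 / ν)) (S * (U x * (U x)ᵀ) * S)).trace ≤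
      ∫ x in (-R)..R, (mf (fun w => w ^ (1 + 1 / ν)) (S * (U x * (U x)ᵀ) * S)).trace :=
    intervalIntegral.integral_mono_interval (by linarith) (by linarith) hR
      (Eventually.of_forall fun x => (psd_pow (psd_sand' hS _) _).trace_nonneg)
      (ct.intervalIntegrable _ _)
  have i1 := int_tr h.iG (S * S)
  have b4 : ∫ x in (-R1)..R1, (L * (S * S * (U x * (U x)ᵀ)).trace - Fintype.card n * L ^ (1 + ν)) ≤
      ∫ x in (-R1)..R1, (mf (fun w => w ^ (1 + 1 / ν)) (S * (U x * (U x)ᵀ) * S)).trace :=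
    intervalIntegral.integral_mono (by linarith) ((i1.intervalIntegrable.const_mul _).sub
      intervalIntegrable_const) (ct.intervalIntegrable _ _) fun x => by
        simpa only [← e1] using pow_tr_ge (psd_sand' hS (U x)) L0 h0
  rw [intervalIntegral.integral_sub (i1.intervalIntegrable.const_mul _) intervalIntegrable_const,
    intervalIntegral.integral_const_mul, intervalIntegral.integral_const, smul_eq_mul] at b4
  have b5 := tail_le i1 h.ig (sq_nonneg ‖S‖) (fun x => (e1 _).symm.trans_le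
    (trace_conj_le (psd_mul_T _))) (by linarith) (hR1 R1 le_rfl)
  rw [int_tr_eq h.iG h.hG, Matrix.mul_one, ← nS] at b5
  have b7 := mul_le_mul_of_nonneg_left (mul_le_mul_of_nonneg_left hg (sq_nonneg ‖S‖)) hM
  have b8 : ‖S‖ ^ 2 / 2 ≤ ∫ x in (-R1)..R1, (S * S * (U x * (U x)ᵀ)).trace := by linarith
  have b9 := mul_le_mul_of_nonneg_left b8 L0
  have b10 : c < ‖S‖ ^ 2 := by rw [hn]; nlinarith
  nlinarith

lemma pow_sand {S : Matrix n n ℝ} (hS : Sᵀ = S) (Z : Matrix n d ℝ) {s B ρ : ℝ} (hs : 0 < s)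
    (hB : (Z * Zᵀ).trace ≤ B) (hρ : ‖S‖ ≤ ρ) :
    (mf (fun w => w ^ (1 + s)) (S * (Z * Zᵀ) * S)).trace ≤
      (ρ ^ 2 * B) ^ s * ρ ^ 2 * (Z * Zᵀ).trace := by
  have g0 := (psd_mul_T Z).trace_nonneg
  have a1 := (trace_conj_le (A := S) (psd_mul_T Z)).trans
    (mul_le_mul_of_nonneg_right (pow_le_pow_left₀ (norm_nonneg _) hρ 2) g0)
  rw [mul_assoc ((ρ ^ 2 * B) ^ s)]
  exact (pow_tr_le (psd_sand' hS _) hs (a1.trans
    (mul_le_mul_of_nonneg_left hB (sq_nonneg _)))).trans (mul_le_mul_of_nonneg_left a1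
      (Real.rpow_nonneg (mul_nonneg (sq_nonneg _) (g0.trans hB)) _))

lemma Dat.ipow (h : Dat U U') {s : ℝ} (hs : 0 < s) {S : Matrix n n ℝ} (hS : Sᵀ = S) :
    Integrable fun x => (mf (fun w => w ^ (1 + s)) (S * (U x * (U x)ᵀ) * S)).trace := by
  obtain ⟨B, hB⟩ := h.bd
  have ct : Continuous fun x => (mf (fun w => w ^ (1 + s)) (S * (U x * (U x)ᵀ) * S)).trace :=
    continuous_trace.comp (h.cP hS (q := 1 + s) (by positivity))
  exact (h.ig.const_mul ((‖S‖ ^ 2 * B) ^ s * ‖S‖ ^ 2)).mono' ct.aestronglyMeasurable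
    (Eventually.of_forall fun x => (Real.norm_of_nonneg
      (psd_pow (psd_sand' hS _) _).trace_nonneg).trans_le (pow_sand hS _ hs (hB x) le_rfl))

lemma Dat.tail (h : Dat U U') {s B ρ η R : ℝ} (hs : 0 < s) (hB : ∀ x, (U x * (U x)ᵀ).trace ≤ B)
    (hR : 0 ≤ R) (ht : ∫ x, (U x * (U x)ᵀ).trace ≤ η + ∫ x in (-R)..R, (U x * (U x)ᵀ).trace)
    {S : Matrix n n ℝ} (hS : Sᵀ = S) (hρ : ‖S‖ ≤ ρ) :
    ∫ x, (mf (fun w => w ^ (1 + s)) (S * (U x * (U x)ᵀ) * S)).trace ≤
      (∫ x in (-R)..R, (mf (fun w => w ^ (1 + s)) (S * (U x * (U x)ᵀ) * S)).trace) +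
        η * ((ρ ^ 2 * B) ^ s * ρ ^ 2) :=
  tail_le (h.ipow hs hS) h.ig (mul_nonneg (Real.rpow_nonneg (mul_nonneg (sq_nonneg _)
    ((psd_mul_T _).trace_nonneg.trans (hB 0))) _) (sq_nonneg _))
    (fun x => pow_sand hS _ hs (hB x) hρ) (by linarith) ht

lemma est_arith {ν X X' Mw e c : ℝ} (h0 : 0 < ν) (h1 : X' ≤ X + c)
    (h2 : X ≤ Mw / (1 + ν) + ν / (1 + ν) * X' + e) : X ≤ Mw + ((1 + ν) * e + ν * c) := by
  have k10 := mul_le_mul_of_nonneg_left h2 (show 0 ≤ 1 + ν by positivity)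
  rw [mul_add, mul_add, mul_div_cancel₀ _ (by positivity), ← mul_assoc,
    mul_div_cancel₀ _ (by positivity)] at k10
  nlinarith [mul_le_mul_of_nonneg_left h1 h0.le]

lemma Bnu_nonneg (ν : ℝ) : 0 ≤ Bnu ν :=
  intervalIntegral.integral_nonneg (by norm_num) fun y hy =>
    Real.rpow_nonneg (by nlinarith [hy.1, hy.2]) _

lemma Dat.est (h : Dat U U') {k : n → ℝ} {ν Mw kb M B ρ η R : ℝ} (hk : ∀ i, 0 ≤ k i)
    (hkb : ∀ i, k i ≤ kb) (h0 : 0 < ν) (h1 : ν < 1) (hB : ∀ x, (U x * (U x)ᵀ).trace ≤ B)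
    (hη : 0 < η) (hR : 0 ≤ R) (hg : (U R * (U R)ᵀ).trace + (U (-R) * (U (-R))ᵀ).trace ≤ η)
    (ht : ∫ x, (U x * (U x)ᵀ).trace ≤ η + ∫ x in (-R)..R, (U x * (U x)ᵀ).trace)
    {S : Matrix n n ℝ} {Y : ℝ → Matrix n n ℝ} (hS : Sᵀ = S) (hp : ∀ i, 0 < ev S i) (hρ : ‖S‖ ≤ ρ)
    (hY : Ric M (Kt k kb η S) (fun x => mf (fun w => w ^ (1 / ν)) (S * (U x * (U x)ᵀ) * S))
      (-R) R Y) (hb : Y R = Kt k kb η S)
    (hE : (∫ x, (S * S * (U' x * (U' x)ᵀ)).trace) + (S * S * (diagonal k * diagonal k)).trace ≤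
      Mw / (1 + ν) + ν / (1 + ν) *
        ∫ x, (mf (fun w => w ^ (1 + 1 / ν)) (S * (U x * (U x)ᵀ) * S)).trace) :
    ν * Bnu ν * ∑ i, k i ^ (2 * ν + 1) ≤ (ν / (1 + ν)) ^ (1 + ν) * (Mw + ((1 + ν) *
      (η * (2 * kb ^ 2 * (Fintype.card n * ρ) + M * ρ ^ 2)) +
        ν * (η * ((ρ ^ 2 * B) ^ (1 / ν) * ρ ^ 2)))) := by
  have hab : -R ≤ R := by linarith
  have hs : 0 < 1 / ν := by positivity
  have hb' : PSD (Kt k kb η S - Y R) := by rw [hb, sub_self]; exact ⟨by simp, by simp⟩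
  have f1 := h.form hS hR hs hY hb'
  have p1 := path_gen hab h0 h1 hY.hK hY.sol.cont (h.cP hS hs.le).continuousOn
    (fun x hx => ⟨hY.lower x hx, hY.upper hb' x hx⟩) (fun x _ => hY.hW x)
    (fun x hx => hY.deriv_one hb' hx) hY.ini hb
  have e1 : ∀ x, mf (fun x => x ^ (1 + ν)) (mf (fun w => w ^ (1 / ν)) (S * (U x * (U x)ᵀ) * S)) =
      mf (fun w => w ^ (1 + 1 / ν)) (S * (U x * (U x)ᵀ) * S) := fun x => by
    rw [mf_mf, mf_congr fun i => ?_]
    rw [← Real.rpow_mul ((psd_sand' hS _).ev_nonneg i)]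
    congr 1; field_simp; ring
  simp only [e1] at p1
  refine ((mul_le_mul_of_nonneg_left (Kt_dom (S := S) hk hkb hη (by linarith))
    (mul_nonneg h0.le (Bnu_nonneg ν))).trans p1).trans (mul_le_mul_of_nonneg_left
      (est_arith h0 (h.tail hs hB hR ht hS hρ) ?_) (by positivity))
  have k1 := Kt_energy (k := k) (kb := kb) (S := S) hη
  rw [mf_congr (g := fun x => x) fun i => max_eq_left (hp i).le, mf_id hS] at k1
  have k2 : S.trace ≤ Fintype.card n * ρ := by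
    rw [← card_univ, ← nsmul_eq_mul]
    exact sum_le_card_nsmul _ _ _ fun i _ => (le_abs_self _).trans ((abs_apply_le S i i).trans hρ)
  have k6 := mul_le_mul_of_nonneg_left (mul_le_mul (pow_le_pow_left₀ (norm_nonneg _) hρ 2) hg
    (add_nonneg (psd_mul_T _).trace_nonneg (psd_mul_T _).trace_nonneg) (sq_nonneg _)) hY.M0
  have k7 := mul_le_mul_of_nonneg_left k2 (show 0 ≤ 2 * η * kb ^ 2 by positivity)
  linarith

theorem Dat.core (h : Dat U U') {k : n → ℝ} {ν Mw : ℝ} (hk : ∀ i, 0 ≤ k i) (h0 : 0 < ν)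
    (h1 : ν < 1) (hE : ∀ S : Matrix n n ℝ, Sᵀ = S →
      (∫ x, (S * S * (U' x * (U' x)ᵀ)).trace) + (S * S * (diagonal k * diagonal k)).trace ≤
      Mw / (1 + ν) + ν / (1 + ν) *
        ∫ x, (mf (fun w => w ^ (1 + 1 / ν)) (S * (U x * (U x)ᵀ) * S)).trace) :
    ν * Bnu ν * ∑ i, k i ^ (2 * ν + 1) ≤ (ν / (1 + ν)) ^ (1 + ν) * Mw := by
  have s0 : 0 ≤ ∑ i, k i := sum_nonneg fun i _ => hk i
  have hkb : ∀ i, k i ≤ ∑ i, k i + 1 := fun i =>
    (single_le_sum (fun i _ => hk i) (mem_univ i)).trans (by linarith)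
  have hb : 0 < ∑ i, k i + 1 := by linarith
  generalize ∑ i, k i + 1 = kb at hkb hb
  obtain ⟨B, hB⟩ := h.bd
  obtain ⟨ρ, R1, hρ, hx⟩ := h.excl h0 (M := kb * Fintype.card n) (by positivity)
  have t : ∀ c e f : ℝ, Tendsto (fun η : ℝ => c * (Mw + ((1 + ν) * (η * e) + ν * (η * f))))
      (𝓝[>] 0) (𝓝 (c * Mw)) := fun c e f =>
    (Continuous.tendsto' (by fun_prop) 0 _ (by simp)).mono_left nhdsWithin_le_nhds
  refine ge_of_tendsto (t _ (2 * kb ^ 2 * (Fintype.card n * ρ) + kb * Fintype.card n * ρ ^ 2)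
    ((ρ ^ 2 * B) ^ (1 / ν) * ρ ^ 2)) ?_
  filter_upwards [Ioo_mem_nhdsGT zero_lt_one] with η hη
  obtain ⟨R0, r0, hR0⟩ := exists_tail h.ig hη.1
  obtain ⟨R, hR, hg⟩ := exists_R h.ig hη.1 (max R0 R1)
  have hR' := (le_max_left _ _).trans hR
  obtain ⟨S, Y, hS, hp, hn, hY, hb', hc⟩ := exists_ric h.cont (fun x => psd_mul_T _) hk hb hkb hη.1
    (a := -R) (b := R) (by linarith) hρ (s := 1 / ν) (by positivity)
  exact h.est hk hkb h0 h1 hB hη.1 (r0.trans hR') hg (hR0 R hR') hS hp hn hY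
    (hc.resolve_right (hx R ((le_max_right _ _).trans hR) (r0.trans hR') (hg.trans hη.2.le) S _ Y
      hS hY hb')) (hE S hS)

end Vale.Agent.P371
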