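import Vale.Agent.P371.Core

namespace Vale.Agent.P371

open Matrix Finset Filter Topology MeasureTheory
open scoped ComplexOrder

variable {n ι : Type*} [Fintype n] [DecidableEq n] [Fintype ι] [DecidableEq ι]

lemma mf_pow_succ {P : Matrix n n ℝ} (hP : PSD P) {s : ℝ} (hs : 0 < s) :
    mf (fun w => w ^ (1 + s)) P = mf (fun w => w * w ^ s) P :=
  mf_congr fun i => by rw [Real.rpow_add' (hP.ev_nonneg i) (by positivity), Real.rpow_one]

lemma young_tr {d : Type*} [Fintype d] [DecidableEq d] (Z : Matrix n d ℝ) {D : d → ℝ}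
    (hD : ∀ α, 0 ≤ D α) {S : Matrix n n ℝ} (hS : Sᵀ = S) {ν : ℝ} (h0 : 0 < ν) :
    (S * S * (Z * diagonal D * Zᵀ)).trace ≤ (∑ α, D α ^ (1 + ν)) / (1 + ν) +
      ν / (1 + ν) * (mf (fun w => w ^ (1 + 1 / ν)) (S * (Z * Zᵀ) * S)).trace := by
  have e0 : S * (Z * Zᵀ) * S = S * Z * (S * Z)ᵀ := by
    rw [transpose_mul, hS]; simp only [Matrix.mul_assoc]
  have p1 : PSD ((S * Z)ᵀ * (S * Z)) := by simpa only [transpose_transpose] using psd_mul_T (S * Z)ᵀ
  have e2 : (S * S * (Z * diagonal D * Zᵀ)).trace = ∑ α, D α * ((S * Z)ᵀ * (S * Z)) α α := by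
    rw [← trace_mul_cycle, ← Matrix.mul_assoc, ← Matrix.mul_assoc, Matrix.mul_assoc _ Zᵀ,
      trace_mul_cycle, trace_mul_comm, transpose_mul, hS]
    simp only [trace, diag_apply, diagonal_mul]
  have := trace_mf_ge p1.1 (g := fun w => ν / (1 + ν) * w ^ (1 + 1 / ν))
    (fun α => -(D α ^ (1 + ν) / (1 + ν))) D fun α j => by
      have := Real.young_inequality_of_nonneg (hD α) (p1.ev_nonneg j) (p := 1 + ν) (q := 1 + 1 / ν)
        ⟨by field_simp; ring, by positivity, by positivity⟩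
      rw [show ν / (1 + ν) * ev ((S * Z)ᵀ * (S * Z)) j ^ (1 + 1 / ν) =
        ev ((S * Z)ᵀ * (S * Z)) j ^ (1 + 1 / ν) / (1 + 1 / ν) by field_simp; ring]
      linarith
  rw [← mf_smul, trace_smul, smul_eq_mul, sum_add_distrib, sum_neg_distrib, ← sum_div, ← e2,
    mf_pow_succ p1 (by positivity), ← trace_mf_swap, ← mf_pow_succ (psd_mul_T _) (by positivity),
    ← e0] at this
  linarith

def rl (χ : n → ι → ℂ) : Matrix n (ι × Bool) ℝ :=
  of fun q α => if α.2 then (χ q α.1).im else (χ q α.1).re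

omit [Fintype n] [DecidableEq n] in
lemma rl_diag (χ : n → ι → ℂ) (D : ι → ℝ) (q p : n) :
    (rl χ * diagonal (fun α : ι × Bool => D α.1) * (rl χ)ᵀ) q p =
      (star (χ q) ⬝ᵥ diagonal (fun i => (D i : ℂ)) *ᵥ χ p).re := by
  simp only [Matrix.mul_apply (N := _ᵀ), mul_diagonal, rl, Fintype.sum_prod_type, dotProduct,
    mulVec_diagonal, Complex.re_sum, transpose_apply, of_apply, Fintype.sum_bool]
  exact sum_congr rfl fun i _ => by simp; ring

omit [Fintype n] [DecidableEq n] in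
lemma rl_mul (χ : n → ι → ℂ) (q p : n) : (rl χ * (rl χ)ᵀ) q p = (star (χ q) ⬝ᵥ χ p).re := by
  simpa using rl_diag χ (fun _ => 1) q p

omit [DecidableEq ι] in
lemma form_conj (V D : Matrix ι ι ℂ) (a b : ι → ℂ) :
    star a ⬝ᵥ (V * D * star V) *ᵥ b = star (star V *ᵥ a) ⬝ᵥ D *ᵥ (star V *ᵥ b) := by
  rw [star_mulVec, ← star_eq_conjTranspose, star_star, ← dotProduct_mulVec, mulVec_mulVec,
    mulVec_mulVec]

lemma spec {A : Matrix ι ι ℂ} (h : A.IsHermitian) : A = (h.eigenvectorUnitary : Matrix ι ι ℂ) *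
    diagonal (fun i => (h.eigenvalues i : ℂ)) * star (h.eigenvectorUnitary : Matrix ι ι ℂ) := by
  conv_lhs => rw [h.spectral_theorem, Unitary.conjStarAlgAut_apply]
  rfl

lemma young_cx (χ : n → ι → ℂ) {A : Matrix ι ι ℂ} (h : A.PosSemidef) {S : Matrix n n ℝ}
    (hS : Sᵀ = S) {ν : ℝ} (h0 : 0 < ν) :
    (S * S * of fun q p => (star (χ q) ⬝ᵥ A *ᵥ χ p).re).trace ≤
      2 * (∑ i, h.1.eigenvalues i ^ (1 + ν)) / (1 + ν) +
      ν / (1 + ν) * (mf (fun w => w ^ (1 + 1 / ν)) (S * (rl χ * (rl χ)ᵀ) * S)).trace := by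
  set V : Matrix ι ι ℂ := ↑h.1.eigenvectorUnitary
  have := young_tr (rl fun q => star V *ᵥ χ q) (D := fun α => h.1.eigenvalues α.1)
    (fun α => h.eigenvalues_nonneg _) hS h0
  have e1 : (rl fun q => star V *ᵥ χ q) * (rl fun q => star V *ᵥ χ q)ᵀ = rl χ * (rl χ)ᵀ := by
    ext q p
    have := form_conj V 1 (χ q) (χ p)
    rw [Matrix.mul_one, h.1.eigenvectorUnitary.2.2, one_mulVec, one_mulVec] at this
    rw [rl_mul, rl_mul, this]
  have e2 : (rl fun q => star V *ᵥ χ q) * diagonal (fun α : ι × Bool => h.1.eigenvalues α.1) *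
      (rl fun q => star V *ᵥ χ q)ᵀ = of fun q p => (star (χ q) ⬝ᵥ A *ᵥ χ p).re := by
    ext q p
    rw [rl_diag, ← form_conj, ← spec h.1, of_apply]
  rw [e1, e2, Fintype.sum_prod_type] at this
  simpa [← mul_sum] using this

lemma entry_le {A : Matrix ι ι ℂ} (h : A.PosSemidef) {p : ℝ} (hp : 1 ≤ p) (a b : ι) :
    ‖A a b‖ ≤ Fintype.card ι + ∑ i, h.1.eigenvalues i ^ p := by
  conv_lhs => rw [spec h.1]
  rw [Matrix.mul_apply, ← card_univ, card_eq_sum_ones, Nat.cast_sum, ← sum_add_distrib]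
  refine (norm_sum_le _ _).trans (sum_le_sum fun i _ => ?_)
  have h1 := entry_norm_bound_of_unitary h.1.eigenvectorUnitary.2 a i
  have h2 := entry_norm_bound_of_unitary h.1.eigenvectorUnitary.2 b i
  have h3 := h.eigenvalues_nonneg i
  rw [mul_diagonal, star_apply, norm_mul, norm_mul, norm_star, Complex.norm_real,
    Real.norm_of_nonneg h3]
  refine (mul_le_of_le_one_right (by positivity) h2).trans
    ((mul_le_of_le_one_left h3 h1).trans ?_)
  rcases le_total (h.1.eigenvalues i) 1 with h4 | h4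
  · simpa using h4.trans (le_add_of_nonneg_right (Real.rpow_nonneg h3 p))
  · simpa using (Real.self_le_rpow_of_one_le h4 hp).trans (le_add_of_nonneg_left zero_le_one)

/-- Scalar `H^1` functions. -/
def SH (f f' : ℝ → ℂ) : Prop :=
  MemLp f 2 ∧ MemLp f' 2 ∧ ∀ a b, f b - f a = ∫ x in a..b, f' x

lemma memLp_ii {E : Type*} [NormedAddCommGroup E] {f : ℝ → E} (h : MemLp f 2) (a b : ℝ) :
    IntervalIntegrable f volume a b :=
  (h.locallyIntegrable one_le_two).integrableOn_isCompact isCompact_uIcc |>.intervalIntegrable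

lemma SH.prim {f f' : ℝ → ℂ} (h : SH f f') (L : ℂ →L[ℝ] ℝ) (a b : ℝ) :
    Prim (fun x => L (f x)) (fun x => L (f' x)) a b :=
  ⟨memLp_ii (L.comp_memLp' h.2.1) a b, fun x _ => by
    rw [L.intervalIntegral_comp_comm (memLp_ii h.2.1 a x), ← h.2.2, map_sub]; ring⟩

lemma SH.cmul {f f' : ℝ → ℂ} (h : SH f f') (c : ℂ) : SH (fun x => c * f x) (fun x => c * f' x) :=
  ⟨h.1.const_mul c, h.2.1.const_mul c, fun a b => by
    rw [intervalIntegral.integral_const_mul, ← h.2.2, mul_sub]⟩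

omit [DecidableEq ι] in
lemma int_dot {f g : ℝ → ι → ℂ} (hf : ∀ a, MemLp (fun x => f x a) 2)
    (hg : ∀ a, MemLp (fun x => g x a) 2) : Integrable fun x => star (f x) ⬝ᵥ g x :=
  integrable_finsetSum _ fun a _ => (hf a).star.integrable_mul (hg a)

omit [DecidableEq ι] in
lemma int_form {f g : ℝ → ι → ℂ} {W : ℝ → Matrix ι ι ℂ} {t : ℝ → ℝ} {c B : ℝ}
    (hf : ∀ a, MemLp (fun x => f x a) 2) (hg : ∀ a, MemLp (fun x => g x a) 2)
    (bf : ∀ x a, ‖f x a‖ ≤ B) (bg : ∀ x a, ‖g x a‖ ≤ B)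
    (mW : ∀ a b, Measurable fun x => W x a b) (ht : Integrable t) (t0 : ∀ x, 0 ≤ t x)
    (hW : ∀ x a b, ‖W x a b‖ ≤ c + t x) : Integrable fun x => star (f x) ⬝ᵥ W x *ᵥ g x := by
  refine integrable_finsetSum _ fun a _ => ?_
  simp only [mulVec, dotProduct, mul_sum]
  refine integrable_finsetSum _ fun b _ => ?_
  refine ((((hf a).norm.integrable_mul (hg b).norm).const_mul c).add (ht.const_mul (B * B))).mono'
    ((hf a).star.1.mul ((mW a b).aestronglyMeasurable.mul (hg b).1))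
    (Eventually.of_forall fun x => ?_)
  simp only [Pi.star_apply, norm_mul, norm_star, Pi.add_apply, Pi.mul_apply]
  nlinarith [mul_le_mul_of_nonneg_left (hW x a b) (mul_nonneg (norm_nonneg (f x a))
    (norm_nonneg (g x b))), mul_le_mul_of_nonneg_right (mul_le_mul (bf x a) (bg x b)
      (norm_nonneg _) ((norm_nonneg _).trans (bf x a))) (t0 x)]

theorem rcore {χ χ' : n → ℝ → ι → ℂ} {W : ℝ → Matrix ι ι ℂ} {k : n → ℝ} {ν : ℝ}
    (h0 : 0 < ν) (h1 : ν < 1) (hk : ∀ q, 0 ≤ k q)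
    (hχ : ∀ q a, SH (fun x => χ q x a) (fun x => χ' q x a)) (hW : ∀ x, (W x).PosSemidef)
    (mW : ∀ a b, Measurable fun x => W x a b)
    (iW : Integrable fun x => ∑ i, (hW x).1.eigenvalues i ^ (1 + ν))
    (ho : ∀ q p, (∫ x, star (χ q x) ⬝ᵥ χ p x).re = (1 : Matrix n n ℝ) q p)
    (he : ∀ q p, (∫ x, star (χ q x) ⬝ᵥ W x *ᵥ χ p x).re =
      (∫ x, star (χ' q x) ⬝ᵥ χ' p x).re + (diagonal k * diagonal k) q p) :
    ν * Bnu ν * ∑ q, k q ^ (2 * ν + 1) ≤
      (ν / (1 + ν)) ^ (1 + ν) * (2 * ∫ x, ∑ i, (hW x).1.eigenvalues i ^ (1 + ν)) := by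
  have i1 := fun q p => int_dot (fun a => (hχ q a).1) (fun a => (hχ p a).1)
  have i2 := fun q p => int_dot (fun a => (hχ q a).2.1) (fun a => (hχ p a).2.1)
  have h : Dat (fun x => rl fun q => χ q x) (fun x => rl fun q => χ' q x) :=
    ⟨fun q α a b _ => by
      rcases α with ⟨i, _ | _⟩
      exacts [(hχ q i).prim Complex.reCLM a b, (hχ q i).prim Complex.imCLM a b],
    fun q p => by simp only [rl_mul]; exact (i1 q p).re,
    fun q p => by simp only [rl_mul]; exact (integral_re (i1 q p)).trans (ho q p),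
    fun q p => by simp only [rl_mul]; exact (i2 q p).re⟩
  obtain ⟨B, hB⟩ := h.bd
  have bd : ∀ q x a, ‖χ q x a‖ ≤ 1 + B := fun q x a => by
    have e1 := (single_le_sum (fun q _ => (psd_mul_T (rl fun q => χ q x)).diag_nonneg q)
      (mem_univ q)).trans (hB x)
    have e2 : (star (χ q x) ⬝ᵥ χ q x).re = ∑ a, ‖χ q x a‖ ^ 2 := by
      simp [dotProduct, Complex.sq_norm, Complex.normSq_apply]
    rw [rl_mul, e2] at e1
    have := (single_le_sum (f := fun a => ‖χ q x a‖ ^ 2) (fun _ _ => sq_nonneg _)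
      (mem_univ a)).trans e1
    nlinarith [sq_nonneg (‖χ q x a‖ - 1)]
  have t0 : ∀ x, 0 ≤ ∑ i, (hW x).1.eigenvalues i ^ (1 + ν) := fun x =>
    sum_nonneg fun i _ => Real.rpow_nonneg ((hW x).eigenvalues_nonneg i) _
  have i3 := fun q p => int_form (fun a => (hχ q a).1) (fun a => (hχ p a).1) (bd q) (bd p) mW iW t0
    fun x => entry_le (hW x) (by linarith)
  refine h.core hk h0 h1 fun S hS => ?_
  have j3 : ∀ q p, Integrable fun x =>
      (of fun q p => (star (χ q x) ⬝ᵥ W x *ᵥ χ p x).re : Matrix n n ℝ) q p := fun q p => (i3 q p).re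
  have e3 := int_tr_eq j3 (C := (of fun q p => (∫ x, star (χ' q x) ⬝ᵥ χ' p x).re) +
    diagonal k * diagonal k) (fun q p => (integral_re (i3 q p)).trans (he q p)) (S * S)
  rw [int_tr_eq h.iT (C := of fun q p => (∫ x, star (χ' q x) ⬝ᵥ χ' p x).re)
    (fun q p => by simp only [rl_mul]; exact integral_re (i2 q p)), ← trace_add, ← Matrix.mul_add,
    ← e3]
  have i4 := h.ipow (s := 1 / ν) (by positivity) hS
  rw [← integral_const_mul, ← integral_const_mul, ← integral_div,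
    ← integral_add ((iW.const_mul _).div_const _) (i4.const_mul _)]
  exact integral_mono (int_tr j3 _) (((iW.const_mul _).div_const _).add (i4.const_mul _))
    fun x => young_cx (fun q => χ q x) (hW x) hS h0

end Vale.Agent.P371
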