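import Mathlib

namespace Vale.Agent.P371

open MeasureTheory
open scoped ComplexOrder InnerProductSpace ENNReal

/-- `ψ` is (the continuous representative of) an element of `H^1(ℝ; ℂ^m)` with weak derivative
`ψ'`. -/
structure IsH1 {m : ℕ} (ψ ψ' : ℝ → EuclideanSpace ℂ (Fin m)) : Prop where
  memL2 : MemLp ψ 2 volume
  deriv_memL2 : MemLp ψ' 2 volume
  ftc : ∀ a b : ℝ, ψ b - ψ a = ∫ x in a..b, ψ' x

/-- `tr (A ^ p)`, the power being taken by functional calculus. -/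
noncomputable def trPow {m : ℕ} (p : ℝ) (A : Matrix (Fin m) (Fin m) ℂ) : ℝ :=
  (cfc (fun t : ℝ => t ^ p) A).trace.re

/-- Potentials: measurable, positive semidefinite, `∫ tr W^p < ∞`. -/
structure IsPotential {m : ℕ} (p : ℝ) (W : ℝ → Matrix (Fin m) (Fin m) ℂ) : Prop where
  measurable : ∀ i j, Measurable fun x => W x i j
  posSemidef : ∀ x, (W x).PosSemidef
  integrable : Integrable (fun x => trPow p (W x)) volume

/-- `H_W ψ = lam ψ` for the operator `H_W` of the form `∫ ‖ψ'‖² - ∫ ⟪ψ, W ψ⟫` on `H^1`. -/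
def IsEigen {m : ℕ} (W : ℝ → Matrix (Fin m) (Fin m) ℂ) (lam : ℝ)
    (ψ : ℝ → EuclideanSpace ℂ (Fin m)) : Prop :=
  ∃ ψ', IsH1 ψ ψ' ∧ ∀ φ φ', IsH1 φ φ' →
    (∫ x, ⟪φ' x, ψ' x⟫_ℂ) - (∫ x, ⟪φ x, Matrix.toEuclideanLin (W x) (ψ x)⟫_ℂ) =
      lam * ∫ x, ⟪φ x, ψ x⟫_ℂ

/-- `Tr (H_W)_-^γ`: supremum of `∑ |λ_j|^γ` over finite `L^2`-orthonormal families of
eigenfunctions with negative eigenvalues. -/
noncomputable def rieszMean {m : ℕ} (γ : ℝ) (W : ℝ → Matrix (Fin m) (Fin m) ℂ) : ℝ≥0∞ :=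
  ⨆ (N : ℕ) (lam : Fin N → ℝ) (ψ : Fin N → ℝ → EuclideanSpace ℂ (Fin m))
    (_ : ∀ j, lam j < 0 ∧ IsEigen W (lam j) (ψ j))
    (_ : ∀ i j, ∫ x, ⟪ψ i x, ψ j x⟫_ℂ = if i = j then 1 else 0),
    ENNReal.ofReal (∑ j, |lam j| ^ γ)

/-- The Lieb-Thirring constant `L_γ(m)`. -/
noncomputable def LT (γ : ℝ) (m : ℕ) : ℝ≥0∞ :=
  ⨆ (W : ℝ → Matrix (Fin m) (Fin m) ℂ) (_ : IsPotential (γ + 1 / 2) W) (_ : ¬ W =ᵐ[volume] 0),
    rieszMean γ W / ENNReal.ofReal (∫ x, trPow (γ + 1 / 2) (W x))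

/-- The semiclassical constant. -/
noncomputable def Lcl (γ : ℝ) : ℝ :=
  Real.Gamma (γ + 1) / (2 * √Real.pi * Real.Gamma (γ + 3 / 2))

/-- The one-bound-state constant. -/
noncomputable def Lone (γ : ℝ) : ℝ := 2 * ((γ - 1 / 2) / (γ + 1 / 2)) ^ (γ - 1 / 2) * Lcl γ

end Vale.Agent.P371
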