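import Vale.Agent.P371.ODE

namespace Vale.Agent.P371

open Matrix Finset Filter Topology MeasureTheory
open scoped Matrix.Norms.Frobenius

variable {n : Type*} [Fintype n] [DecidableEq n]

structure Ric (M : ℝ) (K : Matrix n n ℝ) (W : ℝ → Matrix n n ℝ) (a b : ℝ)
    (Y : ℝ → Matrix n n ℝ) : Prop where
  hK : PSD K
  hM : ‖K‖ ≤ M
  hW : ∀ x, PSD (W x)
  sol : IsSol M (fun x => W x - K * K) a b Y
  ini : Y a = -K

variable {M a b : ℝ} {K : Matrix n n ℝ} {W Y : ℝ → Matrix n n ℝ}

lemma Ric.M0 (h : Ric M K W a b Y) : 0 ≤ M := (norm_nonneg K).trans h.hM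

lemma Ric.symm (h : Ric M K W a b Y) : ∀ x ∈ Set.Icc a b, (Y x)ᵀ = Y x := by
  have key : ∀ i j, ∀ x ∈ Set.Icc a b, Y x i j - Y x j i ≤ 0 := by
    intro i j
    have c1 : ∀ i j, ContinuousOn (fun x => Y x i j) (Set.Icc a b) := fun i j =>
      (continuous_id.matrix_elem i j).comp_continuousOn h.sol.cont
    refine gron_zero (c := 0) ((c1 i j).sub (c1 j i)) (fun x hx => ?_) ?_
    · have d := hasDerivAt_mat.1 (h.sol.deriv hx)
      refine ⟨_, (d i j).sub (d j i), ?_⟩
      have : (vf M (W x - K * K) (Y x))ᵀ = vf M (W x - K * K) (Y x) := by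
        simp [vf, transpose_mul, (h.hW x).1, h.hK.1]
      have := congrFun (congrFun this i) j
      rw [transpose_apply] at this
      rw [this]; simp
    · have := congrFun (congrFun h.hK.1 i) j
      rw [transpose_apply] at this
      simp [h.ini, this]
  intro x hx
  ext i j
  rw [transpose_apply]
  linarith [key i j x hx, key j i x hx]

lemma Ric.deriv (h : Ric M K W a b Y) {x : ℝ} (hx : x ∈ Set.Ioo a b) :
    HasDerivAt Y (th M (Y x) • (W x - (K * K - Y x * Y x))) x := by
  have := h.sol.deriv hx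
  rwa [vf, h.symm x (Set.Ioo_subset_Icc_self hx), sub_add] at this

lemma Ric.bnd (h : Ric M K W a b Y) (Z : Matrix n n ℝ) (s r : ℝ) (hs : |s| ≤ 1) (hr : |r| ≤ 1) :
    ‖th M Z • (s • K + r • Z)‖ ≤ 2 * M + 1 := by
  rw [norm_smul, Real.norm_of_nonneg (th_nonneg _ _)]
  have e1 := norm_add_le (s • K) (r • Z)
  rw [norm_smul, norm_smul, Real.norm_eq_abs, Real.norm_eq_abs] at e1
  have e2 := mul_le_mul_of_nonneg_right hs (norm_nonneg K)
  have e3 := mul_le_mul_of_nonneg_right hr (norm_nonneg Z)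
  have e4 := th_mul_le h.M0 Z
  have e5 := mul_le_mul (th_le M Z) h.hM (norm_nonneg K) zero_le_one
  nlinarith [mul_le_mul_of_nonneg_left (e1.trans (add_le_add e2 e3)) (th_nonneg M Z)]

lemma Ric.lower (h : Ric M K W a b Y) : ∀ x ∈ Set.Icc a b, PSD (K + Y x) := by
  refine psd_forward (c := 2 * M + 1) (continuousOn_const.add h.sol.cont)
    (fun x hx => by rw [transpose_add, h.hK.1, h.symm x hx]) (fun x hx => ?_)
    (by rw [h.ini, add_neg_cancel]; exact ⟨by simp, by simp⟩)
  refine ⟨_, _, (h.hW x).smul (th_nonneg M (Y x)), h.bnd (Y x) (-1 / 2) (1 / 2)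
    (by rw [abs_le]; constructor <;> norm_num) (by rw [abs_le]; constructor <;> norm_num), ?_⟩
  refine (HasDerivAt.madd (hasDerivAt_mconst K x) (h.deriv hx)).congr_deriv ?_
  simp only [transpose_smul, transpose_add, h.hK.1, h.symm x (Set.Ioo_subset_Icc_self hx),
    Matrix.smul_mul, Matrix.mul_smul, Matrix.add_mul, Matrix.mul_add]
  module

lemma Ric.upper (h : Ric M K W a b Y) (hb : PSD (K - Y b)) : ∀ x ∈ Set.Icc a b, PSD (K - Y x) := by
  have hn : ∀ x ∈ Set.Icc (-b) (-a), -x ∈ Set.Icc a b := fun x hx =>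
    ⟨by linarith [hx.2], by linarith [hx.1]⟩
  have key := psd_forward (A := fun x => K - Y (-x)) (a := -b) (b := -a) (c := 2 * M + 1)
    (continuousOn_const.sub (h.sol.cont.comp continuous_neg.continuousOn hn))
    (fun x hx => by rw [transpose_sub, h.hK.1, h.symm _ (hn x hx)]) (fun x hx => by
      have hx' : -x ∈ Set.Ioo a b := ⟨by linarith [hx.2], by linarith [hx.1]⟩
      refine ⟨_, _, (h.hW (-x)).smul (th_nonneg M (Y (-x))), h.bnd (Y (-x)) (-1 / 2) (-1 / 2)
        (by rw [abs_le]; constructor <;> norm_num) (by rw [abs_le]; constructor <;> norm_num), ?_⟩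
      have d : HasDerivAt (fun x => Y (-x)) ((-1 : ℝ) • _) x :=
        HasDerivAt.scomp x (h.deriv hx') (hasDerivAt_neg x)
      refine (HasDerivAt.msub (hasDerivAt_mconst K x) d).congr_deriv ?_
      simp only [transpose_smul, transpose_add, h.hK.1, h.symm _ (Set.Ioo_subset_Icc_self hx'),
        Matrix.smul_mul, Matrix.mul_smul, Matrix.add_mul, Matrix.mul_add, Matrix.mul_sub,
        Matrix.sub_mul]
      module)
    (by simpa using hb)
  intro x hx
  simpa using key (-x) ⟨by linarith [hx.2], by linarith [hx.1]⟩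

lemma norm_le_of_between {Z : Matrix n n ℝ} (hK : Kᵀ = K) (hZ : Zᵀ = Z) (h1 : PSD (K + Z))
    (h2 : PSD (K - Z)) : ‖Z‖ ≤ ‖K‖ := by
  refine (abs_le_of_sq_le_sq' ?_ (norm_nonneg _)).2
  have := h1.trace_mul_nonneg h2
  rw [norm_sq_trace, norm_sq_trace, hK, hZ]
  simp only [Matrix.add_mul, Matrix.mul_sub, trace_add, trace_sub, trace_mul_comm Z K] at this
  linarith

lemma Ric.deriv_one (h : Ric M K W a b Y) (hb : PSD (K - Y b)) {x : ℝ} (hx : x ∈ Set.Ioo a b) :
    HasDerivAt Y (W x - (K * K - Y x * Y x)) x := by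
  have hx' := Set.Ioo_subset_Icc_self hx
  have := h.deriv hx
  rwa [th_eq_one ((norm_le_of_between h.hK.1 (h.symm x hx') (h.lower x hx')
    (h.upper hb x hx')).trans h.hM), one_smul] at this

lemma Ric.decouple (h : Ric M K W a b Y) (hab : a ≤ b) {Q : Matrix n n ℝ} {μ : ℝ} (hQ : PSD Q)
    (hμ : 0 ≤ μ) (hKQ : K * Q = μ • Q) (hWQ : ∀ x, W x * Q = 0) :
    2 * μ * Q.trace ≤ ((K - Y b) * Q).trace := by
  have hQK : Q * K = μ • Q := by
    simpa [transpose_mul, h.hK.1, hQ.1] using congrArg transpose hKQ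
  have key := gron_zero (φ := fun x => ((K + Y x) * Q).trace) (c := 2 * M + 1)
    (continuous_trace.comp_continuousOn ((continuousOn_const.add h.sol.cont).mul
      continuousOn_const)) (fun x hx => by
      refine ⟨_, hasDerivAt_trace (HasDerivAt.mmul (HasDerivAt.madd (hasDerivAt_mconst K x)
        (h.deriv hx)) (hasDerivAt_mconst Q x)), ?_⟩
      have hA := h.lower x (Set.Ioo_subset_Icc_self hx)
      have b1 := h.bnd (Y x) 1 1 (by simp) (by simp)
      rw [one_smul, one_smul, norm_smul, Real.norm_of_nonneg (th_nonneg _ _)] at b1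
      have e1 : K * K - Y x * Y x = (K + Y x) * K + K * (K + Y x) - (K + Y x) * (K + Y x) := by
        noncomm_ring
      rw [e1]
      generalize K + Y x = A at hA b1
      have e2 : PSD (‖A‖ • A - A * A) := by
        have := psd_mf (f := fun s => ‖A‖ * s - s * s) (X := A) fun i => by
          nlinarith [hA.ev_nonneg i, (abs_le.1 (abs_ev_le hA.1 i)).2]
        rwa [← mf_sub, ← mf_smul, ← mf_mul, mf_id hA.1] at this
      have e3 := e2.trace_mul_nonneg hQ
      have e4 := hA.trace_mul_nonneg hQ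
      have e5 : (K * A * Q).trace = μ * (A * Q).trace := by
        rw [trace_mul_cycle, hQK, Matrix.smul_mul, trace_smul, trace_mul_comm, smul_eq_mul]
      simp only [zero_add, Matrix.mul_zero, add_zero, Matrix.smul_mul, Matrix.sub_mul,
        Matrix.add_mul, hWQ, trace_smul, trace_sub, trace_add, trace_zero, e5, smul_eq_mul,
        Matrix.mul_assoc A K, hKQ, Matrix.mul_smul] at e3 ⊢
      have t0 := th_nonneg M (Y x)
      nlinarith [mul_le_mul_of_nonneg_right b1 e4, mul_nonneg t0 e3,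
        mul_nonneg t0 (mul_nonneg hμ e4)])
    (by simp [h.ini]) b ⟨hab, le_rfl⟩
  simp only [Matrix.add_mul, Matrix.sub_mul, trace_add, trace_sub, hKQ, trace_smul,
    smul_eq_mul] at key ⊢
  linarith

/-- `f` is a primitive of `f'` on `[a, b]`. -/
def Prim (f f' : ℝ → ℝ) (a b : ℝ) : Prop :=
  IntervalIntegrable f' volume a b ∧ ∀ x ∈ Set.Icc a b, f x = f a + ∫ t in a..x, f' t

lemma Prim.cont {f f' : ℝ → ℝ} (h : Prim f f' a b) (hab : a ≤ b) : ContinuousOn f (Set.Icc a b) := by
  have := intervalIntegral.continuousOn_primitive_interval' h.1 Set.left_mem_uIcc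
  rw [Set.uIcc_of_le hab] at this
  exact (continuousOn_const.add this).congr h.2

lemma Prim.mul {f f' g g' : ℝ → ℝ} (hf : Prim f f' a b) (hg : Prim g g' a b) (hab : a ≤ b) :
    Prim (fun x => f x * g x) (fun x => f' x * g x + f x * g' x) a b := by
  have cf := hf.cont hab
  have cg := hg.cont hab
  rw [← Set.uIcc_of_le hab] at cf cg
  refine ⟨(hf.1.mul_continuousOn cg).add (hg.1.continuousOn_mul cf), fun x hx => ?_⟩
  have hsub : Set.uIcc a x ⊆ Set.uIcc a b := Set.uIcc_subset_uIcc_left (Set.mem_uIcc_of_le hx.1 hx.2)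
  have i1 := hf.1.mono_set hsub
  have i2 := hg.1.mono_set hsub
  have ac : ∀ c : ℝ, AbsolutelyContinuousOnInterval (fun _ => c) a x := fun c =>
    contDiffOn_const.absolutelyContinuousOnInterval
  have := ((ac (f a)).fun_add (i1.absolutelyContinuousOnInterval_intervalIntegral
    Set.left_mem_uIcc)).integral_deriv_mul_eq_sub ((ac (g a)).fun_add
      (i2.absolutelyContinuousOnInterval_intervalIntegral Set.left_mem_uIcc))
  rw [← hf.2 x hx, ← hg.2 x hx, intervalIntegral.integral_same, intervalIntegral.integral_same,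
    add_zero, add_zero] at this
  rw [← sub_eq_iff_eq_add', ← this]
  refine intervalIntegral.integral_congr_ae ?_
  filter_upwards [i1.ae_hasDerivAt_integral, i2.ae_hasDerivAt_integral] with t h1 h2 ht
  have ht' := Set.uIoc_subset_uIcc ht
  have ht2 : t ∈ Set.Icc a b := Set.uIcc_of_le hab ▸ hsub ht'
  rw [((h1 ht' a Set.left_mem_uIcc).const_add (f a)).deriv,
    ((h2 ht' a Set.left_mem_uIcc).const_add (g a)).deriv, ← hf.2 t ht2, ← hg.2 t ht2]

lemma Prim.sum {ι : Type*} [Fintype ι] {f f' : ι → ℝ → ℝ} (h : ∀ i, Prim (f i) (f' i) a b) :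
    Prim (fun x => ∑ i, f i x) (fun x => ∑ i, f' i x) a b := by
  refine ⟨(IntervalIntegrable.sum univ fun i _ => (h i).1).congr fun u _ => by simp,
    fun x hx => ?_⟩
  rw [intervalIntegral.integral_finsetSum fun i _ => (h i).1.mono_set
    (Set.uIcc_subset_uIcc_left (Set.mem_uIcc_of_le hx.1 hx.2)), ← sum_add_distrib]
  exact sum_congr rfl fun i _ => (h i).2 x hx

lemma Prim.of_deriv {f f' : ℝ → ℝ} (hab : a ≤ b) (hc : ContinuousOn f (Set.Icc a b))
    (hc' : ContinuousOn f' (Set.Icc a b)) (hd : ∀ x ∈ Set.Ioo a b, HasDerivAt f (f' x) x) :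
    Prim f f' a b := by
  refine ⟨hc'.intervalIntegrable_of_Icc hab, fun x hx => ?_⟩
  have hs : Set.Icc a x ⊆ Set.Icc a b := Set.Icc_subset_Icc_right hx.2
  rw [intervalIntegral.integral_eq_sub_of_hasDerivAt_of_le hx.1 (hc.mono hs)
    (fun y hy => hd y ⟨hy.1, hy.2.trans_le hx.2⟩) ((hc'.mono hs).intervalIntegrable_of_Icc hx.1)]
  ring

lemma form_ineq {d : Type*} [Fintype d] [DecidableEq d] {U U' : ℝ → Matrix n d ℝ} (hab : a ≤ b)
    (hU : ∀ i α, Prim (fun x => U x i α) (fun x => U' x i α) a b)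
    (h2 : IntervalIntegrable (fun x => (U' x * (U' x)ᵀ).trace) volume a b)
    (hY : ContinuousOn Y (Set.Icc a b)) (hW : ContinuousOn W (Set.Icc a b))
    (hs : ∀ x ∈ Set.Icc a b, (Y x)ᵀ = Y x)
    (hd : ∀ x ∈ Set.Ioo a b, HasDerivAt Y (W x - (K * K - Y x * Y x)) x) :
    ∫ x in a..b, (W x * (U x * (U x)ᵀ)).trace ≤ (∫ x in a..b, (U' x * (U' x)ᵀ).trace) +
      (∫ x in a..b, (K * K * (U x * (U x)ᵀ)).trace) + (Y b * (U b * (U b)ᵀ)).trace -
      (Y a * (U a * (U a)ᵀ)).trace := by
  have cU : ContinuousOn U (Set.Icc a b) :=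
    continuousOn_pi.2 fun i => continuousOn_pi.2 fun α => (hU i α).cont hab
  have cP : ContinuousOn (fun x => U x * (U x)ᵀ) (Set.Icc a b) :=
    (continuous_id.matrix_mul continuous_id.matrix_transpose).comp_continuousOn cU
  have cE : ContinuousOn (fun x => W x - (K * K - Y x * Y x)) (Set.Icc a b) :=
    hW.sub (continuousOn_const.sub (hY.mul hY))
  have pY : ∀ i j, Prim (fun x => Y x i j) (fun x => (W x - (K * K - Y x * Y x)) i j) a b :=
    fun i j => Prim.of_deriv hab ((continuous_id.matrix_elem i j).comp_continuousOn hY)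
      ((continuous_id.matrix_elem i j).comp_continuousOn cE)
      fun x hx => hasDerivAt_mat.1 (hd x hx) i j
  have p := Prim.sum fun i => Prim.sum fun j => (pY i j).mul
    (Prim.sum fun α => (hU j α).mul (hU i α) hab) hab
  have p2 := p.2 b ⟨hab, le_rfl⟩
  have e0 : ∀ x, ∑ i, ∑ j, Y x i j * ∑ α, U x j α * U x i α = (Y x * (U x * (U x)ᵀ)).trace :=
    fun x => by simp only [trace, diag_apply, Matrix.mul_apply, transpose_apply]
  have i1 := (continuous_trace.comp_continuousOn (hW.mul cP)).intervalIntegrable_of_Icc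
    (μ := volume) hab
  have i2 := (continuous_trace.comp_continuousOn ((continuousOn_const (c := K * K)).mul
    cP)).intervalIntegrable_of_Icc (μ := volume) hab
  have m := intervalIntegral.integral_mono_on hab i1 ((h2.add i2).add p.1) fun x hx => by
    have e1 : ∑ i, ∑ j, ((W x - (K * K - Y x * Y x)) i j * ∑ α, U x j α * U x i α +
        Y x i j * ∑ α, (U' x j α * U x i α + U x j α * U' x i α)) =
        ((W x - (K * K - Y x * Y x)) * (U x * (U x)ᵀ)).trace +
        (Y x * (U' x * (U x)ᵀ + U x * (U' x)ᵀ)).trace := by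
      simp only [trace, diag_apply, Matrix.mul_apply (N := _ * _), Matrix.mul_apply (N := _ + _),
        Matrix.mul_apply (N := _ᵀ), transpose_apply, Matrix.add_apply, sum_add_distrib]
    have e2 := (psd_mul_T (U' x + Y x * U x)).trace_nonneg
    have e3 : (Y x * U x * ((U x)ᵀ * Y x)).trace = (Y x * Y x * (U x * (U x)ᵀ)).trace := by
      rw [← Matrix.mul_assoc, trace_mul_comm]; simp only [Matrix.mul_assoc]
    have e4 : (U' x * ((U x)ᵀ * Y x)).trace = (Y x * (U' x * (U x)ᵀ)).trace := by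
      rw [← Matrix.mul_assoc, trace_mul_comm]
    simp only [transpose_add, transpose_mul, hs x hx, Matrix.add_mul, Matrix.mul_add, trace_add, e3,
      e4, Matrix.mul_assoc (Y x) (U x) (U' x)ᵀ] at e2
    simp only [Function.comp_apply, Pi.mul_apply, e1, Matrix.sub_mul, Matrix.mul_add, trace_sub,
      trace_add]
    linarith
  rw [intervalIntegral.integral_add (h2.add i2) p.1, intervalIntegral.integral_add h2 i2] at m
  simp only [e0] at p2
  simp only [Function.comp_apply, Pi.mul_apply] at m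
  linarith

end Vale.Agent.P371
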