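import Vale.Agent.P371.KT
import Vale.Agent.P371.Ric
import Vale.Agent.P371.Brouwer

namespace Vale.Agent.P371

open Matrix Finset Filter Topology
open scoped Matrix.Norms.Frobenius

variable {n : Type*} [Fintype n] [DecidableEq n]

lemma psd_pow {P : Matrix n n ℝ} (h : PSD P) (s : ℝ) : PSD (mf (fun x => x ^ s) P) :=
  psd_mf fun i => Real.rpow_nonneg (h.ev_nonneg i) s

lemma psd_sand {G : Matrix n n ℝ} (h : PSD G) (f : ℝ → ℝ) (X : Matrix n n ℝ) :
    PSD (mf f X * G * mf f X) := by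
  have := h.conj (mf f X)
  rwa [mf_symm] at this

lemma ric_family {P : Type*} [TopologicalSpace P] {K : P → Matrix n n ℝ}
    {W : P → ℝ → Matrix n n ℝ} {M a b : ℝ} (hM : 0 ≤ M) (hab : a ≤ b) (cK : Continuous K)
    (cW : Continuous fun q : P × ℝ => W q.1 q.2) (hK : ∀ p, PSD (K p)) (hn : ∀ p, ‖K p‖ ≤ M)
    (hW : ∀ p x, PSD (W p x)) :
    ∃ Y : P → ℝ → Matrix n n ℝ, (∀ p, Ric M (K p) (W p) a b (Y p)) ∧
      Continuous fun p => Y p b := by
  have cC : Continuous fun q : P × ℝ => W q.1 q.2 - K q.1 * K q.1 :=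
    cW.sub ((cK.comp continuous_fst).mul (cK.comp continuous_fst))
  choose Y hY0 hY using fun p => exists_sol (C := fun x => W p x - K p * K p) hM
    (cC.comp (Continuous.prodMk_right p)) hab (-K p)
  exact ⟨Y, fun p => ⟨hK p, hn p, hW p, hY p, hY0 p⟩,
    sol_cont (C := fun p x => W p x - K p * K p) hM hab cC (by simp only [hY0]; exact cK.neg) hY⟩

lemma ric_pos {G Y : ℝ → Matrix n n ℝ} (pG : ∀ x, PSD (G x)) {k : n → ℝ} {X : Matrix n n ℝ}
    {M kb ε a b s lam : ℝ} (hb : 0 < kb) (hab : a ≤ b) (hs : 0 < s) (hl : 0 ≤ lam)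
    (hR : Ric M (Kt k kb ε X)
      (fun x => mf (fun w => w ^ s) (mf (fun x => max x 0) X * G x * mf (fun x => max x 0) X)) a b Y)
    (hF : Kt k kb ε X - Y b = mf (fun x => lam * x - (max x 0 - x)) X) (i : n) : 0 < ev X i := by
  have pQ : PSD (mf (fun x => if x ≤ 0 then 1 else 0) X) :=
    psd_mf fun i => by split_ifs <;> norm_num
  have h0 : mf (fun x => max x 0) X * mf (fun x => if x ≤ 0 then 1 else 0) X = 0 := by
    rw [mf_mul, mf_congr (g := fun _ => 0), mf_const, zero_smul]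
    intro i; split_ifs with h <;> simp [h]
  have := hR.decouple hab pQ hb.le (Kt_mul k kb ε X) fun x => by
    have := mf_intertwine (psd_sand (pG x) (fun x => max x 0) X).1
      (Z := mf (fun x => if x ≤ 0 then 1 else 0) X)
      (d := fun _ => 0) (by rw [Matrix.mul_assoc, h0]; simp) fun w => w ^ s
    simpa [Real.zero_rpow hs.ne'] using this
  rw [hF, mf_mul, trace_mf, trace_mf] at this
  have h2 : ∑ i, (lam * ev X i - (max (ev X i) 0 - ev X i)) * (if ev X i ≤ 0 then 1 else 0) ≤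
      0 := sum_nonpos fun i _ => by
    split_ifs with h
    · rw [max_eq_right h]; nlinarith
    · simp
  by_contra hc
  have h3 := single_le_sum (f := fun i => if ev X i ≤ 0 then (1 : ℝ) else 0)
    (fun i _ => by split_ifs <;> norm_num) (mem_univ i)
  simp only [not_lt.1 hc, if_true] at h3
  nlinarith

noncomputable def sy (X : Matrix n n ℝ) : Matrix n n ℝ := (1 / 2 : ℝ) • (X + Xᵀ)

omit [Fintype n] [DecidableEq n] in
lemma sy_symm (X : Matrix n n ℝ) : (sy X)ᵀ = sy X := by simp [sy, add_comm]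

omit [Fintype n] [DecidableEq n] in
lemma sy_cont : Continuous (sy (n := n)) :=
  (continuous_id.add continuous_id.matrix_transpose).const_smul (1 / 2 : ℝ)

omit [DecidableEq n] in
lemma fix_symm {X B : Matrix n n ℝ} {lam : ℝ} (hl : 0 ≤ lam) (hB : Bᵀ = B)
    (h : B - (X - sy X) = lam • X) : Xᵀ = X := by
  have h1 := congrArg transpose h
  rw [transpose_sub, transpose_sub, transpose_smul, hB, sy_symm] at h1
  have h2 : (1 + lam) • (Xᵀ - X) = 0 := by
    rw [add_smul, smul_sub lam, ← h1, ← h, one_smul]; abel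
  exact sub_eq_zero.1 ((smul_eq_zero.1 h2).resolve_left (by linarith))

theorem exists_ric {G : ℝ → Matrix n n ℝ} (cG : Continuous G) (pG : ∀ x, PSD (G x)) {k : n → ℝ}
    {kb ε a b ρ s : ℝ} (hk : ∀ i, 0 ≤ k i) (hb : 0 < kb) (hkb : ∀ i, k i ≤ kb) (hε : 0 < ε)
    (hab : a ≤ b) (hρ : 0 < ρ) (hs : 0 < s) :
    ∃ S Y, Sᵀ = S ∧ (∀ i, 0 < ev S i) ∧ ‖S‖ ≤ ρ ∧ Ric (kb * Fintype.card n) (Kt k kb ε S)
      (fun x => mf (fun w => w ^ s) (S * G x * S)) a b Y ∧ PSD (Kt k kb ε S - Y b) ∧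
      (Y b = Kt k kb ε S ∨ ‖S‖ = ρ) := by
  have cA : Continuous fun X : Matrix n n ℝ => mf (fun x => max x 0) (sy X) :=
    mf_continuous sy_symm sy_cont (by fun_prop)
  have cK : Continuous fun X : Matrix n n ℝ => Kt k kb ε (sy X) := Kt_cont sy_symm sy_cont hε
  have cP : Continuous fun q : Matrix n n ℝ × ℝ =>
      mf (fun x => max x 0) (sy q.1) * G q.2 * mf (fun x => max x 0) (sy q.1) :=
    ((cA.comp continuous_fst).mul (cG.comp continuous_snd)).mul (cA.comp continuous_fst)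
  have cW := mf_continuous (fun q => (psd_sand (pG q.2) _ _).1) cP
    (Real.continuous_rpow_const hs.le)
  obtain ⟨Y, hR, cY⟩ := ric_family (W := fun X x => mf (fun w => w ^ s)
      (mf (fun x => max x 0) (sy X) * G x * mf (fun x => max x 0) (sy X)))
    (M := kb * Fintype.card n) (by positivity) hab cK cW
    (fun X => Kt_psd hk hb.le hε) (fun X => Kt_norm hk hb.le hkb hε)
    fun X x => psd_pow (psd_sand (pG x) _ _) s
  obtain ⟨X, lam, hl, hX, hn, hc⟩ := leray
    (fun X => Kt k kb ε (sy X) - Y X b + (mf (fun x => max x 0) (sy X) - sy X) - (X - sy X))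
    (((cK.sub cY).add (cA.sub sy_cont)).sub (continuous_id.sub sy_cont)) hρ
  have sX : Xᵀ = X := fix_symm hl (by
    rw [transpose_add, transpose_sub, transpose_sub, (hR X).hK.1, (hR X).symm b ⟨hab, le_rfl⟩,
      mf_symm, sy_symm]) hX
  have e1 : sy X = X := by rw [sy, sX]; module
  have hR' := hR X
  rw [e1] at hR' hX
  have hF : Kt k kb ε X - Y X b = mf (fun x => lam * x - (max x 0 - x)) X := by
    rw [← mf_sub, ← mf_sub, ← mf_smul, mf_id sX, ← hX]; abel
  have hpos := ric_pos pG hb hab hs hl hR' hF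
  have e2 : mf (fun x => max x 0) X = X := by
    rw [mf_congr (g := fun x => x) fun i => max_eq_left (hpos i).le, mf_id sX]
  have e3 : Kt k kb ε X - Y X b = lam • X := by
    rw [← hX, e2]; abel
  rw [e2] at hR'
  refine ⟨X, Y X, sX, hpos, hn, hR', e3 ▸ (psd_of_ev sX fun i => (hpos i).le).smul hl, ?_⟩
  refine hc.imp_left fun h => ?_
  rw [h, zero_smul, sub_eq_zero] at e3
  exact e3.symm

end Vale.Agent.P371
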