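import Vale.Agent.P371.PS

namespace Vale.Agent.P371

open Matrix Finset Filter Topology
open scoped Matrix.Norms.Frobenius

variable {n : Type*} [Fintype n] [DecidableEq n]

lemma trace_pow_comm (X Y : Matrix n n ℝ) (k : ℕ) :
    ((X * Y) ^ k).trace = ((Y * X) ^ k).trace := by
  cases k with
  | zero => simp
  | succ k =>
    have : ∀ k : ℕ, (X * Y) ^ (k + 1) = X * (Y * X) ^ k * Y := by
      intro k
      induction k with
      | zero => simp
      | succ k ih => rw [pow_succ, ih, pow_succ]; simp only [Matrix.mul_assoc]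
    rw [this, trace_mul_cycle, ← pow_succ']

lemma dyson (k : ℕ) :
    (∀ X : Matrix n n ℝ, |(X ^ (2 * 2 ^ k)).trace| ≤ ((Xᵀ * X) ^ (2 ^ k)).trace) ∧
    ∀ A B : Matrix n n ℝ, Aᵀ = A → Bᵀ = B →
      ((A * B) ^ (2 ^ k)).trace ≤ (A ^ (2 ^ k) * B ^ (2 ^ k)).trace := by
  induction k with
  | zero =>
    refine ⟨fun X => ?_, fun A B _ _ => by simp⟩
    have := abs_trace_mul_le X X
    rw [← sq ‖X‖, norm_sq_trace, trace_mul_comm X Xᵀ] at this
    simpa [sq] using this
  | succ k ih =>
    obtain ⟨h1, h2⟩ := ih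
    refine ⟨fun X => ?_, fun A B hA hB => ?_⟩
    · have e1 := h1 (X * X)
      rw [← sq, ← pow_mul] at e1
      have e2 : (((X ^ 2)ᵀ * X ^ 2) ^ 2 ^ k).trace = (((X * Xᵀ) * (Xᵀ * X)) ^ 2 ^ k).trace := by
        rw [sq, transpose_mul, ← Matrix.mul_assoc, trace_pow_comm]
        simp only [Matrix.mul_assoc]
      have e3 := h2 (X * Xᵀ) (Xᵀ * X) (by simp [transpose_mul]) (by simp [transpose_mul])
      have e4 := trace_mul_sq_le ((X * Xᵀ) ^ 2 ^ k) ((Xᵀ * X) ^ 2 ^ k)
      have s1 : ((X * Xᵀ) ^ 2 ^ k)ᵀ = (X * Xᵀ) ^ 2 ^ k := by simp [transpose_pow, transpose_mul]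
      have s2 : ((Xᵀ * X) ^ 2 ^ k)ᵀ = (Xᵀ * X) ^ 2 ^ k := by simp [transpose_pow, transpose_mul]
      have e5 : 0 ≤ ((Xᵀ * X) ^ 2 ^ k * (Xᵀ * X) ^ 2 ^ k).trace := by
        have := (psd_mul_T ((Xᵀ * X) ^ 2 ^ k)).trace_nonneg
        rwa [s2] at this
      rw [s1, s2, ← pow_add, ← pow_add, trace_pow_comm X Xᵀ, ← sq] at e4
      rw [← pow_add] at e5
      have e6 := abs_le_of_sq_le_sq' e4 e5
      rw [show 2 * 2 ^ (k + 1) = 2 * (2 * 2 ^ k) by ring, show 2 ^ (k + 1) = 2 ^ k + 2 ^ k by ring]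
      linarith [e6.2]
    · have e1 := h1 (A * B)
      have e2 : (((A * B)ᵀ * (A * B)) ^ 2 ^ k).trace = (((A * A) * (B * B)) ^ 2 ^ k).trace := by
        rw [transpose_mul, hA, hB, Matrix.mul_assoc, trace_pow_comm]
        simp only [Matrix.mul_assoc]
      have e3 := h2 (A * A) (B * B) (by simp [transpose_mul, hA]) (by simp [transpose_mul, hB])
      rw [← sq, ← sq, ← pow_mul, ← pow_mul] at e3
      rw [show 2 ^ (k + 1) = 2 * 2 ^ k by ring]
      rw [← sq, ← sq] at e2
      linarith [le_abs_self ((A * B) ^ (2 * 2 ^ k)).trace]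

/-- Gibbs form of the Golden-Thompson inequality. -/
theorem gibbs_gt {a b ρ : Matrix n n ℝ} (ha : aᵀ = a) (hb : bᵀ = b) (hρ : ρᵀ = ρ)
    (pa : ∀ i, 0 < ev a i) (pb : ∀ i, 0 < ev b i) (pρ : ∀ i, 0 < ev ρ i) :
    ρ.trace + (ρ * (mf Real.log a + mf Real.log b - mf Real.log ρ)).trace ≤ (a * b).trace := by
  set g : ℝ → ℝ := fun s => (mf (fun x => Real.exp ((1 - s) * Real.log x)) ρ *
    (mf (fun x => Real.exp (s / 2 * Real.log x)) a * mf (fun x => Real.exp (s * Real.log x)) b *
      mf (fun x => Real.exp (s / 2 * Real.log x)) a)).trace with hg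
  have hel : ∀ X : Matrix n n ℝ, Xᵀ = X → (∀ i, 0 < ev X i) →
      mf (fun x => Real.exp (Real.log x)) X = X := fun X hX pX => by
    rw [mf_congr (g := fun x => x) fun i => Real.exp_log (pX i), mf_id hX]
  have d1 : HasDerivAt (fun s => mf (fun x => Real.exp ((1 - s) * Real.log x)) ρ)
      (-(ρ * mf Real.log ρ)) 0 := by
    have := hasDerivAt_mf_param (f := fun s x => Real.exp ((1 - s) * Real.log x))
      (f' := fun x => -1 * (x * Real.log x)) (X := ρ) (t := 0) fun i => by
        have := (((hasDerivAt_id (0 : ℝ)).const_sub 1).mul_const (Real.log (ev ρ i))).exp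
        simp only [id, sub_zero, one_mul, Real.exp_log (pρ i)] at this
        exact this.congr_deriv (by ring)
    rwa [← mf_smul, ← mf_mul, mf_id hρ, neg_one_smul] at this
  have d2 : ∀ (c : ℝ) (X : Matrix n n ℝ), HasDerivAt
      (fun s => mf (fun x => Real.exp (s * c * Real.log x)) X) (c • mf Real.log X) 0 := by
    intro c X
    have := hasDerivAt_mf_param (f := fun s x => Real.exp (s * c * Real.log x))
      (f' := fun x => c * Real.log x) (X := X) (t := 0) fun i => by
        have := (((hasDerivAt_id (0 : ℝ)).mul_const c).mul_const (Real.log (ev X i))).exp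
        simpa using this
    rwa [← mf_smul] at this
  have d3 := d2 (1 / 2) a
  have d4 := d2 1 b
  simp only [mul_one_div, mul_one] at d3 d4
  have d5 := hasDerivAt_trace (HasDerivAt.mmul d1 (HasDerivAt.mmul (HasDerivAt.mmul d3 d4) d3))
  simp only [sub_zero, one_mul, zero_div, zero_mul, Real.exp_zero, mf_one, Matrix.mul_one,
    Matrix.one_mul, hel ρ hρ pρ, one_smul] at d5
  have g0 : g 0 = ρ.trace := by
    simp only [hg, sub_zero, one_mul, zero_div, zero_mul, Real.exp_zero, mf_one, Matrix.mul_one,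
      hel ρ hρ pρ]
  have hb1 : ∀ k : ℕ, g (1 / 2 ^ k) ≤ (1 - 1 / 2 ^ k) * ρ.trace + 1 / 2 ^ k * (a * b).trace := by
    intro k
    set s : ℝ := 1 / 2 ^ k with hs
    have hs0 : 0 < s := by positivity
    have hs1 : s ≤ 1 := by rw [hs, div_le_one (by positivity)]; exact one_le_pow₀ one_le_two
    have hsk : s * (2 ^ k : ℕ) = 1 := by rw [hs]; push_cast; field_simp
    set A := mf (fun x => Real.exp (s / 2 * Real.log x)) a with hA
    set B := mf (fun x => Real.exp (s * Real.log x)) b with hB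
    have hZ : PSD (A * B * A) := by
      have := (psd_mf (f := fun x => Real.exp (s * Real.log x)) (X := b)
        fun _ => (Real.exp_pos _).le).conj A
      rwa [mf_symm] at this
    have e1 : g s ≤ (1 - s) * ρ.trace + s * ((A * B * A) ^ (2 ^ k)).trace := by
      have t1 := trace_mf_mul (fun x => Real.exp ((1 - s) * Real.log x)) (fun x => x) ρ (A * B * A)
      have t2 := trace_mf_ov (fun x => x) ρ (A * B * A)
      have t3 := trace_mf_ov' (fun x => x ^ 2 ^ k) ρ (A * B * A)
      rw [← mf_pow (fun x => x)] at t3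
      rw [mf_id hZ.1] at t1 t3
      rw [mf_id hρ] at t2
      change (_ * (A * B * A)).trace ≤ _
      rw [t1, t2, t3, mul_sum, mul_sum, ← sum_add_distrib]
      refine sum_le_sum fun i _ => ?_
      rw [mul_sum, mul_sum, ← sum_add_distrib]
      refine sum_le_sum fun j _ => ?_
      have := Real.geom_mean_le_arith_mean2_weighted (w₁ := 1 - s) (w₂ := s) (p₁ := ev ρ i)
        (p₂ := ev (A * B * A) j ^ 2 ^ k) (by linarith) hs0.le (pρ i).le
        (pow_nonneg (hZ.ev_nonneg j) _) (by ring)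
      rw [← Real.rpow_natCast, ← Real.rpow_mul (hZ.ev_nonneg j), mul_comm ((2 ^ k : ℕ) : ℝ), hsk,
        Real.rpow_one, Real.rpow_natCast, Real.rpow_def_of_pos (pρ i), mul_comm (Real.log _)]
        at this
      nlinarith [mul_le_mul_of_nonneg_left this (ov_nonneg ρ (A * B * A) i j)]
    have e2 : ((A * B * A) ^ (2 ^ k)).trace ≤ (a * b).trace := by
      rw [trace_pow_comm, ← Matrix.mul_assoc]
      refine ((dyson k).2 (A * A) B (by simp [hA, mf_symm, transpose_mul]) (mf_symm _ _)).trans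
        (le_of_eq ?_)
      rw [hA, hB, mf_mul, mf_pow, mf_pow]
      congr 2
      · rw [← hel a ha pa, mf_mf, hel a ha pa]
        conv_rhs => rw [← hel a ha pa]
        refine mf_congr fun i => ?_
        rw [← Real.exp_add, ← Real.exp_nat_mul, Real.log_exp]
        congr 1; linear_combination Real.log (ev a i) * hsk
      · conv_rhs => rw [← hel b hb pb]
        refine mf_congr fun i => ?_
        rw [← Real.exp_nat_mul]
        congr 1; linear_combination Real.log (ev b i) * hsk
    nlinarith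
  have hlim : Tendsto (fun k : ℕ => (1 / 2 ^ k : ℝ)) atTop (𝓝[≠] 0) := by
    refine tendsto_nhdsWithin_iff.2 ⟨?_, Eventually.of_forall fun k => by simp⟩
    simpa [one_div, inv_pow] using tendsto_pow_atTop_nhds_zero_of_lt_one
      (show (0 : ℝ) ≤ 2⁻¹ by norm_num) (by norm_num)
  have h2 := le_of_tendsto' ((hasDerivAt_iff_tendsto_slope.1 d5).comp hlim)
    (b := (a * b).trace - ρ.trace) fun k => by
      have := hb1 k
      change slope g 0 (1 / 2 ^ k) ≤ _
      rw [slope_def_field, g0, sub_zero, div_le_iff₀ (by positivity)]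
      linarith
  have h3 : (ρ * (mf Real.log a + mf Real.log b - mf Real.log ρ)).trace =
      (-(ρ * mf Real.log ρ) + ρ * ((1 / 2 : ℝ) • mf Real.log a + mf Real.log b +
        (1 / 2 : ℝ) • mf Real.log a)).trace := by
    simp only [Matrix.mul_add, Matrix.mul_sub, trace_add, trace_sub, trace_neg, Matrix.mul_smul,
      trace_smul, smul_eq_mul]
    ring
  rw [h3]
  linarith

end Vale.Agent.P371
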