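import Vale.Agent.P371.PS

namespace Vale.Agent.P371

open Matrix Finset Filter Topology
open scoped Matrix.Norms.Frobenius

variable {n : Type*} [Fintype n] [DecidableEq n]

lemma PSD.norm_le_trace {X : Matrix n n ℝ} (h : PSD X) : ‖X‖ ≤ X.trace := by
  refine (abs_le_of_sq_le_sq' ?_ h.trace_nonneg).2
  conv_lhs => rw [← mf_id h.1, norm_mf_sq]
  conv_rhs => rw [← mf_id h.1, trace_mf]
  exact sum_sq_le_sq_sum_of_nonneg fun i _ => h.ev_nonneg i

lemma trace_mul_le {X P : Matrix n n ℝ} (h : PSD P) : |(X * P).trace| ≤ ‖X‖ * P.trace :=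
  (abs_trace_mul_le X P).trans (mul_le_mul_of_nonneg_left h.norm_le_trace (norm_nonneg _))

lemma trace_conj_le {A P : Matrix n n ℝ} (h : PSD P) : (A * P * A).trace ≤ ‖A‖ ^ 2 * P.trace := by
  rw [trace_mul_cycle]
  refine (le_abs_self _).trans ((trace_mul_le h).trans
    (mul_le_mul_of_nonneg_right ?_ h.trace_nonneg))
  rw [sq]; exact frobenius_norm_mul A A

noncomputable def ch (ε : ℝ) (S : Matrix n n ℝ) : Matrix n n ℝ :=
  mf (fun x => max x 0 / (max x 0 + ε)) S

noncomputable def Kt (k : n → ℝ) (kb ε : ℝ) (S : Matrix n n ℝ) : Matrix n n ℝ :=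
  kb • (1 : Matrix n n ℝ) - ch ε S * diagonal (fun i => kb - k i) * ch ε S

variable {k : n → ℝ} {kb ε : ℝ} {S : Matrix n n ℝ}

lemma ch_symm (ε : ℝ) (S : Matrix n n ℝ) : (ch ε S)ᵀ = ch ε S := mf_symm _ _

lemma ch_le (hε : 0 < ε) (x : ℝ) : 0 ≤ max x 0 / (max x 0 + ε) ∧ max x 0 / (max x 0 + ε) ≤ 1 :=
  ⟨by positivity, (div_le_one (by positivity)).2 (by linarith)⟩

lemma psd_one_sub (hε : 0 < ε) (S : Matrix n n ℝ) : PSD (1 - ch ε S * ch ε S) := by
  rw [ch, mf_mul, ← mf_one S, mf_sub]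
  exact psd_mf fun i => by nlinarith [ch_le hε (ev S i)]

omit [Fintype n] in
lemma diag_sub (k : n → ℝ) (kb : ℝ) :
    diagonal (fun i => kb - k i) = kb • (1 : Matrix n n ℝ) - diagonal k := by
  rw [smul_one_eq_diagonal, diagonal_sub]

lemma Kt_psd (hk : ∀ i, 0 ≤ k i) (hb : 0 ≤ kb) (hε : 0 < ε) : PSD (Kt k kb ε S) := by
  have := ((psd_one_sub hε S).smul hb).add ((psd_diagonal hk).conj (ch ε S))
  rw [ch_symm] at this
  rwa [show Kt k kb ε S = kb • (1 - ch ε S * ch ε S) + ch ε S * diagonal k * ch ε S by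
    simp only [Kt, diag_sub, Matrix.mul_sub, Matrix.sub_mul, Matrix.mul_smul, Matrix.smul_mul,
      Matrix.mul_one, smul_sub]
    abel]

lemma Kt_norm (hk : ∀ i, 0 ≤ k i) (hb : 0 ≤ kb) (hkb : ∀ i, k i ≤ kb) (hε : 0 < ε) :
    ‖Kt k kb ε S‖ ≤ kb * Fintype.card n := by
  refine (Kt_psd hk hb hε).norm_le_trace.trans ?_
  have := ((psd_diagonal fun i => sub_nonneg.2 (hkb i)).conj (ch ε S)).trace_nonneg
  rw [ch_symm] at this
  rw [Kt, trace_sub, trace_smul, trace_one, smul_eq_mul]
  linarith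

lemma Kt_mul (k : n → ℝ) (kb ε : ℝ) (S : Matrix n n ℝ) :
    Kt k kb ε S * mf (fun x => if x ≤ 0 then 1 else 0) S =
      kb • mf (fun x => if x ≤ 0 then 1 else 0) S := by
  have : ch ε S * mf (fun x => if x ≤ 0 then 1 else 0) S = 0 := by
    rw [ch, mf_mul, mf_congr (g := fun _ => 0), mf_const, zero_smul]
    intro i; split_ifs with h <;> simp [h]
  rw [Kt, Matrix.sub_mul, Matrix.mul_assoc, this, Matrix.mul_zero, sub_zero, Matrix.smul_mul,
    Matrix.one_mul]

lemma Kt_energy (hε : 0 < ε) :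
    (mf (fun x => max x 0) S * (Kt k kb ε S * Kt k kb ε S) * mf (fun x => max x 0) S).trace ≤
      (mf (fun x => max x 0) S * mf (fun x => max x 0) S * (diagonal k * diagonal k)).trace +
      2 * ε * kb ^ 2 * (mf (fun x => max x 0) S).trace := by
  have e1 := ((psd_one_sub hε S).conj (mf (fun x => max x 0) S * ch ε S *
    diagonal (fun i => kb - k i))).trace_nonneg
  have e2 : mf (fun x => max x 0) S * mf (fun x => max x 0) S - ch ε S * mf (fun x => max x 0) S *
      (mf (fun x => max x 0) S * ch ε S) =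
      mf (fun x => max x 0 ^ 2 * (1 - (max x 0 / (max x 0 + ε)) ^ 2)) S := by
    simp only [ch, mf_mul, mf_sub]
    exact mf_congr fun i => by ring
  have e3 := (psd_mf (f := fun x => max x 0 ^ 2 * (1 - (max x 0 / (max x 0 + ε)) ^ 2)) (X := S)
    fun i => mul_nonneg (sq_nonneg _) (by nlinarith [ch_le hε (ev S i)])).trace_mul_nonneg
    (psd_mul_T (diagonal k))
  have e4 : (mf (fun x => max x 0 ^ 2 * (1 - (max x 0 / (max x 0 + ε)) ^ 2)) S).trace ≤
      2 * ε * (mf (fun x => max x 0) S).trace := by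
    rw [trace_mf, trace_mf, mul_sum]
    refine sum_le_sum fun i _ => ?_
    have h0 : 0 ≤ max (ev S i) 0 := le_max_right _ _
    generalize max (ev S i) 0 = a at h0
    rw [show a ^ 2 * (1 - (a / (a + ε)) ^ 2) = a ^ 2 * (ε * (2 * a + ε)) / (a + ε) ^ 2 by
      field_simp; ring, div_le_iff₀ (by positivity)]
    nlinarith [mul_nonneg h0 (mul_nonneg hε.le (mul_nonneg h0 hε.le)),
      mul_nonneg h0 (mul_nonneg hε.le (mul_nonneg hε.le hε.le))]
  rw [← e2] at e3 e4
  simp only [transpose_mul, mf_symm, ch_symm, diagonal_transpose] at e1 e3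
  have e5 := mul_le_mul_of_nonneg_left e4 (sq_nonneg kb)
  rw [Kt]
  generalize mf (fun x => max x 0) S = A at *
  generalize ch ε S = c at *
  have e6 : A * ((kb • 1 - c * diagonal (fun i => kb - k i) * c) *
      (kb • 1 - c * diagonal (fun i => kb - k i) * c)) * A =
      kb ^ 2 • (A * A - A * c * (c * A)) + A * c * (diagonal k * diagonal k) * (c * A) -
      A * c * diagonal (fun i => kb - k i) * (1 - c * c) *
        (diagonal (fun i => kb - k i) * (c * A)) := by
    simp only [diag_sub, Matrix.mul_sub, Matrix.sub_mul, Matrix.mul_smul, Matrix.smul_mul,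
      Matrix.mul_one, Matrix.one_mul, Matrix.mul_assoc]
    module
  rw [e6]
  simp only [trace_sub, trace_add, trace_smul, smul_eq_mul, Matrix.sub_mul] at e3 e5 ⊢
  rw [trace_mul_comm (c * A)] at e5
  rw [trace_mul_cycle (A * c)]
  linarith

lemma Kt_dom (hk : ∀ i, 0 ≤ k i) (hkb : ∀ i, k i ≤ kb) (hε : 0 < ε) {q : ℝ}
    (hq : 1 ≤ q) : ∑ i, k i ^ q ≤ (mf (fun x => x ^ q) (Kt k kb ε S)).trace := by
  set Z := ch ε S * diagonal fun i => √(kb - k i) with hZ
  have hd : diagonal (fun i => √(kb - k i)) * diagonal (fun i => √(kb - k i)) =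
      diagonal (fun i => kb - k i) := by
    rw [diagonal_mul_diagonal]; congr 1; ext i; exact Real.mul_self_sqrt (sub_nonneg.2 (hkb i))
  have e1 : Kt k kb ε S = mf (fun x => kb - x) (Z * Zᵀ) := by
    rw [← mf_sub, mf_const, mf_id (psd_mul_T Z).1, hZ, transpose_mul, ch_symm, diagonal_transpose,
      Kt, ← hd]
    simp only [Matrix.mul_assoc]
  have p2 : PSD (Zᵀ * Z) := by simpa using psd_mul_T Zᵀ
  have p1 : PSD (diagonal (fun i => kb - k i) - Zᵀ * Z) := by
    have := (psd_one_sub hε S).conj (diagonal fun i => √(kb - k i))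
    rw [Matrix.mul_sub, Matrix.sub_mul, Matrix.mul_one, diagonal_transpose, hd] at this
    simpa only [hZ, transpose_mul, ch_symm, diagonal_transpose, Matrix.mul_assoc] using this
  have p3 : ∀ j, 0 ≤ kb - ev (Zᵀ * Z) j := fun j => by
    have := ((psd_diagonal hk).add p1).conj_diag (eU (Zᵀ * Z)) j
    rw [diag_sub, add_sub, add_sub_cancel, Matrix.mul_sub, Matrix.sub_mul, conj_eU_id p2.1,
      Matrix.mul_smul, Matrix.mul_one, Matrix.smul_mul, mul_eU] at this
    simpa using this
  rw [e1, mf_mf, trace_mf_swap']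
  refine le_trans (sum_le_sum fun i _ => ?_) (trace_mf_ge p2.1
    (fun i => k i ^ q + q * k i ^ (q - 1) * (kb - k i)) (fun i => -(q * k i ^ (q - 1)))
    fun i j => ?_)
  · have := p1.diag_nonneg i
    rw [Matrix.sub_apply, diagonal_apply_eq] at this
    have h0 : 0 ≤ q * k i ^ (q - 1) := mul_nonneg (by linarith) (Real.rpow_nonneg (hk i) _)
    nlinarith [mul_nonneg h0 this]
  · have h1 := p3 j
    have : k i ^ q + q * k i ^ (q - 1) * ((kb - ev (Zᵀ * Z) j) - k i) ≤
        (kb - ev (Zᵀ * Z) j) ^ q := by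
      generalize kb - ev (Zᵀ * Z) j = y at h1
      rcases lt_trichotomy (k i) y with h | h | h
      · have := (convexOn_rpow hq).le_slope_of_hasDerivAt (hk i) h1 h
          (Real.hasDerivAt_rpow_const (Or.inr hq))
        rw [slope_def_field, le_div_iff₀ (sub_pos.2 h)] at this
        linarith
      · simp [h]
      · have := (convexOn_rpow hq).slope_le_of_hasDerivAt h1 (hk i) h
          (Real.hasDerivAt_rpow_const (Or.inr hq))
        rw [slope_def_field, div_le_iff₀ (sub_pos.2 h)] at this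
        linarith
    linarith

lemma Kt_cont {P : Type*} [TopologicalSpace P] {S : P → Matrix n n ℝ} (hs : ∀ p, (S p)ᵀ = S p)
    (hc : Continuous S) (hε : 0 < ε) : Continuous fun p => Kt k kb ε (S p) := by
  have : Continuous fun p => ch ε (S p) :=
    mf_continuous hs hc (Continuous.div (by fun_prop) (by fun_prop) fun x => by positivity)
  exact continuous_const.sub ((this.mul continuous_const).mul this)

end Vale.Agent.P371
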