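import Vale.Agent.P371.Upper

namespace Vale.Agent.P371

open Finset Filter Topology MeasureTheory
open scoped ComplexOrder InnerProductSpace

lemma int_deriv_zero {h h' : ℝ → ℝ} (hp : ∀ a b, a ≤ b → Prim h h' a b) (hi : Integrable h)
    (hi' : Integrable h') : ∫ x, h' x = 0 := by
  have t := intervalIntegral_tendsto_integral hi' tendsto_neg_atTop_atBot (b := fun x => x)
    tendsto_id
  refine abs_nonpos_iff.1 (le_of_forall_pos_le_add fun η hη => ?_)
  rw [zero_add]
  refine (isClosed_le continuous_abs continuous_const).mem_of_frequently_of_tendsto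
    (frequently_atTop.2 fun R0 => ?_) t
  obtain ⟨R, hR, hg⟩ := exists_R hi.abs hη (max R0 0)
  have h0 : -R ≤ R := by linarith [(le_max_right _ _).trans hR]
  refine ⟨R, (le_max_left _ _).trans hR, ?_⟩
  have := (hp _ _ h0).2 R ⟨h0, le_rfl⟩
  rw [Set.mem_ofPred_eq, ← sub_eq_iff_eq_add'.2 this]
  exact (abs_sub _ _).trans hg

lemma SH.conj {g g' : ℝ → ℂ} (h : SH g g') :
    SH (fun x => starRingEnd ℂ (g x)) (fun x => starRingEnd ℂ (g' x)) :=
  ⟨h.1.star, h.2.1.star, fun a b => by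
    have := (Complex.conjCLE : ℂ →L[ℝ] ℂ).intervalIntegral_comp_comm (memLp_ii h.2.1 a b)
    rw [← h.2.2] at this
    simpa using this.symm⟩

lemma SH.ibp {g g' : ℝ → ℂ} (h : SH g g') {f f' : ℝ → ℝ} (hd : ∀ x, HasDerivAt f (f' x) x)
    (hc : Continuous f') (m1 : MemLp f 2) (m2 : MemLp f' 2) :
    (∫ x, f x * g' x) + ∫ x, f' x * g x = 0 := by
  have i1 := m1.ofReal.integrable_mul h.2.1
  have i2 := m2.ofReal.integrable_mul h.1
  have key : ∀ L : ℂ →L[ℝ] ℝ, L ((∫ x, f x * g' x) + ∫ x, f' x * g x) = 0 := fun L => by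
    have := int_deriv_zero (fun a b hab => (Prim.of_deriv hab (fun x _ => (hd x).continuousAt.continuousWithinAt)
      hc.continuousOn fun x _ => hd x).mul (h.prim L a b) hab)
      (m1.integrable_mul (L.comp_memLp' h.1)) ((m2.integrable_mul (L.comp_memLp' h.1)).add
        (m1.integrable_mul (L.comp_memLp' h.2.1)))
    rw [← this, add_comm]
    erw [← integral_add i2 i1, ← L.integral_comp_comm (i2.add i1)]
    congr 1; ext x
    simp [← Complex.real_smul]
  exact Complex.ext (key Complex.reCLM) (key Complex.imCLM)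

lemma isH1_smul {m : ℕ} (e : EuclideanSpace ℂ (Fin m)) {f f' : ℝ → ℝ}
    (hd : ∀ x, HasDerivAt f (f' x) x) (m1 : MemLp f 2) (m2 : MemLp f' 2) :
    IsH1 (fun x => f x • e) (fun x => f' x • e) :=
  ⟨(ContinuousLinearMap.toSpanSingleton ℝ e).comp_memLp' m1,
    (ContinuousLinearMap.toSpanSingleton ℝ e).comp_memLp' m2, fun a b => by
    rw [intervalIntegral.integral_smul_const, intervalIntegral.integral_eq_sub_of_hasDerivAt
      (fun x _ => hd x) (memLp_ii m2 a b), sub_smul]⟩

lemma isEigen_smul {m : ℕ} (j : Fin m) {f f' w : ℝ → ℝ} {k : ℝ} (hd : ∀ x, HasDerivAt f (f' x) x)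
    (hd' : ∀ x, HasDerivAt f' (k * f x - w x * f x) x) (cw : Continuous w) (m1 : MemLp f 2)
    (m2 : MemLp f' 2) (m3 : MemLp (fun x => w x * f x) 2) :
    IsEigen (fun x => algebraMap ℝ (Matrix (Fin m) (Fin m) ℂ) (w x)) (-k)
      (fun x => f x • EuclideanSpace.single j (1 : ℂ)) := by
  refine ⟨_, isH1_smul _ hd m1 m2, fun φ φ' hφ => ?_⟩
  have cf : Continuous f := continuous_iff_continuousAt.2 fun x => (hd x).continuousAt
  have h := (hφ.sh j).conj
  have := h.ibp hd' (by fun_prop) m2 ((m1.const_mul k).sub m3)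
  have i1 := (m1.ofReal.integrable_mul h.1).const_mul (k : ℂ)
  have i2 := m3.ofReal.integrable_mul h.1
  have e := integral_sub i1 i2
  rw [integral_const_mul] at e
  have e2 : ∀ (c : ℝ) (v : EuclideanSpace ℂ (Fin m)),
      Matrix.toEuclideanLin (algebraMap ℝ (Matrix (Fin m) (Fin m) ℂ) c) v = c • v := fun c v => by
    ext i; simp [Algebra.algebraMap_eq_smul_one, Matrix.smul_mulVec]
  simp only [e2, inner_smul_right_eq_smul, EuclideanSpace.inner_single_right, smul_smul,
    one_mul, Complex.real_smul]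
  simp only [Pi.mul_apply, ← mul_assoc, ← sub_mul] at e
  push_cast at this e ⊢
  linear_combination this - e

lemma hasDerivAt_th (x : ℝ) : HasDerivAt Real.tanh (1 - Real.tanh x ^ 2) x := by
  have h := (Real.cosh_pos x).ne'
  rw [show Real.tanh = fun x => Real.sinh x / Real.cosh x from funext Real.tanh_eq_sinh_div_cosh]
  refine ((Real.hasDerivAt_sinh x).div (Real.hasDerivAt_cosh x) h).congr_deriv ?_
  field_simp

lemma th_sq (x : ℝ) : 0 < 1 - Real.tanh x ^ 2 := by
  nlinarith [Real.tanh_lt_one x, Real.neg_one_lt_tanh x]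

lemma memLp_cosh {ν : ℝ} (h0 : 0 < ν) : MemLp (fun x => Real.cosh x ^ (-ν)) 2 := by
  have hc : Continuous fun x => Real.cosh x ^ (-ν) :=
    Real.continuous_cosh.rpow_const fun x => Or.inl (Real.cosh_pos x).ne'
  have key : ∀ x s : ℝ, Real.exp s / 2 ≤ Real.cosh x →
      ‖(Real.cosh x ^ (-ν)) ^ 2‖ ≤ (2 ^ ν) ^ 2 * Real.exp (-(2 * ν) * s) := fun x s h => by
    have := Real.rpow_le_rpow_of_nonpos (by positivity) h (neg_nonpos.2 h0.le)
    rw [Real.div_rpow (by positivity) zero_le_two, ← Real.exp_mul, Real.rpow_neg zero_le_two,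
      div_inv_eq_mul] at this
    rw [Real.norm_of_nonneg (sq_nonneg _), show -(2 * ν) * s = (2 : ℕ) * (s * -ν) by push_cast; ring,
      Real.exp_nat_mul, ← mul_pow, mul_comm]
    exact pow_le_pow_left₀ (Real.rpow_nonneg (Real.cosh_pos x).le _) this 2
  rw [memLp_two_iff_integrable_sq hc.aestronglyMeasurable, ← integrableOn_univ,
    ← Set.Iic_union_Ioi (a := (0 : ℝ))]
  refine IntegrableOn.union ?_ ?_
  · refine Integrable.mono' ((integrableOn_exp_mul_Iic (a := 2 * ν) (by positivity) 0).const_mul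
      ((2 ^ ν) ^ 2)) (hc.pow 2).aestronglyMeasurable (Eventually.of_forall fun x => ?_)
    simpa using key x (-x) (by rw [Real.cosh_eq]; linarith [Real.exp_pos x])
  · refine Integrable.mono' ((integrableOn_exp_mul_Ioi (a := -(2 * ν)) (by linarith) 0).const_mul
      ((2 ^ ν) ^ 2)) (hc.pow 2).aestronglyMeasurable (Eventually.of_forall fun x => ?_)
    exact key x x (by rw [Real.cosh_eq]; linarith [Real.exp_pos (-x)])

lemma int_th {ν : ℝ} (h0 : 0 < ν) : Integrable (fun x => (1 - Real.tanh x ^ 2) ^ (1 + ν)) ∧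
    ∫ x, (1 - Real.tanh x ^ 2) ^ (1 + ν) = Bnu ν := by
  have e : ∀ x, |1 - Real.tanh x ^ 2| • (1 - Real.tanh x ^ 2) ^ ν =
      (1 - Real.tanh x ^ 2) ^ (1 + ν) := fun x => by
    rw [abs_of_pos (th_sq x), Real.rpow_add (th_sq x), Real.rpow_one, smul_eq_mul]
  have h1 := integrableOn_image_iff_integrableOn_abs_deriv_smul MeasurableSet.univ
    (fun x _ => (hasDerivAt_th x).hasDerivWithinAt) Real.tanh_injective.injOn
    fun y => (1 - y ^ 2) ^ ν
  have h2 := integral_image_eq_integral_abs_deriv_smul MeasurableSet.univ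
    (fun x _ => (hasDerivAt_th x).hasDerivWithinAt) Real.tanh_injective.injOn
    fun y => (1 - y ^ 2) ^ ν
  simp only [e, Real.tanh_bijOn.image_eq, integrableOn_univ, Measure.restrict_univ] at h1 h2
  refine ⟨h1.1 (((Real.continuous_rpow_const h0.le).comp (by fun_prop)).integrableOn_Icc.mono_set
    Set.Ioo_subset_Icc_self), ?_⟩
  rw [← h2, Bnu, intervalIntegral.integral_of_le (by norm_num), integral_Ioc_eq_integral_Ioo]

lemma trPow_alg (m : ℕ) (p c : ℝ) :
    trPow p (algebraMap ℝ (Matrix (Fin m) (Fin m) ℂ) c) = m * c ^ p := by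
  rw [trPow, cfc_algebraMap, Algebra.algebraMap_eq_smul_one]
  simp [mul_comm]

theorem le_LT {ν : ℝ} (h0 : 0 < ν) {m : ℕ} (hm : 1 ≤ m) :
    ENNReal.ofReal (Lone (ν + 1 / 2)) ≤ LT (ν + 1 / 2) m := by
  have m0 := memLp_cosh h0
  have hc : Continuous fun x => Real.cosh x ^ (-ν) :=
    Real.continuous_cosh.rpow_const fun x => Or.inl (Real.cosh_pos x).ne'
  have ct : Continuous Real.tanh := continuous_iff_continuousAt.2 fun x =>
    (hasDerivAt_th x).continuousAt
  have I0 : 0 < ∫ x, (Real.cosh x ^ (-ν)) ^ 2 := integral_pos_of_integrable_nonneg_nonzero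
    (x := 0) (hc.pow 2) m0.integrable_sq (fun x => sq_nonneg _) (by simp)
  set c := (√(∫ x, (Real.cosh x ^ (-ν)) ^ 2))⁻¹ with hcd
  set f : ℝ → ℝ := fun x => c * Real.cosh x ^ (-ν) with hf
  set w : ℝ → ℝ := fun x => ν * (1 + ν) * (1 - Real.tanh x ^ 2) with hw
  have w0 : ∀ x, 0 < w x := fun x => mul_pos (by positivity) (th_sq x)
  have cf : Continuous f := by fun_prop
  have cw : Continuous w := by fun_prop
  have m1 : MemLp f 2 := m0.const_mul c
  have d1 : ∀ x, HasDerivAt f (-ν * Real.tanh x * f x) x := fun x => by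
    refine (((Real.hasDerivAt_cosh x).rpow_const (Or.inl (Real.cosh_pos x).ne')).const_mul
      c).congr_deriv ?_
    rw [Real.rpow_sub_one (Real.cosh_pos x).ne', Real.tanh_eq_sinh_div_cosh]; ring
  have d2 : ∀ x, HasDerivAt (fun x => -ν * Real.tanh x * f x) (ν ^ 2 * f x - w x * f x) x :=
    fun x => (((hasDerivAt_th x).const_mul (-ν)).mul (d1 x)).congr_deriv (by rw [hw]; ring)
  have mm : ∀ g : ℝ → ℝ, Continuous g → ∀ C, (∀ x, |g x| ≤ C) → MemLp (fun x => g x * f x) 2 :=
    fun g cg C h => m1.of_le_mul (c := C) (cg.mul cf).aestronglyMeasurable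
      (Eventually.of_forall fun x => by
        rw [norm_mul]; exact mul_le_mul_of_nonneg_right (h x) (norm_nonneg _))
  have he := fun j : Fin m => isEigen_smul j d1 d2 cw m1 (mm _ (by fun_prop) ν fun x => by
    rw [abs_le]; constructor <;> nlinarith [Real.tanh_lt_one x, Real.neg_one_lt_tanh x])
    (mm _ cw (ν * (1 + ν)) fun x => by
      rw [abs_of_pos (w0 x)]
      exact mul_le_of_le_one_right (by positivity) (by nlinarith [sq_nonneg (Real.tanh x)]))
  have e1 : ∀ x, trPow (ν + 1 / 2 + 1 / 2) (algebraMap ℝ (Matrix (Fin m) (Fin m) ℂ) (w x)) =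
      m * (ν * (1 + ν)) ^ (1 + ν) * (1 - Real.tanh x ^ 2) ^ (1 + ν) := fun x => by
    rw [trPow_alg, show ν + 1 / 2 + 1 / 2 = 1 + ν by ring, hw,
      Real.mul_rpow (by positivity) (th_sq x).le, mul_assoc]
  have hB := Bnu_pos h0
  have hm' : (0 : ℝ) < m := by exact_mod_cast hm
  refine le_iSup_of_le (fun x => algebraMap ℝ _ (w x)) (le_iSup_of_le ⟨fun i j => ?_, fun x => ?_,
    by simp only [e1]; exact (int_th h0).1.const_mul _⟩ (le_iSup_of_le (fun h => ?_) ?_))
  · simp only [Algebra.algebraMap_eq_smul_one, Matrix.smul_apply]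
    exact (cw.smul continuous_const).measurable
  · rw [Algebra.algebraMap_eq_smul_one]
    exact Matrix.PosSemidef.one.smul (w0 x).le
  · obtain ⟨x, hx⟩ := h.exists
    have := congrFun (congrFun hx ⟨0, hm⟩) ⟨0, hm⟩
    simp [Algebra.algebraMap_eq_smul_one, (w0 x).ne'] at this
  simp only [e1, integral_const_mul, (int_th h0).2]
  refine (ENNReal.le_div_iff_mul_le (Or.inl (by simp only [ne_eq, ENNReal.ofReal_eq_zero, not_le]; positivity))
    (Or.inl ENNReal.ofReal_ne_top)).2 (le_iSup_of_le m (le_iSup_of_le (fun _ => -ν ^ 2)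
      (le_iSup_of_le _ (le_iSup_of_le (fun j => ⟨neg_neg_of_pos (by positivity), he j⟩)
        (le_iSup_of_le (fun i j => ?_) (le_of_eq ?_))))))
  · simp only [inner_smul_right_eq_smul, inner_smul_left_eq_smul, smul_smul,
      EuclideanSpace.inner_single_right, integral_smul_const]
    have : ∫ x, f x * f x = 1 := by
      simp only [hf, ← sq, mul_pow, integral_const_mul]
      rw [hcd, inv_pow, Real.sq_sqrt I0.le, inv_mul_cancel₀ I0.ne']
    rw [this]
    by_cases h : i = j <;> simp [h, eq_comm]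
  · rw [Lone_eq h0, ← ENNReal.ofReal_mul (by positivity), sum_const, card_univ, Fintype.card_fin,
      nsmul_eq_mul, abs_neg, abs_of_pos (by positivity), ← Real.rpow_two, ← Real.rpow_mul h0.le,
      Real.mul_rpow h0.le (by positivity), Real.div_rpow h0.le (by positivity),
      show 2 * (ν + 1 / 2) = 1 + ν + (1 + ν) - 1 by ring, Real.rpow_sub_one h0.ne',
      Real.rpow_add h0 (1 + ν)]
    congr 1
    field_simp

theorem LT_eq {γ : ℝ} (h1 : 1 / 2 < γ) (h2 : γ < 3 / 2) {m : ℕ} (hm : 1 ≤ m) :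
    LT γ m = ENNReal.ofReal (Lone γ) := by
  refine (LT_le h1 h2 m).antisymm ?_
  obtain ⟨ν, rfl⟩ : ∃ ν, γ = ν + 1 / 2 := ⟨γ - 1 / 2, by ring⟩
  exact le_LT (by linarith) hm

end Vale.Agent.P371
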