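import Mathlib

namespace Vale.Agent.P371

open Matrix Finset Filter Topology
open scoped Matrix.Norms.Frobenius

variable {n : Type*} [Fintype n] [DecidableEq n]

/-- Positive semidefinite real matrices. -/
def PSD (X : Matrix n n ℝ) : Prop := Xᵀ = X ∧ ∀ v : n → ℝ, 0 ≤ v ⬝ᵥ X *ᵥ v

omit [Fintype n] [DecidableEq n] in
lemma herm_of {X : Matrix n n ℝ} (h : Xᵀ = X) : X.IsHermitian := by
  rw [IsHermitian, conjTranspose_eq_transpose_of_trivial, h]

open Classical in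
noncomputable def eU (X : Matrix n n ℝ) : Matrix n n ℝ :=
  if h : X.IsHermitian then (h.eigenvectorUnitary : Matrix n n ℝ) else 1

open Classical in
noncomputable def ev (X : Matrix n n ℝ) : n → ℝ :=
  if h : X.IsHermitian then h.eigenvalues else 0

noncomputable def mf (f : ℝ → ℝ) (X : Matrix n n ℝ) : Matrix n n ℝ :=
  eU X * diagonal (fun i => f (ev X i)) * (eU X)ᵀ

lemma eU_mul (X : Matrix n n ℝ) : eU X * (eU X)ᵀ = 1 := by
  unfold eU
  split_ifs with h
  · have := h.eigenvectorUnitary.2.2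
    rwa [star_eq_conjTranspose, conjTranspose_eq_transpose_of_trivial] at this
  · simp

lemma mul_eU (X : Matrix n n ℝ) : (eU X)ᵀ * eU X = 1 := mul_eq_one_comm.1 (eU_mul X)

lemma mf_id {X : Matrix n n ℝ} (h : Xᵀ = X) : mf (fun x => x) X = X := by
  have h' := herm_of h
  unfold mf eU ev
  rw [dif_pos h', dif_pos h']
  conv_rhs => rw [h'.spectral_theorem]
  rw [Unitary.conjStarAlgAut_apply, star_eq_conjTranspose, conjTranspose_eq_transpose_of_trivial]
  rfl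

lemma mf_symm (f : ℝ → ℝ) (X : Matrix n n ℝ) : (mf f X)ᵀ = mf f X := by
  simp [mf, transpose_mul, Matrix.mul_assoc]

lemma mf_congr {f g : ℝ → ℝ} {X : Matrix n n ℝ} (h : ∀ i, f (ev X i) = g (ev X i)) :
    mf f X = mf g X := by
  simp only [mf, h]

lemma mf_mul (f g : ℝ → ℝ) (X : Matrix n n ℝ) : mf f X * mf g X = mf (fun x => f x * g x) X := by
  simp only [mf, Matrix.mul_assoc]
  rw [← Matrix.mul_assoc (eU X)ᵀ, mul_eU, Matrix.one_mul, ← Matrix.mul_assoc (diagonal _),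
    diagonal_mul_diagonal]

lemma mf_add (f g : ℝ → ℝ) (X : Matrix n n ℝ) : mf f X + mf g X = mf (fun x => f x + g x) X := by
  simp only [mf, ← Matrix.add_mul, ← Matrix.mul_add, diagonal_add]

lemma mf_sub (f g : ℝ → ℝ) (X : Matrix n n ℝ) : mf f X - mf g X = mf (fun x => f x - g x) X := by
  simp only [mf, ← Matrix.sub_mul, ← Matrix.mul_sub, diagonal_sub]

lemma mf_smul (c : ℝ) (f : ℝ → ℝ) (X : Matrix n n ℝ) : c • mf f X = mf (fun x => c * f x) X := by
  simp only [mf]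
  rw [← Matrix.smul_mul, ← Matrix.mul_smul, ← diagonal_smul]
  rfl

lemma mf_const (c : ℝ) (X : Matrix n n ℝ) : mf (fun _ => c) X = c • (1 : Matrix n n ℝ) := by
  simp only [mf]
  rw [← smul_one_eq_diagonal, Matrix.mul_smul, Matrix.smul_mul, Matrix.mul_one, eU_mul]

lemma mf_one (X : Matrix n n ℝ) : mf (fun _ => 1) X = 1 := by rw [mf_const, one_smul]

lemma mf_pow (f : ℝ → ℝ) (X : Matrix n n ℝ) (k : ℕ) : mf f X ^ k = mf (fun x => f x ^ k) X := by
  induction k with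
  | zero => simp [mf_one]
  | succ k ih => rw [pow_succ, ih, mf_mul]; simp only [pow_succ]

lemma trace_mf (f : ℝ → ℝ) (X : Matrix n n ℝ) : (mf f X).trace = ∑ i, f (ev X i) := by
  rw [mf, trace_mul_cycle, mul_eU, Matrix.one_mul, trace_diagonal]

lemma mf_apply (f : ℝ → ℝ) (X : Matrix n n ℝ) (a b : n) :
    mf f X a b = ∑ i, f (ev X i) * (eU X a i * eU X b i) := by
  simp only [mf, Matrix.mul_apply, transpose_apply, diagonal_apply]
  refine sum_congr rfl fun i _ => ?_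
  simp; ring

lemma mf_mul_eU (f : ℝ → ℝ) (X : Matrix n n ℝ) :
    mf f X * eU X = eU X * diagonal (fun i => f (ev X i)) := by
  rw [mf, Matrix.mul_assoc, mul_eU, Matrix.mul_one]

lemma mul_eU_eq {X : Matrix n n ℝ} (h : Xᵀ = X) : X * eU X = eU X * diagonal (ev X) := by
  conv_lhs => rw [← mf_id h]
  have : eU (mf (fun x => x) X) = eU X := by rw [mf_id h]
  rw [this, mf_mul_eU]

lemma conj_eU (f : ℝ → ℝ) (X : Matrix n n ℝ) :
    (eU X)ᵀ * mf f X * eU X = diagonal (fun i => f (ev X i)) := by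
  rw [Matrix.mul_assoc, mf_mul_eU, ← Matrix.mul_assoc, mul_eU, Matrix.one_mul]

/-- Intertwining. -/
lemma mf_intertwine {m : Type*} [Fintype m] [DecidableEq m] {X : Matrix n n ℝ} (hX : Xᵀ = X)
    {Z : Matrix n m ℝ} {d : m → ℝ} (h : X * Z = Z * diagonal d) (f : ℝ → ℝ) :
    mf f X * Z = Z * diagonal (fun j => f (d j)) := by
  have h1 : diagonal (ev X) * ((eU X)ᵀ * Z) = ((eU X)ᵀ * Z) * diagonal d := by
    rw [Matrix.mul_assoc, ← h, ← Matrix.mul_assoc, ← Matrix.mul_assoc]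
    congr 1
    have := congrArg transpose (mul_eU_eq hX)
    simpa [transpose_mul, hX] using this.symm
  have h2 : diagonal (fun i => f (ev X i)) * ((eU X)ᵀ * Z) =
      ((eU X)ᵀ * Z) * diagonal (fun j => f (d j)) := by
    ext i j
    have := congrFun (congrFun h1 i) j
    simp only [diagonal_mul, mul_diagonal] at this ⊢
    by_cases h0 : ((eU X)ᵀ * Z) i j = 0
    · simp [h0]
    · have : ev X i = d j := by
        apply mul_right_cancel₀ h0; rw [this, mul_comm]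
      rw [this, mul_comm]
  rw [mf, Matrix.mul_assoc, Matrix.mul_assoc, h2, ← Matrix.mul_assoc, ← Matrix.mul_assoc, eU_mul,
    Matrix.one_mul]

lemma mf_eq_of {V : Matrix n n ℝ} (hV : V * Vᵀ = 1) (d : n → ℝ) (f : ℝ → ℝ) :
    mf f (V * diagonal d * Vᵀ) = V * diagonal (fun j => f (d j)) * Vᵀ := by
  have hV' : Vᵀ * V = 1 := mul_eq_one_comm.1 hV
  have := mf_intertwine (X := V * diagonal d * Vᵀ) (by simp [transpose_mul, Matrix.mul_assoc])
    (Z := V) (d := d) (by rw [Matrix.mul_assoc, hV', Matrix.mul_one]) f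
  rw [← this, Matrix.mul_assoc _ V Vᵀ, hV, Matrix.mul_one]

lemma mf_diagonal (d : n → ℝ) (f : ℝ → ℝ) : mf f (diagonal d) = diagonal (fun j => f (d j)) := by
  simpa using mf_eq_of (V := 1) (by simp) d f

lemma mf_mf (f g : ℝ → ℝ) (X : Matrix n n ℝ) : mf f (mf g X) = mf (fun x => f (g x)) X :=
  mf_eq_of (eU_mul X) _ f

lemma mf_conj {V X : Matrix n n ℝ} (hV : V * Vᵀ = 1) (hX : Xᵀ = X) (f : ℝ → ℝ) :
    mf f (V * X * Vᵀ) = V * mf f X * Vᵀ := by
  have h1 : V * eU X * (V * eU X)ᵀ = 1 := by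
    rw [transpose_mul, Matrix.mul_assoc, ← Matrix.mul_assoc (eU X), eU_mul, Matrix.one_mul, hV]
  have := mf_eq_of h1 (ev X) f
  conv_lhs => rw [← mf_id hX]
  simp only [mf, transpose_mul, Matrix.mul_assoc] at this ⊢
  exact this

lemma mf_intertwine' {m : Type*} [Fintype m] [DecidableEq m] {X : Matrix n n ℝ} (hX : Xᵀ = X)
    {Y : Matrix m m ℝ} (hY : Yᵀ = Y) {Z : Matrix n m ℝ} (h : X * Z = Z * Y) (f : ℝ → ℝ) :
    mf f X * Z = Z * mf f Y := by
  have := mf_intertwine hX (Z := Z * eU Y) (d := ev Y)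
    (by rw [← Matrix.mul_assoc, h, Matrix.mul_assoc, mul_eU_eq hY, Matrix.mul_assoc]) f
  rw [mf, mf, ← Matrix.mul_assoc Z, ← Matrix.mul_assoc Z, ← this, mf, Matrix.mul_assoc _ _ (eU Y)ᵀ,
    Matrix.mul_assoc Z, eU_mul, Matrix.mul_one]

lemma mf_mulVec {X : Matrix n n ℝ} (hX : Xᵀ = X) {v : n → ℝ} {μ : ℝ} (h : X *ᵥ v = μ • v)
    (f : ℝ → ℝ) : mf f X *ᵥ v = f μ • v := by
  have := mf_intertwine hX (Z := replicateCol Unit v) (d := fun _ => μ) (by
    ext i j
    have := congrFun h i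
    simp only [replicateCol_apply, Matrix.mul_apply]
    simpa [mulVec, dotProduct, mul_comm] using this) f
  ext i
  have := congrFun (congrFun this i) ()
  simp only [replicateCol_apply, Matrix.mul_apply] at this
  simpa [mulVec, dotProduct, mul_comm] using this

/-- Overlap weights of two eigenbases. -/
noncomputable def ov (X Y : Matrix n n ℝ) (i j : n) : ℝ := ((eU X)ᵀ * eU Y) i j ^ 2

lemma ov_nonneg (X Y : Matrix n n ℝ) (i j : n) : 0 ≤ ov X Y i j := sq_nonneg _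

lemma sum_sq_row {Q : Matrix n n ℝ} (h : Q * Qᵀ = 1) (i : n) : ∑ j, Q i j ^ 2 = 1 := by
  have := congrFun (congrFun h i) i
  simpa [Matrix.mul_apply, sq] using this

lemma sum_sq_col {Q : Matrix n n ℝ} (h : Q * Qᵀ = 1) (j : n) : ∑ i, Q i j ^ 2 = 1 :=
  sum_sq_row (Q := Qᵀ) (by simpa using mul_eq_one_comm.1 h) j

lemma ov_orth (X Y : Matrix n n ℝ) : ((eU X)ᵀ * eU Y) * ((eU X)ᵀ * eU Y)ᵀ = 1 := by
  rw [transpose_mul, transpose_transpose, Matrix.mul_assoc, ← Matrix.mul_assoc (eU Y), eU_mul,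
    Matrix.one_mul, mul_eU]

lemma ov_row (X Y : Matrix n n ℝ) (i : n) : ∑ j, ov X Y i j = 1 := sum_sq_row (ov_orth X Y) i

lemma ov_col (X Y : Matrix n n ℝ) (j : n) : ∑ i, ov X Y i j = 1 := sum_sq_col (ov_orth X Y) j

lemma trace_mf_mul (f g : ℝ → ℝ) (X Y : Matrix n n ℝ) :
    (mf f X * mf g Y).trace = ∑ i, ∑ j, ov X Y i j * (f (ev X i) * g (ev Y j)) := by
  have : (mf f X * mf g Y).trace = (diagonal (fun i => f (ev X i)) * ((eU X)ᵀ * eU Y) *
      diagonal (fun i => g (ev Y i)) * ((eU X)ᵀ * eU Y)ᵀ).trace := by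
    simp only [mf, transpose_mul, transpose_transpose, Matrix.mul_assoc]
    rw [trace_mul_comm]
    simp only [Matrix.mul_assoc]
  rw [this]
  simp only [trace, diag_apply, Matrix.mul_apply (N := _ᵀ), mul_diagonal, diagonal_mul,
    transpose_apply, ov]
  refine sum_congr rfl fun i _ => sum_congr rfl fun j _ => by ring

lemma trace_mf_ov (f : ℝ → ℝ) (X Y : Matrix n n ℝ) :
    (mf f X).trace = ∑ i, ∑ j, ov X Y i j * f (ev X i) := by
  simp only [trace_mf, ← sum_mul, ov_row, one_mul]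

lemma trace_mf_ov' (f : ℝ → ℝ) (X Y : Matrix n n ℝ) :
    (mf f Y).trace = ∑ i, ∑ j, ov X Y i j * f (ev Y j) := by
  rw [sum_comm]
  simp only [trace_mf, ← sum_mul, ov_col, one_mul]

omit [DecidableEq n] in
lemma norm_sq_eq {m : Type*} [Fintype m] (Z : Matrix n m ℝ) : ‖Z‖ ^ 2 = ∑ a, ∑ b, Z a b ^ 2 := by
  rw [frobenius_norm_def, ← Real.sqrt_eq_rpow, Real.sq_sqrt (by positivity)]
  simp

omit [DecidableEq n] in
lemma norm_sq_trace {m : Type*} [Fintype m] (Z : Matrix n m ℝ) : ‖Z‖ ^ 2 = (Z * Zᵀ).trace := by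
  rw [norm_sq_eq]
  simp [trace, Matrix.mul_apply, sq]

omit [DecidableEq n] in
lemma abs_apply_le {m : Type*} [Fintype m] (Z : Matrix n m ℝ) (a : n) (b : m) : |Z a b| ≤ ‖Z‖ := by
  refine abs_le_of_sq_le_sq' ?_ (norm_nonneg _) |> abs_le.2
  rw [norm_sq_eq]
  exact (single_le_sum (f := fun b => Z a b ^ 2) (fun _ _ => sq_nonneg _) (mem_univ b)).trans
    (single_le_sum (f := fun a => ∑ b, Z a b ^ 2) (fun _ _ => by positivity) (mem_univ a))

lemma norm_mf_sub (f : ℝ → ℝ) (X Y : Matrix n n ℝ) :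
    ‖mf f X - mf f Y‖ ^ 2 = ∑ i, ∑ j, ov X Y i j * (f (ev X i) - f (ev Y j)) ^ 2 := by
  rw [norm_sq_trace, transpose_sub, mf_symm, mf_symm, Matrix.sub_mul, Matrix.mul_sub,
    Matrix.mul_sub, trace_sub, trace_sub, trace_sub, trace_mul_comm (mf f Y) (mf f X), mf_mul,
    mf_mul, trace_mf_mul, trace_mf_ov _ X Y, trace_mf_ov' _ X Y]
  simp only [← sum_sub_distrib]
  refine sum_congr rfl fun i _ => sum_congr rfl fun j _ => by ring

lemma norm_sub_sq_ov {X Y : Matrix n n ℝ} (hX : Xᵀ = X) (hY : Yᵀ = Y) :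
    ‖X - Y‖ ^ 2 = ∑ i, ∑ j, ov X Y i j * (ev X i - ev Y j) ^ 2 := by
  have := norm_mf_sub (fun x => x) X Y
  rwa [mf_id hX, mf_id hY] at this

lemma exists_ev_near {X Y : Matrix n n ℝ} (hX : Xᵀ = X) (hY : Yᵀ = Y) (i : n) :
    ∃ j, |ev X i - ev Y j| ≤ ‖X - Y‖ := by
  obtain ⟨j, -, hj⟩ := exists_min_image univ (fun j => (ev X i - ev Y j) ^ 2) ⟨i, mem_univ i⟩
  refine ⟨j, abs_le.2 (abs_le_of_sq_le_sq' ?_ (norm_nonneg _))⟩
  rw [norm_sub_sq_ov hX hY]
  calc (ev X i - ev Y j) ^ 2 = ∑ k, ov X Y i k * (ev X i - ev Y j) ^ 2 := by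
        rw [← sum_mul, ov_row, one_mul]
    _ ≤ ∑ k, ov X Y i k * (ev X i - ev Y k) ^ 2 :=
        sum_le_sum fun k _ => mul_le_mul_of_nonneg_left (hj k (mem_univ k)) (ov_nonneg _ _ _ _)
    _ ≤ _ := single_le_sum (f := fun i => ∑ k, ov X Y i k * (ev X i - ev Y k) ^ 2)
        (fun i _ => sum_nonneg fun k _ => mul_nonneg (ov_nonneg _ _ _ _) (sq_nonneg _)) (mem_univ i)

lemma tendsto_mat_iff {α : Type*} {l : Filter α} {X : α → Matrix n n ℝ} {Y : Matrix n n ℝ} :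
    Tendsto X l (𝓝 Y) ↔ Tendsto (fun a => ‖X a - Y‖) l (𝓝 0) :=
  tendsto_iff_norm_sub_tendsto_zero

omit [DecidableEq n] in
lemma hasDerivAt_mat_iff {X : ℝ → Matrix n n ℝ} {X' : Matrix n n ℝ} {t : ℝ} :
    HasDerivAt X X' t ↔ Tendsto (slope X t) (𝓝[≠] t) (𝓝 X') :=
  hasDerivAt_iff_tendsto_slope

omit [DecidableEq n] in
lemma HasDerivAt.mcont {X : ℝ → Matrix n n ℝ} {X' : Matrix n n ℝ} {t : ℝ}
    (h : HasDerivAt X X' t) : ContinuousAt X t := h.continuousAt

lemma mf_tendsto {α : Type*} {l : Filter α} {X : α → Matrix n n ℝ} {Y : Matrix n n ℝ}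
    (hY : Yᵀ = Y) (hX : ∀ᶠ a in l, (X a)ᵀ = X a) (h : Tendsto X l (𝓝 Y)) {f : ℝ → ℝ}
    (hf : ∀ j, ContinuousAt f (ev Y j)) : Tendsto (fun a => mf f (X a)) l (𝓝 (mf f Y)) := by
  rw [tendsto_mat_iff] at h ⊢
  have key : ∀ η : ℝ, 0 < η → ∃ C : ℝ, ∀ᶠ a in l,
      ‖mf f (X a) - mf f Y‖ ^ 2 ≤ Fintype.card n * η ^ 2 + C * ‖X a - Y‖ ^ 2 := by
    intro η hη
    have h1 : ∀ᶠ δ in 𝓝[>] (0 : ℝ), ∀ j, ∀ x, |x - ev Y j| < δ → |f x - f (ev Y j)| < η := by
      refine eventually_all.2 fun j => ?_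
      obtain ⟨δ, hδ, h2⟩ := Metric.continuousAt_iff.1 (hf j) η hη
      filter_upwards [Ioo_mem_nhdsGT hδ] with d hd x hx
      exact h2 (hx.trans hd.2)
    obtain ⟨δ, h2, hδ⟩ := (h1.and self_mem_nhdsWithin).exists
    replace hδ : 0 < δ := hδ
    set S := ∑ j, |f (ev Y j)|
    have hS : ∀ j, |f (ev Y j)| ≤ S := fun j =>
      single_le_sum (f := fun j => |f (ev Y j)|) (fun _ _ => abs_nonneg _) (mem_univ j)
    refine ⟨(η + 2 * S) ^ 2 / δ ^ 2, ?_⟩
    filter_upwards [hX, h.eventually (gt_mem_nhds hδ)] with a ha hb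
    rw [norm_mf_sub, norm_sub_sq_ov ha hY, mul_sum]
    have : (Fintype.card n : ℝ) * η ^ 2 = ∑ i, ∑ j, ov (X a) Y i j * η ^ 2 := by
      simp [← sum_mul, ov_row]
    rw [this, ← sum_add_distrib]
    refine sum_le_sum fun i _ => ?_
    rw [mul_sum, ← sum_add_distrib]
    refine sum_le_sum fun j _ => ?_
    rw [mul_left_comm, ← mul_add]
    refine mul_le_mul_of_nonneg_left ?_ (ov_nonneg _ _ _ _)
    by_cases hc : |ev (X a) i - ev Y j| < δ
    · have := sq_le_sq' (abs_lt.1 (h2 j _ hc)).1.le (abs_lt.1 (h2 j _ hc)).2.le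
      have : 0 ≤ (η + 2 * S) ^ 2 / δ ^ 2 * (ev (X a) i - ev Y j) ^ 2 := by positivity
      linarith
    · obtain ⟨k, hk⟩ := exists_ev_near ha hY i
      have e1 := abs_lt.1 (h2 k _ (hk.trans_lt hb))
      have e2 := abs_le.1 (hS k)
      have e3 := abs_le.1 (hS j)
      have e4 : (f (ev (X a) i) - f (ev Y j)) ^ 2 ≤ (η + 2 * S) ^ 2 :=
        sq_le_sq' (by linarith) (by linarith)
      have e5 : δ ^ 2 ≤ (ev (X a) i - ev Y j) ^ 2 := by
        rw [← sq_abs (ev (X a) i - _)]; exact pow_le_pow_left₀ hδ.le (not_lt.1 hc) 2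
      have e6 : (η + 2 * S) ^ 2 ≤ (η + 2 * S) ^ 2 / δ ^ 2 * (ev (X a) i - ev Y j) ^ 2 := by
        rw [div_mul_eq_mul_div, le_div_iff₀ (by positivity)]
        exact mul_le_mul_of_nonneg_left e5 (sq_nonneg _)
      nlinarith [sq_nonneg η]
  refine (Metric.tendsto_nhds.2 fun ε hε => ?_)
  have hN : (0 : ℝ) < Fintype.card n + 1 := by positivity
  obtain ⟨C, hC⟩ := key (ε / (2 * (Fintype.card n + 1))) (by positivity)
  have h3 : Tendsto (fun a => C * ‖X a - Y‖ ^ 2) l (𝓝 0) := by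
    simpa using (h.pow 2).const_mul C
  filter_upwards [hC, h3.eventually (gt_mem_nhds (show 0 < ε ^ 2 / 2 by positivity))] with a h4 h5
  rw [Real.dist_eq, sub_zero, abs_norm]
  refine lt_of_pow_lt_pow_left₀ 2 hε.le (h4.trans_lt ?_)
  have : (Fintype.card n : ℝ) * (ε / (2 * (Fintype.card n + 1))) ^ 2 ≤ ε ^ 2 / 2 := by
    rw [div_pow, ← mul_div_assoc, div_le_div_iff₀ (by positivity) (by positivity)]
    have : (0 : ℝ) ≤ Fintype.card n := by positivity
    nlinarith [sq_nonneg ε, mul_nonneg (sq_nonneg ε) this,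
      mul_nonneg (sq_nonneg ε) (mul_nonneg this this)]
  linarith

lemma mf_continuousWithinAt {α : Type*} [TopologicalSpace α] {X : α → Matrix n n ℝ} {s : Set α}
    {a : α} (hs : ∀ b ∈ s, (X b)ᵀ = X b) (ha : a ∈ s) (h : ContinuousWithinAt X s a) {f : ℝ → ℝ}
    (hf : ∀ j, ContinuousAt f (ev (X a) j)) : ContinuousWithinAt (fun a => mf f (X a)) s a :=
  mf_tendsto (hs a ha) (eventually_of_mem self_mem_nhdsWithin hs) h hf

lemma mf_continuousOn {α : Type*} [TopologicalSpace α] {X : α → Matrix n n ℝ} {s : Set α}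
    (hs : ∀ b ∈ s, (X b)ᵀ = X b) (h : ContinuousOn X s) {f : ℝ → ℝ}
    (hf : ∀ a ∈ s, ∀ j, ContinuousAt f (ev (X a) j)) : ContinuousOn (fun a => mf f (X a)) s :=
  fun a ha => mf_continuousWithinAt hs ha (h a ha) (hf a ha)

lemma mf_continuous {α : Type*} [TopologicalSpace α] {X : α → Matrix n n ℝ}
    (hs : ∀ b, (X b)ᵀ = X b) (h : Continuous X) {f : ℝ → ℝ} (hf : Continuous f) :
    Continuous (fun a => mf f (X a)) :=
  continuousOn_univ.1 (mf_continuousOn (fun b _ => hs b) h.continuousOn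
    fun _ _ _ => hf.continuousAt)

/-- The Daleckii-Krein derivative. -/
noncomputable def dk (g : ℝ → ℝ) (X H : Matrix n n ℝ) : Matrix n n ℝ :=
  eU X * (of fun i j => dslope g (ev X j) (ev X i) * ((eU X)ᵀ * H * eU X) i j) * (eU X)ᵀ

lemma hasDerivAt_mf {X : ℝ → Matrix n n ℝ} {X' : Matrix n n ℝ} {t : ℝ}
    (hs : ∀ᶠ u in 𝓝 t, (X u)ᵀ = X u) (h : HasDerivAt X X' t) {g : ℝ → ℝ}
    (hg : ∀ j, DifferentiableAt ℝ g (ev (X t) j)) :
    HasDerivAt (fun u => mf g (X u)) (dk g (X t) X') t := by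
  set Y := X t with hYd
  have hY : Yᵀ = Y := hs.self_of_nhds
  set P : n → Matrix n n ℝ := fun j => eU Y * diagonal (Pi.single j 1) * (eU Y)ᵀ with hP
  have hP1 : ∑ j, P j = 1 := by
    simp only [hP, ← Matrix.sum_mul, ← Matrix.mul_sum]
    have : ∑ j : n, diagonal (Pi.single j (1 : ℝ)) = 1 := by
      ext a b
      by_cases hab : a = b <;> simp [Matrix.sum_apply, one_apply, hab]
    rw [this, Matrix.mul_one, eU_mul]
  have hP2 : ∀ (f : ℝ → ℝ) j, mf f Y * P j = f (ev Y j) • P j := by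
    intro f j
    simp only [hP, ← Matrix.mul_assoc, mf_mul_eU]
    rw [Matrix.mul_assoc (eU Y), diagonal_mul_diagonal, ← Matrix.smul_mul, ← Matrix.mul_smul,
      ← diagonal_smul]
    congr 3
    ext a
    by_cases ha : a = j <;> simp [ha]
  have hid : ∀ Z : Matrix n n ℝ, Zᵀ = Z →
      mf g Z - mf g Y = ∑ j, mf (dslope g (ev Y j)) Z * (Z - Y) * P j := by
    intro Z hZ
    rw [← Matrix.mul_one (mf g Z - mf g Y), ← hP1, Matrix.mul_sum]
    refine sum_congr rfl fun j _ => ?_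
    have e1 := hP2 (fun x => x) j
    rw [mf_id hY] at e1
    have e2 : mf (dslope g (ev Y j)) Z * Z - ev Y j • mf (dslope g (ev Y j)) Z =
        mf g Z - g (ev Y j) • (1 : Matrix n n ℝ) := by
      conv_lhs => enter [1, 2]; rw [← mf_id hZ]
      rw [mf_mul, mf_smul, mf_sub, ← mf_const _ Z, mf_sub]
      refine mf_congr fun i => ?_
      have := sub_smul_dslope g (ev Y j) (ev Z i)
      rw [smul_eq_mul] at this
      linarith
    rw [Matrix.sub_mul, hP2, Matrix.mul_assoc, Matrix.sub_mul, e1, Matrix.mul_sub, Matrix.mul_smul,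
      ← Matrix.mul_assoc _ Z, ← Matrix.smul_mul _ (mf (dslope g (ev Y j)) Z),
      ← Matrix.sub_mul (mf (dslope g (ev Y j)) Z * Z), e2, Matrix.sub_mul, Matrix.smul_mul,
      Matrix.one_mul]
  have hdk : dk g Y X' = ∑ j, mf (dslope g (ev Y j)) Y * X' * P j := by
    simp only [dk, hP, mf, Matrix.mul_assoc, ← Matrix.mul_sum]
    congr 1
    simp only [← Matrix.mul_assoc, ← Matrix.sum_mul]
    congr 1
    ext a b
    simp only [of_apply, Matrix.sum_apply, Matrix.mul_assoc, diagonal_mul]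
    rw [sum_eq_single b (fun c _ hc => by simp [← Matrix.mul_assoc, hc.symm]) (by simp)]
    simp [← Matrix.mul_assoc]
  have hc := HasDerivAt.mcont h
  rw [hasDerivAt_mat_iff] at h ⊢
  rw [hdk]
  have h1 : Tendsto (fun u => ∑ j, mf (dslope g (ev Y j)) (X u) * slope X t u * P j) (𝓝[≠] t)
      (𝓝 (∑ j, mf (dslope g (ev Y j)) Y * X' * P j)) := by
    refine tendsto_finsetSum _ fun j _ => Tendsto.mul (Tendsto.mul ?_ h) tendsto_const_nhds
    refine mf_tendsto hY (hs.filter_mono nhdsWithin_le_nhds)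
      (hc.tendsto.mono_left nhdsWithin_le_nhds)
      fun i => ?_
    by_cases hij : ev Y i = ev Y j
    · rw [hij]; exact continuousAt_dslope_same.2 (hg j)
    · exact (continuousAt_dslope_of_ne hij).2 (hg i).continuousAt
  refine h1.congr' ?_
  filter_upwards [hs.filter_mono nhdsWithin_le_nhds] with u hu
  rw [slope_def_module, slope_def_module, hid _ hu, smul_sum]
  simp only [Matrix.mul_smul, Matrix.smul_mul, hYd]

lemma trace_mul_dk (g : ℝ → ℝ) (X H C : Matrix n n ℝ) : (C * dk g X H).trace =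
    ∑ i, ∑ j, dslope g (ev X j) (ev X i) *
      (((eU X)ᵀ * H * eU X) i j * ((eU X)ᵀ * C * eU X) j i) := by
  rw [dk, ← Matrix.mul_assoc, trace_mul_comm, ← Matrix.mul_assoc, ← Matrix.mul_assoc,
    trace_mul_comm]
  simp only [trace, diag_apply, Matrix.mul_apply (M := of _), of_apply, mul_assoc]

lemma trace_mf_mul_eq (g : ℝ → ℝ) (X H : Matrix n n ℝ) :
    (mf g X * H).trace = ∑ i, g (ev X i) * ((eU X)ᵀ * H * eU X) i i := by
  rw [mf, Matrix.mul_assoc, Matrix.mul_assoc, trace_mul_comm, Matrix.mul_assoc]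
  simp only [trace, diag_apply, diagonal_mul]

lemma trace_dk (g : ℝ → ℝ) (X H : Matrix n n ℝ) :
    (dk g X H).trace = (mf (deriv g) X * H).trace := by
  have := trace_mul_dk g X H 1
  rw [Matrix.one_mul, Matrix.mul_one, mul_eU] at this
  rw [this, trace_mf_mul_eq]
  refine sum_congr rfl fun i _ => ?_
  rw [sum_eq_single i (fun c _ hc => by simp [hc]) (by simp)]
  simp

omit [DecidableEq n] in
lemma hasDerivAt_trace {X : ℝ → Matrix n n ℝ} {X' : Matrix n n ℝ} {t : ℝ}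
    (h : HasDerivAt X X' t) : HasDerivAt (fun u => (X u).trace) X'.trace t :=
  (LinearMap.toContinuousLinearMap (traceLinearMap n ℝ ℝ)).hasFDerivAt.comp_hasDerivAt t h

lemma hasDerivAt_trace_mf {X : ℝ → Matrix n n ℝ} {X' : Matrix n n ℝ} {t : ℝ}
    (hs : ∀ᶠ u in 𝓝 t, (X u)ᵀ = X u) (h : HasDerivAt X X' t) {g g' : ℝ → ℝ}
    (hg : ∀ j, HasDerivAt g (g' (ev (X t) j)) (ev (X t) j)) :
    HasDerivAt (fun u => (mf g (X u)).trace) (mf g' (X t) * X').trace t := by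
  have := hasDerivAt_trace (hasDerivAt_mf hs h fun j => (hg j).differentiableAt)
  rwa [trace_dk, mf_congr fun j => (hg j).deriv] at this

end Vale.Agent.P371
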