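import Vale.Agent.P371.PS

namespace Vale.Agent.P371

open Matrix Finset Filter Topology MeasureTheory
open scoped Matrix.Norms.Frobenius

variable {n : Type*} [Fintype n] [DecidableEq n]

noncomputable def th (M : ℝ) (Y : Matrix n n ℝ) : ℝ := max 0 (min 1 (M + 1 - ‖Y‖))

noncomputable def vf (M : ℝ) (C Y : Matrix n n ℝ) : Matrix n n ℝ := th M Y • (C + Yᵀ * Y)

lemma th_nonneg (M : ℝ) (Y : Matrix n n ℝ) : 0 ≤ th M Y := le_max_left _ _

lemma th_le (M : ℝ) (Y : Matrix n n ℝ) : th M Y ≤ 1 := max_le zero_le_one (min_le_left _ _)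

lemma th_eq_one {M : ℝ} {Y : Matrix n n ℝ} (h : ‖Y‖ ≤ M) : th M Y = 1 := by
  rw [th, min_eq_left (by linarith), max_eq_right zero_le_one]

lemma th_eq_zero {M : ℝ} {Y : Matrix n n ℝ} (h : M + 1 ≤ ‖Y‖) : th M Y = 0 :=
  max_eq_left (min_le_of_right_le (by linarith))

lemma th_mul_le {M : ℝ} (hM : 0 ≤ M) (Y : Matrix n n ℝ) : th M Y * ‖Y‖ ≤ M + 1 := by
  rcases le_total (M + 1) ‖Y‖ with h | h
  · rw [th_eq_zero h]; linarith
  · nlinarith [th_le M Y, norm_nonneg Y]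

lemma th_lip (M : ℝ) (Y Z : Matrix n n ℝ) : |th M Y - th M Z| ≤ ‖Y - Z‖ := by
  have h := abs_norm_sub_norm_le Y Z
  refine ((abs_max_sub_max_le_max _ _ _ _).trans ?_).trans h
  refine max_le (by simp) ((abs_min_sub_min_le_max _ _ _ _).trans (max_le (by simp) ?_))
  rw [abs_sub_comm]; exact le_of_eq (by congr 1; ring)

lemma norm_TT (Y Z : Matrix n n ℝ) : ‖Yᵀ * Z‖ ≤ ‖Y‖ * ‖Z‖ := by
  have := frobenius_norm_mul Yᵀ Z
  rwa [frobenius_norm_transpose] at this

lemma vf_norm {M c : ℝ} (hM : 0 ≤ M) {C : Matrix n n ℝ} (hC : ‖C‖ ≤ c) (Y : Matrix n n ℝ) :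
    ‖vf M C Y‖ ≤ c + (M + 1) ^ 2 := by
  have hc := (norm_nonneg C).trans hC
  rcases le_total (M + 1) ‖Y‖ with h | h
  · rw [vf, th_eq_zero h, zero_smul, norm_zero]; positivity
  · rw [vf, norm_smul, Real.norm_of_nonneg (th_nonneg _ _)]
    have := (norm_add_le C (Yᵀ * Y)).trans (add_le_add hC ((norm_TT Y Y).trans
      (mul_le_mul h h (norm_nonneg _) (by linarith))))
    nlinarith [th_le M Y, th_nonneg M Y, norm_nonneg (C + Yᵀ * Y)]

lemma vf_lip {M c : ℝ} (hM : 0 ≤ M) {C : Matrix n n ℝ} (hC : ‖C‖ ≤ c) (Y Z : Matrix n n ℝ) :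
    ‖vf M C Y - vf M C Z‖ ≤ (c + (M + 1) ^ 2 + 2 * (M + 1)) * ‖Y - Z‖ := by
  have hc := (norm_nonneg C).trans hC
  wlog hYZ : ‖Y‖ ≤ ‖Z‖ generalizing Y Z
  · rw [norm_sub_rev, norm_sub_rev Y]; exact this Z Y (le_of_not_ge hYZ)
  rcases le_total (M + 1) ‖Y‖ with h | h
  · rw [vf, vf, th_eq_zero h, th_eq_zero (h.trans hYZ), zero_smul, zero_smul, sub_self, norm_zero]
    positivity
  have e : vf M C Y - vf M C Z = (th M Y - th M Z) • (C + Yᵀ * Y) +
      th M Z • ((Y - Z)ᵀ * Y + Zᵀ * (Y - Z)) := by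
    simp only [vf, transpose_sub, Matrix.sub_mul, Matrix.mul_sub]
    module
  have b1 := (norm_add_le C (Yᵀ * Y)).trans (add_le_add hC ((norm_TT Y Y).trans
      (mul_le_mul h h (norm_nonneg _) (by linarith))))
  have b2 := (norm_add_le _ _).trans (add_le_add (norm_TT (Y - Z) Y) (norm_TT Z (Y - Z)))
  have b3 := mul_le_mul (th_lip M Y Z) b1 (norm_nonneg _) (norm_nonneg _)
  have b4 := mul_le_mul_of_nonneg_left b2 (th_nonneg M Z)
  have b5 := mul_le_mul_of_nonneg_left (th_mul_le hM Z) (norm_nonneg (Y - Z))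
  have b6 := mul_le_mul_of_nonneg_left hYZ (mul_nonneg (th_nonneg M Z) (norm_nonneg (Y - Z)))
  rw [e]
  refine (norm_add_le _ _).trans ?_
  rw [norm_smul, norm_smul, Real.norm_eq_abs, Real.norm_of_nonneg (th_nonneg M Z)]
  nlinarith

def IsSol (M : ℝ) (C : ℝ → Matrix n n ℝ) (a b : ℝ) (Y : ℝ → Matrix n n ℝ) : Prop :=
  ∀ x ∈ Set.Icc a b, HasDerivWithinAt Y (vf M (C x) (Y x)) (Set.Icc a b) x

lemma exists_bound {C : ℝ → Matrix n n ℝ} (hC : Continuous C) (a b : ℝ) :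
    ∃ c : ℝ, 0 ≤ c ∧ ∀ x ∈ Set.Icc a b, ‖C x‖ ≤ c := by
  obtain ⟨c, hc⟩ := isCompact_Icc.exists_bound_of_continuousOn (hC.continuousOn (s := Set.Icc a b))
  exact ⟨max c 0, le_max_right _ _, fun x hx => (hc x hx).trans (le_max_left _ _)⟩

lemma exists_sol {M : ℝ} (hM : 0 ≤ M) {C : ℝ → Matrix n n ℝ} (hC : Continuous C) {a b : ℝ}
    (hab : a ≤ b) (Y0 : Matrix n n ℝ) : ∃ Y, Y a = Y0 ∧ IsSol M C a b Y := by
  obtain ⟨c, hc0, hc⟩ := exists_bound hC a b
  have : CompleteSpace (Matrix n n ℝ) := FiniteDimensional.complete ℝ _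
  have hpl : IsPicardLindelof (fun x Y => vf M (C x) Y) (⟨a, le_rfl, hab⟩ : Set.Icc a b) Y0
      ⟨(c + (M + 1) ^ 2) * (b - a), by have := sub_nonneg.2 hab; positivity⟩ 0
      ⟨c + (M + 1) ^ 2, by positivity⟩ ⟨c + (M + 1) ^ 2 + 2 * (M + 1), by positivity⟩ := by
    refine ⟨fun x hx => LipschitzOnWith.of_dist_le_mul fun Y _ Z _ => ?_, fun Y _ => ?_,
      fun x hx Y _ => vf_norm hM (hc x hx) Y, ?_⟩
    · rw [dist_eq_norm, dist_eq_norm]; exact vf_lip hM (hc x hx) Y Z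
    · exact ((hC.add continuous_const).const_smul (th M Y)).continuousOn
    · simp only [sub_self, max_eq_left (sub_nonneg.2 hab), NNReal.coe_zero, sub_zero]
      exact le_rfl
  exact hpl.exists_eq_forall_mem_Icc_hasDerivWithinAt₀

variable {M a b : ℝ} {C Y : ℝ → Matrix n n ℝ}

lemma IsSol.cont (h : IsSol M C a b Y) : ContinuousOn Y (Set.Icc a b) :=
  fun x hx => (h x hx).continuousWithinAt

lemma IsSol.deriv (h : IsSol M C a b Y) {x : ℝ} (hx : x ∈ Set.Ioo a b) :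
    HasDerivAt Y (vf M (C x) (Y x)) x :=
  (h x (Set.Ioo_subset_Icc_self hx)).hasDerivAt (Icc_mem_nhds hx.1 hx.2)

lemma IsSol.right (h : IsSol M C a b Y) {x : ℝ} (hx : x ∈ Set.Ico a b) :
    HasDerivWithinAt Y (vf M (C x) (Y x)) (Set.Ici x) x :=
  (h x (Set.Ico_subset_Icc_self hx)).mono_of_mem_nhdsWithin (Icc_mem_nhdsGE_of_mem hx)

lemma sol_cont {P : Type*} [TopologicalSpace P] (hM : 0 ≤ M) (hab : a ≤ b)
    {C Y : P → ℝ → Matrix n n ℝ} (hC : Continuous fun q : P × ℝ => C q.1 q.2)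
    (h0 : Continuous fun p => Y p a) (h : ∀ p, IsSol M (C p) a b (Y p)) :
    Continuous fun p => Y p b := by
  refine continuous_iff_continuousAt.2 fun p => tendsto_mat_iff.2 ?_
  obtain ⟨c, hc0, hc⟩ := exists_bound (C := C p) (hC.comp (Continuous.prodMk_right p)) a b
  set K : NNReal := ⟨c + (M + 1) ^ 2 + 2 * (M + 1), by positivity⟩ with hK
  have hg : Continuous fun e : ℝ => gronwallBound e K (0 + e) (b - a) := by
    by_cases hK0 : (K : ℝ) = 0
    · simp only [gronwallBound_K0, hK0]; fun_prop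
    · simp only [gronwallBound_of_K_ne_0 hK0]; fun_prop
  refine Metric.tendsto_nhds.2 fun ε hε => ?_
  have h1 := hg.tendsto 0
  rw [add_zero, gronwallBound_ε0_δ0] at h1
  obtain ⟨e, he1, he0⟩ := (((h1.eventually (gt_mem_nhds hε)).filter_mono
    (nhdsWithin_le_nhds (s := Set.Ioi 0))).and self_mem_nhdsWithin).exists
  replace he0 : 0 < e := he0
  have t1 : ∀ᶠ q in 𝓝 p, ∀ x ∈ Set.Icc a b, ‖C q x - C p x‖ < e := by
    refine isCompact_Icc.eventually_forall_of_forall_eventually fun x _ => ?_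
    have : Continuous fun q : P × ℝ => ‖C q.1 q.2 - C p q.2‖ :=
      (hC.sub (hC.comp (continuous_const.prodMk continuous_snd))).norm
    exact this.continuousAt.eventually_lt continuousAt_const (by simpa using he0)
  filter_upwards [t1, (tendsto_mat_iff.1 (h0.tendsto p)).eventually (gt_mem_nhds he0)] with q h2 h3
  rw [Real.dist_eq, sub_zero, abs_norm, norm_sub_rev, ← dist_eq_norm]
  refine lt_of_le_of_lt (dist_le_of_approx_trajectories_ODE_of_mem (v := fun x => vf M (C p x))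
    (s := fun _ => Set.univ) (K := K) (fun x hx => LipschitzOnWith.of_dist_le_mul fun Y _ Z _ => ?_)
    (h p).cont (fun x hx => (h p).right hx) (fun x hx => by simp) (fun _ _ => trivial) (h q).cont
    (fun x hx => (h q).right hx) (fun x hx => ?_) (fun _ _ => trivial) ?_ b ⟨hab, le_rfl⟩) he1
  · rw [dist_eq_norm, dist_eq_norm]; exact vf_lip hM (hc x (Set.Ico_subset_Icc_self hx)) Y Z
  · rw [dist_eq_norm, vf, vf, ← smul_sub, add_sub_add_right_eq_sub, norm_smul,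
      Real.norm_of_nonneg (th_nonneg _ _)]
    have := h2 x (Set.Ico_subset_Icc_self hx)
    nlinarith [th_le M (Y q x), th_nonneg M (Y q x), norm_nonneg (C q x - C p x)]
  · rw [dist_eq_norm, norm_sub_rev]; exact h3.le

lemma gron_zero {φ : ℝ → ℝ} {c : ℝ} (hc : ContinuousOn φ (Set.Icc a b))
    (hd : ∀ x ∈ Set.Ioo a b, ∃ d, HasDerivAt φ d x ∧ d ≤ c * φ x) (h0 : φ a = 0) :
    ∀ x ∈ Set.Icc a b, φ x ≤ 0 := by
  choose! d hd using hd
  have h1 : ∀ x ∈ Set.Ioo a b, HasDerivAt (fun x => φ x * Real.exp (-c * x))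
      (d x * Real.exp (-c * x) + φ x * (Real.exp (-c * x) * (-c * 1))) x := fun x hx =>
    (hd x hx).1.mul ((hasDerivAt_id x).const_mul (-c)).exp
  have h2 := antitoneOn_of_deriv_nonpos (f := fun x => φ x * Real.exp (-c * x)) (convex_Icc a b)
    (hc.mul (by fun_prop))
    (fun x hx => (h1 x (by simpa using hx)).differentiableAt.differentiableWithinAt)
    fun x hx => by
      rw [interior_Icc] at hx
      rw [(h1 x hx).deriv]
      nlinarith [mul_le_mul_of_nonneg_right (hd x hx).2 (Real.exp_pos (-c * x)).le]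
  intro x hx
  have := h2 ⟨le_rfl, hx.1.trans hx.2⟩ hx hx.1
  simp only [h0, zero_mul] at this
  exact nonpos_of_mul_nonpos_left this (Real.exp_pos _)

lemma hasDerivAt_minsq (s : ℝ) : HasDerivAt (fun x : ℝ => min x 0 ^ 2) (2 * min s 0) s := by
  rcases lt_trichotomy s 0 with h | rfl | h
  · rw [min_eq_left h.le]
    refine HasDerivAt.congr_of_eventuallyEq (f := fun x => x ^ 2) (by simpa using hasDerivAt_pow 2 s) ?_
    filter_upwards [Iio_mem_nhds h] with x hx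
    rw [min_eq_left hx.le]
  · rw [hasDerivAt_iff_isLittleO_nhds_zero]
    refine Asymptotics.IsBigO.trans_isLittleO (Asymptotics.IsBigO.of_bound' ?_)
      (Asymptotics.isLittleO_pow_id (𝕜 := ℝ) one_lt_two)
    refine Eventually.of_forall fun x => ?_
    rcases le_total x 0 with h | h <;> simp [h]
  · rw [min_eq_right h.le, mul_zero]
    refine (hasDerivAt_const s (0 : ℝ)).congr_of_eventuallyEq ?_
    filter_upwards [Ioi_mem_nhds h] with x hx
    rw [min_eq_right hx.le]; simp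

lemma neg_part_bound {A Q Z : Matrix n n ℝ} {c : ℝ} (sA : Aᵀ = A) (hQ : PSD Q) (hZ : ‖Z‖ ≤ c) :
    (mf (fun s => 2 * min s 0) A * (Q + Z * A + A * Zᵀ)).trace ≤
      4 * c * (mf (fun s => min s 0 ^ 2) A).trace := by
  have e0 : mf (fun s => min s 0) A * mf (fun s => s) A =
      mf (fun s => min s 0) A * mf (fun s => min s 0) A := by
    rw [mf_mul, mf_mul]
    exact mf_congr fun i => by rcases le_total (ev A i) 0 with h | h <;> simp [h]
  have e3 : 0 ≤ (mf (fun s => -1 * min s 0) A * Q).trace :=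
    (psd_mf fun i => by simp).trace_mul_nonneg hQ
  have e4 : (mf (fun s => min s 0 ^ 2) A).trace = ‖mf (fun s => min s 0) A‖ ^ 2 := by
    rw [trace_mf, norm_mf_sq]
  have sN := mf_symm (fun s => min s 0) A
  rw [mf_id sA] at e0
  rw [← mf_smul] at e3
  rw [← mf_smul, e4]
  generalize mf (fun s => min s 0) A = N at e0 e3 sN
  have e2 : A * N = N * N := by
    simpa [transpose_mul, sN, sA] using congrArg transpose e0
  have e5 : ∀ Z : Matrix n n ℝ, ‖Z‖ ≤ c → (N * N * Z).trace ≤ c * ‖N‖ ^ 2 := fun Z hZ =>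
    (le_abs_self _).trans ((abs_trace_mul_le _ _).trans (by
      nlinarith [mul_le_mul (frobenius_norm_mul N N) hZ (norm_nonneg _) (by positivity)]))
  have e6 := e5 Z hZ
  have e7 := e5 Zᵀ (by rwa [frobenius_norm_transpose])
  rw [Matrix.smul_mul, trace_smul, smul_eq_mul] at e3
  rw [Matrix.smul_mul, trace_smul, Matrix.mul_add, Matrix.mul_add,
    trace_add, trace_add, ← Matrix.mul_assoc, ← Matrix.mul_assoc, e0, trace_mul_cycle N, e2,
    smul_eq_mul]
  linarith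

lemma psd_forward {A : ℝ → Matrix n n ℝ} {c : ℝ} (hc : ContinuousOn A (Set.Icc a b))
    (hs : ∀ x ∈ Set.Icc a b, (A x)ᵀ = A x)
    (hd : ∀ x ∈ Set.Ioo a b, ∃ Q Z : Matrix n n ℝ, PSD Q ∧ ‖Z‖ ≤ c ∧
      HasDerivAt A (Q + Z * A x + A x * Zᵀ) x) (h0 : PSD (A a)) :
    ∀ x ∈ Set.Icc a b, PSD (A x) := by
  have hm : Continuous fun s : ℝ => min s 0 ^ 2 := by fun_prop
  have k1 : ContinuousOn (fun x => (mf (fun s => min s 0 ^ 2) (A x)).trace) (Set.Icc a b) :=
    continuous_trace.comp_continuousOn (mf_continuousOn hs hc fun _ _ _ => hm.continuousAt)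
  have k2 : ∀ x ∈ Set.Ioo a b, ∃ d, HasDerivAt (fun x => (mf (fun s => min s 0 ^ 2) (A x)).trace)
      d x ∧ d ≤ 4 * c * (mf (fun s => min s 0 ^ 2) (A x)).trace := by
    intro x hx
    obtain ⟨Q, Z, hQ, hZ, h1⟩ := hd x hx
    have h2 := hasDerivAt_trace_mf (g := fun s => min s 0 ^ 2) (g' := fun s => 2 * min s 0)
      (eventually_of_mem (Icc_mem_nhds hx.1 hx.2) hs) h1 fun j => hasDerivAt_minsq _
    exact ⟨_, h2, neg_part_bound (hs x (Set.Ioo_subset_Icc_self hx)) hQ hZ⟩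
  have k3 : (mf (fun s => min s 0 ^ 2) (A a)).trace = 0 := by
    rw [trace_mf]; exact sum_eq_zero fun i _ => by simp [h0.ev_nonneg i]
  have key := gron_zero k1 k2 k3
  intro x hx
  refine psd_of_ev (hs x hx) fun i => ?_
  have := key x hx
  rw [trace_mf] at this
  have h2 := (single_le_sum (f := fun i => min (ev (A x) i) 0 ^ 2) (fun _ _ => sq_nonneg _)
    (mem_univ i)).trans this
  have h3 : min (ev (A x) i) 0 = 0 := pow_eq_zero_iff two_ne_zero |>.1 (le_antisymm h2 (sq_nonneg _))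
  exact min_eq_right_iff.1 h3

end Vale.Agent.P371
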