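import Vale.Agent.P371.MF

namespace Vale.Agent.P371

open Matrix Finset Filter Topology
open scoped Matrix.Norms.Frobenius

variable {n : Type*} [Fintype n] [DecidableEq n]

omit [DecidableEq n] in
lemma PSD.conj {m : Type*} [Fintype m] {X : Matrix n n ℝ} (h : PSD X) (Z : Matrix m n ℝ) :
    PSD (Z * X * Zᵀ) := by
  refine ⟨by simp [transpose_mul, h.1, Matrix.mul_assoc], fun v => ?_⟩
  have := h.2 (Zᵀ *ᵥ v)
  rwa [← mulVec_mulVec, ← mulVec_mulVec, dotProduct_mulVec, ← mulVec_transpose]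

omit [DecidableEq n] in
lemma PSD.add {X Y : Matrix n n ℝ} (h : PSD X) (h' : PSD Y) : PSD (X + Y) :=
  ⟨by rw [transpose_add, h.1, h'.1], fun v => by
    rw [add_mulVec, dotProduct_add]; exact add_nonneg (h.2 v) (h'.2 v)⟩

omit [DecidableEq n] in
lemma PSD.smul {X : Matrix n n ℝ} (h : PSD X) {c : ℝ} (hc : 0 ≤ c) : PSD (c • X) :=
  ⟨by rw [transpose_smul, h.1], fun v => by
    rw [smul_mulVec, dotProduct_smul]; exact mul_nonneg hc (h.2 v)⟩

lemma psd_diagonal {d : n → ℝ} (h : ∀ i, 0 ≤ d i) : PSD (diagonal d) :=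
  ⟨diagonal_transpose d, fun v => by
    simp only [dotProduct, mulVec_diagonal]
    exact sum_nonneg fun i _ => by nlinarith [h i, mul_nonneg (h i) (mul_self_nonneg (v i))]⟩

lemma psd_one : PSD (1 : Matrix n n ℝ) := psd_diagonal (d := fun _ => 1) fun _ => zero_le_one

lemma psd_mul_T {m : Type*} [Fintype m] (Z : Matrix m n ℝ) : PSD (Z * Zᵀ) := by
  simpa using (psd_one (n := n)).conj Z

lemma psd_mf {f : ℝ → ℝ} {X : Matrix n n ℝ} (h : ∀ i, 0 ≤ f (ev X i)) : PSD (mf f X) :=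
  (psd_diagonal h).conj _

lemma PSD.diag_nonneg {X : Matrix n n ℝ} (h : PSD X) (i : n) : 0 ≤ X i i := by
  simpa using h.2 (Pi.single i 1)

lemma conj_eU_id {X : Matrix n n ℝ} (h : Xᵀ = X) : (eU X)ᵀ * X * eU X = diagonal (ev X) := by
  have := conj_eU (fun x => x) X
  rwa [mf_id h] at this

lemma ev_eq {X : Matrix n n ℝ} (h : Xᵀ = X) (i : n) : ev X i = ((eU X)ᵀ * X * eU X) i i := by
  rw [conj_eU_id h, diagonal_apply_eq]

lemma PSD.conj_diag {X : Matrix n n ℝ} (h : PSD X) (U : Matrix n n ℝ) (i : n) :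
    0 ≤ (Uᵀ * X * U) i i := by
  have := (h.conj Uᵀ).diag_nonneg i
  rwa [transpose_transpose] at this

lemma PSD.ev_nonneg {X : Matrix n n ℝ} (h : PSD X) (i : n) : 0 ≤ ev X i := by
  rw [ev_eq h.1]; exact h.conj_diag _ i

lemma psd_of_ev {X : Matrix n n ℝ} (h : Xᵀ = X) (h' : ∀ i, 0 ≤ ev X i) : PSD X := by
  rw [← mf_id h]; exact psd_mf h'

lemma le_ev {X : Matrix n n ℝ} {c : ℝ} (h : PSD (X - c • 1)) (i : n) : c ≤ ev X i := by
  have hX : Xᵀ = X := by simpa [transpose_sub] using h.1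
  have := h.conj_diag (eU X) i
  rw [Matrix.mul_sub, Matrix.sub_mul, conj_eU_id hX, Matrix.mul_smul, Matrix.mul_one,
    Matrix.smul_mul, mul_eU] at this
  simpa using this

lemma PSD.trace_mul_nonneg {X Y : Matrix n n ℝ} (hX : PSD X) (hY : PSD Y) : 0 ≤ (X * Y).trace := by
  have := trace_mf_mul (fun x => x) (fun x => x) X Y
  rw [mf_id hX.1, mf_id hY.1] at this
  rw [this]
  exact sum_nonneg fun i _ => sum_nonneg fun j _ =>
    mul_nonneg (ov_nonneg _ _ _ _) (mul_nonneg (hX.ev_nonneg i) (hY.ev_nonneg j))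

lemma PSD.trace_nonneg {X : Matrix n n ℝ} (hX : PSD X) : 0 ≤ X.trace :=
  sum_nonneg fun i _ => hX.diag_nonneg i

lemma norm_mf_sq (f : ℝ → ℝ) (X : Matrix n n ℝ) : ‖mf f X‖ ^ 2 = ∑ i, f (ev X i) ^ 2 := by
  rw [norm_sq_trace, mf_symm, mf_mul, trace_mf]; simp only [sq]

lemma abs_ev_le {X : Matrix n n ℝ} (h : Xᵀ = X) (i : n) : |ev X i| ≤ ‖X‖ := by
  refine abs_le.2 (abs_le_of_sq_le_sq' ?_ (norm_nonneg _))
  conv_rhs => rw [← mf_id h, norm_mf_sq]
  exact single_le_sum (f := fun i => ev X i ^ 2) (fun _ _ => sq_nonneg _) (mem_univ i)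

omit [DecidableEq n] in
lemma trace_mul_sq_le {m : Type*} [Fintype m] (X : Matrix n m ℝ) (Y : Matrix m n ℝ) :
    (X * Y).trace ^ 2 ≤ (X * Xᵀ).trace * (Yᵀ * Y).trace := by
  have := sum_mul_sq_le_sq_mul_sq (univ : Finset (n × m)) (fun p => X p.1 p.2) (fun p => Y p.2 p.1)
  simpa [trace, Matrix.mul_apply, Fintype.sum_prod_type, sq] using this

omit [DecidableEq n] in
lemma abs_trace_mul_le {m : Type*} [Fintype m] (X : Matrix n m ℝ) (Y : Matrix m n ℝ) :
    |(X * Y).trace| ≤ ‖X‖ * ‖Y‖ := by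
  refine abs_le.2 (abs_le_of_sq_le_sq' ?_ (by positivity))
  rw [mul_pow, norm_sq_trace, norm_sq_trace, trace_mul_comm Y]
  exact trace_mul_sq_le X Y

lemma HasDerivAt.mmul {X Y : ℝ → Matrix n n ℝ} {X' Y' : Matrix n n ℝ} {t : ℝ}
    (h : HasDerivAt X X' t) (h' : HasDerivAt Y Y' t) :
    HasDerivAt (fun u => X u * Y u) (X' * Y t + X t * Y') t := HasDerivAt.mul h h'

omit [DecidableEq n] in
lemma HasDerivAt.madd {X Y : ℝ → Matrix n n ℝ} {X' Y' : Matrix n n ℝ} {t : ℝ}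
    (h : HasDerivAt X X' t) (h' : HasDerivAt Y Y' t) :
    HasDerivAt (fun u => X u + Y u) (X' + Y') t := HasDerivAt.add h h'

omit [DecidableEq n] in
lemma HasDerivAt.msub {X Y : ℝ → Matrix n n ℝ} {X' Y' : Matrix n n ℝ} {t : ℝ}
    (h : HasDerivAt X X' t) (h' : HasDerivAt Y Y' t) :
    HasDerivAt (fun u => X u - Y u) (X' - Y') t := HasDerivAt.sub h h'

omit [DecidableEq n] in
lemma HasDerivAt.msmul {c : ℝ → ℝ} {c' : ℝ} {t : ℝ} (h : HasDerivAt c c' t) (X : Matrix n n ℝ) :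
    HasDerivAt (fun u => c u • X) (c' • X) t := HasDerivAt.smul_const h X

omit [DecidableEq n] in
lemma hasDerivAt_mconst (X : Matrix n n ℝ) (t : ℝ) : HasDerivAt (fun _ => X) 0 t :=
  hasDerivAt_const t X

omit [DecidableEq n] in
lemma hasDerivAt_mat {X : ℝ → Matrix n n ℝ} {X' : Matrix n n ℝ} {t : ℝ} :
    HasDerivAt X X' t ↔ ∀ a b, HasDerivAt (fun u => X u a b) (X' a b) t := by
  simp only [hasDerivAt_mat_iff, hasDerivAt_iff_tendsto_slope]
  exact tendsto_pi_nhds.trans (forall_congr' fun a => tendsto_pi_nhds)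

lemma hasDerivAt_mf_param {f : ℝ → ℝ → ℝ} {f' : ℝ → ℝ} {X : Matrix n n ℝ} {t : ℝ}
    (h : ∀ i, HasDerivAt (fun u => f u (ev X i)) (f' (ev X i)) t) :
    HasDerivAt (fun u => mf (f u) X) (mf f' X) t := by
  refine hasDerivAt_mat.2 fun a b => ?_
  simp only [mf_apply]
  exact HasDerivAt.fun_sum fun i _ => (h i).mul_const _

omit [DecidableEq n] in
lemma continuous_trace : Continuous (fun X : Matrix n n ℝ => X.trace) :=
  continuous_id.matrix_trace

/-- Rectangular trace identity. -/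
lemma trace_mf_swap {m : Type*} [Fintype m] [DecidableEq m] (Z : Matrix n m ℝ) (φ : ℝ → ℝ) :
    (mf (fun x => x * φ x) (Z * Zᵀ)).trace = (mf (fun x => x * φ x) (Zᵀ * Z)).trace := by
  have h1 : (Z * Zᵀ)ᵀ = Z * Zᵀ := by simp [transpose_mul]
  have h2 : (Zᵀ * Z)ᵀ = Zᵀ * Z := by simp [transpose_mul]
  rw [← mf_mul, ← mf_mul, mf_id h1, mf_id h2, trace_mul_comm, ← Matrix.mul_assoc,
    mf_intertwine' h1 h2 (Matrix.mul_assoc _ _ _), trace_mul_comm, Matrix.mul_assoc]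

lemma trace_mf_swap' (Z : Matrix n n ℝ) (g : ℝ → ℝ) :
    (mf g (Z * Zᵀ)).trace = (mf g (Zᵀ * Z)).trace := by
  have h : ∀ X : Matrix n n ℝ, (mf g X).trace =
      (mf (fun x => x * dslope g 0 x) X).trace + Fintype.card n * g 0 := by
    intro X
    rw [trace_mf, trace_mf, ← Finset.card_univ, ← nsmul_eq_mul, ← sum_const, ← sum_add_distrib]
    refine sum_congr rfl fun i _ => ?_
    have := sub_smul_dslope g 0 (ev X i)
    rw [smul_eq_mul, sub_zero] at this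
    linarith
  rw [h, h, trace_mf_swap]

/-- Tangent-line form of the Peierls inequality. -/
lemma trace_mf_ge {X : Matrix n n ℝ} (hX : Xᵀ = X) {g : ℝ → ℝ} (α β : n → ℝ)
    (h : ∀ i j, α i + β i * ev X j ≤ g (ev X j)) :
    ∑ i, (α i + β i * X i i) ≤ (mf g X).trace := by
  have h1 : (mf g X).trace = ∑ i, ∑ j, eU X i j ^ 2 * g (ev X j) := by
    rw [sum_comm]
    simp only [← sum_mul, sum_sq_col (eU_mul X), one_mul, trace_mf]
  rw [h1]
  refine sum_le_sum fun i _ => ?_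
  have h2 : α i + β i * X i i = ∑ j, eU X i j ^ 2 * (α i + β i * ev X j) := by
    conv_lhs => rw [← mf_id hX, mf_apply]
    simp only [mul_add, sum_add_distrib, ← sum_mul, sum_sq_row (eU_mul X), one_mul, mul_sum]
    congr 1
    exact sum_congr rfl fun j _ => by ring
  rw [h2]
  exact sum_le_sum fun j _ => mul_le_mul_of_nonneg_left (h i j) (sq_nonneg _)

end Vale.Agent.P371
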