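import Vale.Agent.P371.GT

namespace Vale.Agent.P371

open Matrix Finset Filter Topology MeasureTheory
open scoped Matrix.Norms.Frobenius

variable {n : Type*} [Fintype n] [DecidableEq n]

lemma lin_pos {x u : ℝ} (hx : 0 < x) (h0 : 0 ≤ u) (h1 : u ≤ 1) : 0 < x * (1 - u) + u := by
  rcases h0.eq_or_lt with rfl | h
  · simpa using hx
  · nlinarith [mul_nonneg hx.le (sub_nonneg.2 h1)]

lemma cont_ker {x y : ℝ} (hx : 0 < x) (hy : 0 < y) :
    ContinuousOn (fun u => 1 / ((x * (1 - u) + u) * (y * (1 - u) + u))) (Set.Icc 0 1) :=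
  ContinuousOn.div continuousOn_const (by fun_prop) fun u hu =>
    (mul_pos (lin_pos hx hu.1 hu.2) (lin_pos hy hu.1 hu.2)).ne'

lemma int_ker {x y : ℝ} (hx : 0 < x) (hy : 0 < y) : IntervalIntegrable
    (fun u => 1 / ((x * (1 - u) + u) * (y * (1 - u) + u))) volume 0 1 :=
  (cont_ker hx hy).intervalIntegrable_of_Icc zero_le_one

omit [DecidableEq n] in
lemma ii_sum {f : n → ℝ → ℝ} {a b : ℝ} (h : ∀ i, IntervalIntegrable (f i) volume a b) :
    IntervalIntegrable (fun u => ∑ i, f i u) volume a b :=
  (IntervalIntegrable.sum univ fun i _ => h i).congr fun u _ => by simp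

lemma dslope_log {x y : ℝ} (hx : 0 < x) (hy : 0 < y) :
    dslope Real.log y x = ∫ u in (0 : ℝ)..1, 1 / ((x * (1 - u) + u) * (y * (1 - u) + u)) := by
  have hd : ∀ z u : ℝ, HasDerivAt (fun u => z * (1 - u) + u) (1 - z) u := fun z u => by
    have := (((hasDerivAt_id u).const_sub 1).const_mul z).add (hasDerivAt_id u)
    exact this.congr_deriv (by ring)
  by_cases h : x = y
  · subst h
    rw [dslope_same, Real.deriv_log, intervalIntegral.integral_eq_sub_of_hasDerivAt
      (f := fun u => u / (x * (1 - u) + u) / x) _ (int_ker hx hx)]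
    · simp
    · intro u hu
      rw [Set.uIcc_of_le zero_le_one] at hu
      have h1 := lin_pos hx hu.1 hu.2
      refine (((hasDerivAt_id u).div (hd x u) h1.ne').div_const x).congr_deriv ?_
      simp only [id]
      field_simp
      ring
  · rw [dslope_of_ne _ h, slope_def_field, intervalIntegral.integral_eq_sub_of_hasDerivAt
      (f := fun u => (Real.log (y * (1 - u) + u) - Real.log (x * (1 - u) + u)) / (x - y)) _
      (int_ker hx hy)]
    · simp; ring
    · intro u hu
      rw [Set.uIcc_of_le zero_le_one] at hu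
      have h1 := lin_pos hx hu.1 hu.2
      have h2 := lin_pos hy hu.1 hu.2
      have h3 : x - y ≠ 0 := sub_ne_zero.2 h
      refine ((((hd y u).log h2.ne').sub ((hd x u).log h1.ne')).div_const (x - y)).congr_deriv ?_
      rw [div_sub_div _ _ h2.ne' h1.ne', div_div, div_eq_div_iff (by positivity) (by positivity)]
      ring

lemma fiedler {c : n → ℝ} (hc : ∀ i, 0 < c i) {D : Matrix n n ℝ} (hD : Dᵀ = D) :
    (D * D).trace / 2 ≤ (D * diagonal (fun i => 1 / (2 * c i)) * D * diagonal c).trace := by
  have hs : ∀ a b, D b a = D a b := fun a b => by simpa using congrFun (congrFun hD a) b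
  have h1 : (D * diagonal (fun i => 1 / (2 * c i)) * D * diagonal c).trace =
      ∑ a, ∑ b, D a b ^ 2 * (c a / (2 * c b)) := by
    simp only [trace, diag_apply, mul_diagonal, Matrix.mul_apply (N := D), sum_mul]
    exact sum_congr rfl fun a _ => sum_congr rfl fun b _ => by rw [hs a b]; ring
  have h2 : ∑ a, ∑ b, D a b ^ 2 * (c a / (2 * c b)) = ∑ a, ∑ b, D a b ^ 2 * (c b / (2 * c a)) := by
    rw [sum_comm]
    exact sum_congr rfl fun a _ => sum_congr rfl fun b _ => by rw [hs a b]
  have h3 : (D * D).trace ≤ ∑ a, ∑ b, D a b ^ 2 * (c a / (2 * c b)) +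
      ∑ a, ∑ b, D a b ^ 2 * (c b / (2 * c a)) := by
    simp only [trace, diag_apply, Matrix.mul_apply, ← sum_add_distrib]
    refine sum_le_sum fun a _ => sum_le_sum fun b _ => ?_
    have ha := hc a
    have hb := hc b
    have : 1 ≤ c a / (2 * c b) + c b / (2 * c a) := by
      rw [div_add_div _ _ (by positivity) (by positivity), le_div_iff₀ (by positivity)]
      nlinarith [sq_nonneg (c a - c b)]
    rw [hs a b]
    nlinarith [mul_le_mul_of_nonneg_left this (sq_nonneg (D a b))]
  linarith

lemma s1_key {c : n → ℝ} (hc : ∀ i, 0 < c i) {a : Matrix n n ℝ} (ha : aᵀ = a)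
    (pa : ∀ i, 0 < ev a i) :
    ((a * diagonal c + diagonal c * a - a * a) *
      dk Real.log a (diagonal fun i => 1 / (2 * c i))).trace ≤
      Fintype.card n - (a * diagonal fun i => 1 / (2 * c i)).trace := by
  set U := eU a with hU
  set α := ev a with hα
  set κ := Uᵀ * diagonal c * U with hκ
  set κ' := Uᵀ * (diagonal fun i => 1 / (2 * c i)) * U with hκ'
  have h1 : Uᵀ * a = diagonal α * Uᵀ := by
    have := congrArg transpose (mul_eU_eq ha)
    simpa [transpose_mul, ha] using this
  have h2 : a * U = U * diagonal α := mul_eU_eq ha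
  have hC : Uᵀ * (a * diagonal c + diagonal c * a - a * a) * U =
      diagonal α * κ + κ * diagonal α - diagonal α * diagonal α := by
    simp only [hκ, Matrix.mul_add, Matrix.mul_sub, Matrix.add_mul, Matrix.sub_mul,
      ← Matrix.mul_assoc, h1]
    simp only [Matrix.mul_assoc, h2]
    rw [← Matrix.mul_assoc Uᵀ U, mul_eU, Matrix.one_mul]
  have hκκ : κ' * κ = (1 / 2 : ℝ) • (1 : Matrix n n ℝ) := by
    simp only [hκ, hκ', Matrix.mul_assoc]
    rw [← Matrix.mul_assoc U, eU_mul, Matrix.one_mul, ← Matrix.mul_assoc (diagonal _),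
      diagonal_mul_diagonal]
    have : (diagonal fun i => 1 / (2 * c i) * c i) = (1 / 2 : ℝ) • (1 : Matrix n n ℝ) := by
      rw [smul_one_eq_diagonal]; congr 1; ext i; have := (hc i).ne'; field_simp
    rw [this, Matrix.smul_mul, Matrix.one_mul, Matrix.mul_smul, mul_eU]
  have sκ : ∀ i j, κ j i = κ i j := fun i j => by
    have : κᵀ = κ := by simp [hκ, transpose_mul, Matrix.mul_assoc]
    simpa using congrFun (congrFun this i) j
  have sκ' : ∀ i j, κ' j i = κ' i j := fun i j => by
    have : κ'ᵀ = κ' := by simp [hκ', transpose_mul, Matrix.mul_assoc]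
    simpa using congrFun (congrFun this i) j
  have row : ∀ i, ∑ j, κ' i j * κ j i = 1 / 2 := fun i => by
    simpa [Matrix.mul_apply] using congrFun (congrFun hκκ i) i
  have col : ∀ j, ∑ i, κ' i j * κ j i = 1 / 2 := fun j => by
    rw [← row j]; exact sum_congr rfl fun i _ => by rw [sκ' i j, sκ i j]
  have fied : ∀ g : n → ℝ, (∑ i, g i ^ 2) / 2 ≤ ∑ i, ∑ j, κ' i j * κ j i * (g i * g j) := by
    intro g
    have := fiedler hc (D := U * diagonal g * Uᵀ) (by simp [transpose_mul, Matrix.mul_assoc])
    have e1 : (U * diagonal g * Uᵀ * (U * diagonal g * Uᵀ)).trace = ∑ i, g i ^ 2 := by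
      simp only [Matrix.mul_assoc]
      rw [← Matrix.mul_assoc Uᵀ U, mul_eU, Matrix.one_mul, trace_mul_comm]
      simp only [Matrix.mul_assoc]
      rw [mul_eU]
      simp [sq]
    have e2 : (U * diagonal g * Uᵀ * diagonal (fun i => 1 / (2 * c i)) * (U * diagonal g * Uᵀ) *
        diagonal c).trace = (diagonal g * κ' * diagonal g * κ).trace := by
      simp only [hκ, hκ', Matrix.mul_assoc]
      rw [trace_mul_comm]
      simp only [Matrix.mul_assoc]
    rw [e1, e2] at this
    refine this.trans (le_of_eq ?_)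
    simp only [trace, diag_apply, Matrix.mul_apply (N := κ), mul_diagonal, diagonal_mul]
    exact sum_congr rfl fun i _ => sum_congr rfl fun j _ => by ring
  have main : ∑ i, ∑ j, κ' i j * κ j i * (α i + α j) * dslope Real.log (α j) (α i) ≤
      Fintype.card n := by
    have e : (Fintype.card n : ℝ) = ∑ i, α i * dslope Real.log (α i) (α i) := by
      rw [← Finset.card_univ, card_eq_sum_ones]
      push_cast
      refine sum_congr rfl fun i _ => ?_
      rw [dslope_same, Real.deriv_log, mul_inv_cancel₀ (pa i).ne']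
    rw [e]
    simp only [dslope_log (pa _) (pa _), ← intervalIntegral.integral_const_mul]
    have i1 : ∀ i j (r : ℝ), IntervalIntegrable (fun u => r * (1 / ((α i * (1 - u) + u) *
        (α j * (1 - u) + u)))) volume 0 1 := fun i j r => (int_ker (pa i) (pa j)).const_mul r
    simp only [← intervalIntegral.integral_finsetSum fun j _ => i1 _ j _]
    rw [← intervalIntegral.integral_finsetSum fun i _ => ii_sum fun j => i1 i j _]
    refine intervalIntegral.integral_mono_on_of_le_Ioo zero_le_one ?_ ?_ fun u hu => ?_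
    · exact ii_sum fun i => ii_sum fun j => i1 i j _
    · exact ii_sum fun i => i1 i i _
    · set g : n → ℝ := fun i => 1 / (α i * (1 - u) + u) with hg
      have hp : ∀ i, 0 < α i * (1 - u) + u := fun i => lin_pos (pa i) hu.1.le hu.2.le
      refine le_of_mul_le_mul_left ?_ (sub_pos.2 hu.2)
      have l1 : (1 - u) * ∑ i, ∑ j, κ' i j * κ j i * (α i + α j) * (1 / ((α i * (1 - u) + u) *
          (α j * (1 - u) + u))) = ∑ i, ∑ j, κ' i j * κ j i * g i + ∑ i, ∑ j, κ' i j * κ j i * g j -
          2 * u * ∑ i, ∑ j, κ' i j * κ j i * (g i * g j) := by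
        simp only [mul_sum, ← sum_add_distrib, ← sum_sub_distrib]
        refine sum_congr rfl fun i _ => sum_congr rfl fun j _ => ?_
        have e1 := (hp i).ne'
        have e2 := (hp j).ne'
        have e3 : (1 - u) * (α i + α j) = (α i * (1 - u) + u) + (α j * (1 - u) + u) - 2 * u := by
          ring
        simp only [hg]
        rw [mul_assoc (κ' i j * κ j i), mul_left_comm, ← mul_assoc (1 - u), e3]
        generalize α i * (1 - u) + u = X at e1
        generalize α j * (1 - u) + u = Y at e2
        field_simp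
        ring
      have l2 : (1 - u) * ∑ i, α i * (1 / ((α i * (1 - u) + u) * (α i * (1 - u) + u))) =
          ∑ i, g i - u * ∑ i, g i ^ 2 := by
        simp only [mul_sum, ← sum_sub_distrib]
        refine sum_congr rfl fun i _ => ?_
        have := (hp i).ne'
        simp only [hg]
        field_simp
        ring
      have l3 : ∑ i, ∑ j, κ' i j * κ j i * g i = (∑ i, g i) / 2 := by
        simp only [← sum_mul, row]; rw [← mul_sum]; ring
      have l4 : ∑ i, ∑ j, κ' i j * κ j i * g j = (∑ i, g i) / 2 := by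
        rw [sum_comm]; simp only [← sum_mul, col]; rw [← mul_sum]; ring
      rw [l1, l2, l3, l4]
      nlinarith [mul_le_mul_of_nonneg_left (fied g) hu.1.le]
  have t1 := trace_mf_mul_eq (fun x => x) a (diagonal fun i => 1 / (2 * c i))
  rw [mf_id ha] at t1
  rw [trace_mul_dk, t1, hC, le_sub_iff_add_le, ← sum_add_distrib]
  refine le_trans (le_of_eq (sum_congr rfl fun i _ => ?_)) main
  have : ∀ j, dslope Real.log (α j) (α i) * (κ' i j *
      (diagonal α * κ + κ * diagonal α - diagonal α * diagonal α) j i) =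
      κ' i j * κ j i * (α i + α j) * dslope Real.log (α j) (α i) -
        if j = i then α i * κ' i i else 0 := by
    intro j
    simp only [Matrix.sub_apply, Matrix.add_apply, diagonal_mul, mul_diagonal, diagonal_apply]
    split_ifs with h
    · subst h
      rw [dslope_same, Real.deriv_log]
      have := (pa j).ne'
      field_simp
    · ring
  simp only [← hU, ← hκ', ← hα, this, sum_sub_distrib, sum_ite_eq', mem_univ, if_true]
  ring

end Vale.Agent.P371
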