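import Vale.Agent.P371.Cx
import Vale.Agent.P371.Defs

namespace Vale.Agent.P371

open Matrix Finset Filter Topology MeasureTheory
open scoped ComplexOrder InnerProductSpace

variable {J ι : Type*} [Fintype J] [DecidableEq J] [Fintype ι] [DecidableEq ι]

theorem ccore {u u' : J → ℝ → ι → ℂ} {W : ℝ → Matrix ι ι ℂ} {lam : J → ℝ} {ν : ℝ}
    (h0 : 0 < ν) (h1 : ν < 1) (hl : ∀ j, lam j < 0)
    (hu : ∀ j a, SH (fun x => u j x a) (fun x => u' j x a)) (hW : ∀ x, (W x).PosSemidef)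
    (mW : ∀ a b, Measurable fun x => W x a b)
    (iW : Integrable fun x => ∑ i, (hW x).1.eigenvalues i ^ (1 + ν))
    (ho : ∀ l j, ∫ x, star (u l x) ⬝ᵥ u j x = if l = j then 1 else 0)
    (he : ∀ l j, (∫ x, star (u' l x) ⬝ᵥ u' j x) - ∫ x, star (u l x) ⬝ᵥ W x *ᵥ u j x =
      lam j * ∫ x, star (u l x) ⬝ᵥ u j x) :
    ν * Bnu ν * ∑ j, |lam j| ^ (ν + 1 / 2) ≤
      (ν / (1 + ν)) ^ (1 + ν) * ∫ x, ∑ i, (hW x).1.eigenvalues i ^ (1 + ν) := by
  set c : Bool → ℂ := fun b => if b then Complex.I else 1 with hc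
  have e1 : ∀ (l j : J) (b b' : Bool), (c b' * (star (c b) * if l = j then 1 else 0)).re =
      (1 : Matrix (J × Bool) (J × Bool) ℝ) (l, b) (j, b') := by
    intro l j b b'
    by_cases h : l = j <;> cases b <;> cases b' <;> simp [hc, h, one_apply]
  have := rcore (χ := fun q : J × Bool => fun x => c q.2 • u q.1 x)
    (χ' := fun q x => c q.2 • u' q.1 x) (k := fun q => √(-lam q.1)) h0 h1
    (fun q => Real.sqrt_nonneg _) (fun q a => (hu q.1 a).cmul _) hW mW iW (fun q p => by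
      simp only [star_smul, smul_dotProduct, dotProduct_smul, smul_eq_mul, integral_const_mul, ho,
        e1])
    fun q p => by
      simp only [star_smul, smul_dotProduct, dotProduct_smul, smul_eq_mul, integral_const_mul,
        mulVec_smul]
      rw [sub_eq_iff_eq_add.1 (he q.1 p.1), ho, diagonal_mul_diagonal, mul_add, mul_add,
        Complex.add_re, mul_left_comm (star (c q.2)), mul_left_comm (c p.2) (lam p.1),
        Complex.re_ofReal_mul, e1]
      generalize (c p.2 * _).re = z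
      by_cases h : q = p
      · subst h; simp [Real.mul_self_sqrt (neg_nonneg.2 (hl q.1).le)]
      · simp [h]
  have e2 : ∀ j, √(-lam j) ^ (2 * ν + 1) = |lam j| ^ (ν + 1 / 2) := fun j => by
    rw [Real.sqrt_eq_rpow, ← Real.rpow_mul (neg_nonneg.2 (hl j).le), abs_of_neg (hl j)]
    congr 1; ring
  simp only [Fintype.sum_prod_type, e2, sum_const, card_univ, Fintype.card_bool, nsmul_eq_mul,
    ← mul_sum] at this
  push_cast at this
  linarith

lemma Bnu_eq {ν : ℝ} (h0 : 0 < ν) :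
    Bnu ν = √Real.pi * Real.Gamma (ν + 1) / Real.Gamma (ν + 3 / 2) := by
  have e1 : (Complex.betaIntegral (ν + 1 : ℝ) (ν + 1 : ℝ)).re =
      ∫ t in (0 : ℝ)..1, t ^ ν * (1 - t) ^ ν := by
    rw [Complex.betaIntegral, intervalIntegral.integral_congr
      (g := fun t => ((t ^ ν * (1 - t) ^ ν : ℝ) : ℂ)), intervalIntegral.integral_ofReal,
      Complex.ofReal_re]
    intro t ht
    rw [Set.uIcc_of_le zero_le_one] at ht
    simp [Complex.ofReal_cpow ht.1, Complex.ofReal_cpow (sub_nonneg.2 ht.2)]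
  have e2 := intervalIntegral.integral_comp_mul_add (f := fun y => (1 - y ^ 2) ^ ν) (a := 0)
    (b := 1) (c := 2) two_ne_zero (-1)
  have e3 : ∫ t in (0 : ℝ)..1, (1 - (2 * t + -1) ^ 2) ^ ν =
      2 ^ (2 * ν) * ∫ t in (0 : ℝ)..1, t ^ ν * (1 - t) ^ ν := by
    rw [← intervalIntegral.integral_const_mul]
    refine intervalIntegral.integral_congr fun t ht => ?_
    rw [Set.uIcc_of_le zero_le_one] at ht
    have := sub_nonneg.2 ht.2
    have := ht.1
    rw [Real.rpow_mul zero_le_two, ← Real.mul_rpow ht.1 (by positivity),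
      ← Real.mul_rpow (by positivity) (by positivity)]
    congr 1; norm_num; ring
  have e4 := Real.Gamma_mul_Gamma_add_half (ν + 1)
  rw [e3, ← e1, ← ProbabilityTheory.beta_eq_betaIntegralReal _ _ (by positivity) (by positivity),
    ProbabilityTheory.beta] at e2
  rw [show (1 : ℝ) - 2 * (ν + 1) = -(2 * ν) - 1 by ring, Real.rpow_sub two_pos,
    Real.rpow_neg zero_le_two, show ν + 1 + 1 / 2 = ν + 3 / 2 by ring, two_mul (ν + 1)] at e4
  have g1 := Real.Gamma_pos_of_pos (show 0 < ν + 3 / 2 by positivity)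
  have g2 := Real.Gamma_pos_of_pos (show 0 < ν + 1 + (ν + 1) by positivity)
  have g3 : (0 : ℝ) < 2 ^ (2 * ν) := by positivity
  rw [mul_zero, zero_add, mul_one, show (2 : ℝ) + -1 = 1 by norm_num, smul_eq_mul, ← Bnu] at e2
  rw [eq_div_iff g1.ne']
  generalize Real.Gamma (ν + 3 / 2) = a at *
  generalize Real.Gamma (ν + 1 + (ν + 1)) = b at *
  generalize Real.Gamma (ν + 1) = c at *
  field_simp at e2 e4
  apply mul_left_cancel₀ g2.ne'
  linear_combination (-a) * e2 + c * e4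

lemma Bnu_pos {ν : ℝ} (h0 : 0 < ν) : 0 < Bnu ν := by
  rw [Bnu_eq h0]
  have := Real.pi_pos
  positivity

lemma Lone_eq {ν : ℝ} (h0 : 0 < ν) : Lone (ν + 1 / 2) = (ν / (1 + ν)) ^ (1 + ν) / (ν * Bnu ν) := by
  have := Real.pi_pos
  rw [Lone, Lcl, Bnu_eq h0, add_sub_cancel_right, Real.rpow_add (by positivity), Real.rpow_one,
    show ν + 1 / 2 + 1 / 2 = 1 + ν by ring, show ν + 1 / 2 + 1 = ν + 3 / 2 by ring,
    show ν + 1 / 2 + 3 / 2 = ν + 1 + 1 by ring, Real.Gamma_add_one (by positivity)]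
  have g1 := Real.Gamma_pos_of_pos (show 0 < ν + 3 / 2 by positivity)
  have g2 := Real.Gamma_pos_of_pos (show 0 < ν + 1 by positivity)
  generalize Real.Gamma (ν + 3 / 2) = a at *
  generalize Real.Gamma (ν + 1) = c at *
  generalize (ν / (1 + ν)) ^ ν = t
  field_simp
  ring

lemma trPow_eq {m : ℕ} {A : Matrix (Fin m) (Fin m) ℂ} (h : A.IsHermitian) (p : ℝ) :
    trPow p A = ∑ i, h.eigenvalues i ^ p := by
  rw [trPow, h.cfc_eq, IsHermitian.cfc, Unitary.conjStarAlgAut_apply, trace_mul_cycle,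
    Unitary.coe_star_mul_self, Matrix.one_mul, trace_diagonal, Complex.re_sum]
  rfl

lemma IsH1.sh {m : ℕ} {ψ ψ' : ℝ → EuclideanSpace ℂ (Fin m)} (h : IsH1 ψ ψ') (i : Fin m) :
    SH (fun x => ψ x i) (fun x => ψ' x i) :=
  ⟨h.memL2.eval_piLp i, h.deriv_memL2.eval_piLp i, fun a b => by
    have := (EuclideanSpace.proj (𝕜 := ℂ) i).intervalIntegral_comp_comm
      (memLp_ii h.deriv_memL2 a b)
    rw [← h.ftc] at this
    simpa using this.symm⟩

theorem upper {γ : ℝ} (h1 : 1 / 2 < γ) (h2 : γ < 3 / 2) {m : ℕ} {W : ℝ → Matrix (Fin m) (Fin m) ℂ}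
    (hW : IsPotential (γ + 1 / 2) W) {lam : J → ℝ} {ψ : J → ℝ → EuclideanSpace ℂ (Fin m)}
    (hl : ∀ j, lam j < 0 ∧ IsEigen W (lam j) (ψ j))
    (ho : ∀ i j, ∫ x, ⟪ψ i x, ψ j x⟫_ℂ = if i = j then 1 else 0) :
    ∑ j, |lam j| ^ γ ≤ Lone γ * ∫ x, trPow (γ + 1 / 2) (W x) := by
  obtain ⟨ν, rfl⟩ : ∃ ν, γ = ν + 1 / 2 := ⟨γ - 1 / 2, by ring⟩
  have h0 : 0 < ν := by linarith
  choose ψ' hψ he using fun j => (hl j).2
  rw [show ν + 1 / 2 + 1 / 2 = 1 + ν by ring] at hW ⊢
  have e1 := fun x => trPow_eq (hW.posSemidef x).1 (1 + ν)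
  have e2 : ∀ a b : EuclideanSpace ℂ (Fin m), ⟪a, b⟫_ℂ = star a.ofLp ⬝ᵥ b.ofLp := fun a b =>
    dotProduct_comm _ _
  have := ccore (u := fun j x => (ψ j x).ofLp) (u' := fun j x => (ψ' j x).ofLp) h0 (by linarith)
    (fun j => (hl j).1) (fun j => (hψ j).sh) hW.posSemidef hW.measurable
    (by simpa only [e1] using hW.integrable) (by simpa only [e2] using ho)
    fun l j => by
      have := he j _ _ (hψ l)
      simp only [e2] at this
      exact this
  simp only [e1]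
  rw [Lone_eq h0, div_mul_eq_mul_div, le_div_iff₀' (mul_pos h0 (Bnu_pos h0))]
  exact this

theorem LT_le {γ : ℝ} (h1 : 1 / 2 < γ) (h2 : γ < 3 / 2) (m : ℕ) :
    LT γ m ≤ ENNReal.ofReal (Lone γ) := by
  refine iSup_le fun W => iSup_le fun hW => iSup_le fun _ => ENNReal.div_le_of_le_mul ?_
  refine iSup_le fun N => iSup_le fun lam => iSup_le fun ψ => iSup_le fun hl => iSup_le fun ho => ?_
  refine (ENNReal.ofReal_le_ofReal (upper h1 h2 hW hl ho)).trans_eq (ENNReal.ofReal_mul ?_)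
  have := Real.pi_pos
  have : 0 < γ - 1 / 2 := by linarith
  have : 0 < γ := by linarith
  unfold Lone Lcl
  positivity

end Vale.Agent.P371
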